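import Crest.Agent.Quadric.H1

set_option autoImplicit false

namespace Crest.Agent.Quadric

open Complex Crest.AlgGeometry.QuadricBundle MvPolynomial

noncomputable section

abbrev Fn := ℂ → ℂ → ℂ → ℂ → ℂ → ℂ

lemma mono_mem {k a b i j m q : ℕ} (h1 : i + j = m) (h2 : a + b = 3 * j + q) :
    (fun x y0 y1 e w => x ^ k * y0 ^ a * y1 ^ b * e ^ i * w ^ j : Fn) ∈ Sec m q :=
  Submodule.subset_span ⟨k, a, b, i, j, h1, h2, rfl⟩

lemma Sec_mul {m q m' q' : ℕ} {F G : Fn} (hF : F ∈ Sec m q) (hG : G ∈ Sec m' q') :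
    F * G ∈ Sec (m + m') (q + q') := by
  refine Submodule.span_induction (p := fun F _ => F * G ∈ Sec (m + m') (q + q')) ?_ ?_ ?_ ?_ hF
  · rintro F ⟨k, a, b, i, j, h1, h2, rfl⟩
    refine Submodule.span_induction (p := fun G _ =>
      (fun x y0 y1 e w => x ^ k * y0 ^ a * y1 ^ b * e ^ i * w ^ j : Fn) * G ∈
        Sec (m + m') (q + q')) ?_ ?_ ?_ ?_ hG
    · rintro G ⟨k', a', b', i', j', h1', h2', rfl⟩
      have : ((fun x y0 y1 e w => x ^ k * y0 ^ a * y1 ^ b * e ^ i * w ^ j : Fn) *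
          (fun x y0 y1 e w => x ^ k' * y0 ^ a' * y1 ^ b' * e ^ i' * w ^ j' : Fn)) =
          (fun x y0 y1 e w => x ^ (k + k') * y0 ^ (a + a') * y1 ^ (b + b') * e ^ (i + i') *
            w ^ (j + j') : Fn) := by
        funext x y0 y1 e w
        simp only [Pi.mul_apply, pow_add]
        ring
      rw [this]
      exact mono_mem (by omega) (by omega)
    · rw [mul_zero]; exact zero_mem _
    · intro G H _ _ hG hH
      rw [mul_add]; exact add_mem hG hH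
    · intro c G _ hG
      rw [mul_smul_comm]; exact Submodule.smul_mem _ _ hG
  · rw [zero_mul]; exact zero_mem _
  · intro G H _ _ hG hH
    rw [add_mul]; exact add_mem hG hH
  · intro c G _ hG
    rw [smul_mul_assoc]; exact Submodule.smul_mem _ _ hG

lemma Sec_pow {m q : ℕ} {F : Fn} (hF : F ∈ Sec m q) (n : ℕ) : F ^ n ∈ Sec (n * m) (n * q) := by
  induction n with
  | zero =>
    have h : (F ^ 0 : Fn) = (fun x y0 y1 e w => x ^ 0 * y0 ^ 0 * y1 ^ 0 * e ^ 0 * w ^ 0 : Fn) := by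
      funext x y0 y1 e w; simp
    rw [h]; exact mono_mem (by simp) (by simp)
  | succ n ih =>
    have := Sec_mul ih hF
    rw [pow_succ]
    convert this using 2 <;> ring

/-- multiplication by a polynomial function of `x` (power of `x`) -/
lemma Sec_xpow_mul {m q : ℕ} {F : Fn} (hF : F ∈ Sec m q) (n : ℕ) :
    (fun x y0 y1 e w => x ^ n * F x y0 y1 e w : Fn) ∈ Sec m q := by
  have h : (fun x y0 y1 e w => x ^ n * y0 ^ 0 * y1 ^ 0 * e ^ 0 * w ^ 0 : Fn) ∈ Sec 0 0 :=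
    mono_mem (by simp) (by simp)
  have := Sec_mul h hF
  rw [zero_add, zero_add] at this
  convert this using 1
  funext x y0 y1 e w; simp

lemma Sec_sub_mul {m q : ℕ} {F : Fn} (hF : F ∈ Sec m q) (c : ℂ) :
    (fun x y0 y1 e w => (x - c) * F x y0 y1 e w : Fn) ∈ Sec m q := by
  have h1 := Sec_xpow_mul hF 1
  have h2 := Submodule.smul_mem (Sec m q) c hF
  have h3 := sub_mem h1 h2
  convert h3 using 1
  funext x y0 y1 e w
  simp only [Pi.sub_apply, Pi.smul_apply, smul_eq_mul, pow_one]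
  ring

/-- homogeneity in `(e, w)` -/
lemma Sec_homog {m q : ℕ} {F : Fn} (hF : F ∈ Sec m q) (c x y0 y1 e w : ℂ) :
    F x y0 y1 (c * e) (c * w) = c ^ m * F x y0 y1 e w := by
  refine Submodule.span_induction (p := fun F _ =>
    F x y0 y1 (c * e) (c * w) = c ^ m * F x y0 y1 e w) ?_ ?_ ?_ ?_ hF
  · rintro F ⟨k, a, b, i, j, h1, h2, rfl⟩
    simp only [← h1, mul_pow, pow_add]; ring
  · simp
  · intro G H _ _ hG hH
    simp only [Pi.add_apply, hG, hH]; ring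
  · intro d G _ hG
    simp only [Pi.smul_apply, hG, smul_eq_mul]; ring

/-- homogeneity in `y` -/
lemma Sec_homog_y {m q : ℕ} {F : Fn} (hF : F ∈ Sec m q) (t x y0 y1 e w : ℂ) :
    F x (t * y0) (t * y1) e w = t ^ q * F x y0 y1 e (t ^ 3 * w) := by
  refine Submodule.span_induction (p := fun F _ =>
    F x (t * y0) (t * y1) e w = t ^ q * F x y0 y1 e (t ^ 3 * w)) ?_ ?_ ?_ ?_ hF
  · rintro F ⟨k, a, b, i, j, h1, h2, rfl⟩
    have h : t ^ a * t ^ b = t ^ q * (t ^ 3) ^ j := by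
      rw [← pow_add, h2, pow_add, pow_mul]; ring
    simp only [mul_pow]
    linear_combination (x ^ k * y0 ^ a * y1 ^ b * e ^ i * w ^ j) * h
  · simp
  · intro G H _ _ hG hH
    simp only [Pi.add_apply, hG, hH]; ring
  · intro d G _ hG
    simp only [Pi.smul_apply, hG, smul_eq_mul]; ring

/-- division by `x - c` -/
lemma Sec_div {m q : ℕ} {F : Fn} (hF : F ∈ Sec m q) (c : ℂ) :
    ∃ G ∈ Sec m q, ∀ x y0 y1 e w, F x y0 y1 e w = F c y0 y1 e w + (x - c) * G x y0 y1 e w := by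
  refine Submodule.span_induction (p := fun F _ =>
    ∃ G ∈ Sec m q, ∀ x y0 y1 e w, F x y0 y1 e w = F c y0 y1 e w + (x - c) * G x y0 y1 e w)
      ?_ ?_ ?_ ?_ hF
  · rintro F ⟨k, a, b, i, j, h1, h2, rfl⟩
    refine ⟨∑ l ∈ Finset.range k, (c ^ (k - 1 - l)) •
      (fun x y0 y1 e w => x ^ l * y0 ^ a * y1 ^ b * e ^ i * w ^ j : Fn), ?_, ?_⟩
    · exact Submodule.sum_mem _ fun l _ => Submodule.smul_mem _ _ (mono_mem h1 h2)
    · intro x y0 y1 e w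
      simp only [Finset.sum_apply, Pi.smul_apply, smul_eq_mul]
      have h := (Commute.all x c).geom_sum₂_mul k
      have h' : ∑ l ∈ Finset.range k, c ^ (k - 1 - l) *
          (x ^ l * y0 ^ a * y1 ^ b * e ^ i * w ^ j) =
          (∑ l ∈ Finset.range k, x ^ l * c ^ (k - 1 - l)) * (y0 ^ a * y1 ^ b * e ^ i * w ^ j) := by
        rw [Finset.sum_mul]; exact Finset.sum_congr rfl fun l _ => by ring
      rw [h']
      linear_combination (-(y0 ^ a * y1 ^ b * e ^ i * w ^ j)) * h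
  · exact ⟨0, zero_mem _, by simp⟩
  · rintro F H _ _ ⟨F', hF', h1⟩ ⟨H', hH', h2⟩
    refine ⟨F' + H', add_mem hF' hH', ?_⟩
    intro x y0 y1 e w
    simp only [Pi.add_apply]
    linear_combination h1 x y0 y1 e w + h2 x y0 y1 e w
  · rintro d F _ ⟨F', hF', h1⟩
    refine ⟨d • F', Submodule.smul_mem _ _ hF', ?_⟩
    intro x y0 y1 e w
    simp only [Pi.smul_apply, smul_eq_mul]
    linear_combination d * h1 x y0 y1 e w

lemma cub_mem (k : ℕ) (c0 c1 c2 c3 : ℂ) :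
    (fun x y0 y1 _ w => x ^ k * (c0 * (y0 ^ 3) + c1 * (y0 ^ 2 * y1) + c2 * (y0 * y1 ^ 2) +
      c3 * (y1 ^ 3)) * w : Fn) ∈ Sec 1 0 := by
  have h0 : (fun x y0 y1 e w => x ^ k * y0 ^ 3 * y1 ^ 0 * e ^ 0 * w ^ 1 : Fn) ∈ Sec 1 0 :=
    mono_mem (by norm_num) (by norm_num)
  have h1 : (fun x y0 y1 e w => x ^ k * y0 ^ 2 * y1 ^ 1 * e ^ 0 * w ^ 1 : Fn) ∈ Sec 1 0 :=
    mono_mem (by norm_num) (by norm_num)
  have h2 : (fun x y0 y1 e w => x ^ k * y0 ^ 1 * y1 ^ 2 * e ^ 0 * w ^ 1 : Fn) ∈ Sec 1 0 :=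
    mono_mem (by norm_num) (by norm_num)
  have h3 : (fun x y0 y1 e w => x ^ k * y0 ^ 0 * y1 ^ 3 * e ^ 0 * w ^ 1 : Fn) ∈ Sec 1 0 :=
    mono_mem (by norm_num) (by norm_num)
  have := add_mem (add_mem (add_mem (Submodule.smul_mem _ c0 h0) (Submodule.smul_mem _ c1 h1))
    (Submodule.smul_mem _ c2 h2)) (Submodule.smul_mem _ c3 h3)
  convert this using 1
  funext x y0 y1 e w
  simp only [Pi.add_apply, Pi.smul_apply, smul_eq_mul]
  ring

set_option maxHeartbeats 1000000 in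
lemma tauP_mem : (fun x y0 y1 _ w => tauP x y0 y1 * w : Fn) ∈ Sec 1 0 := by
  have := add_mem (add_mem (add_mem (add_mem (add_mem (add_mem (add_mem (add_mem (add_mem
    (add_mem (add_mem
      (cub_mem 0 (-279936 + 279936*ζ) (139968 + 279936*ζ) (186624 - 116640*ζ) (1296 - 24624*ζ))
      (cub_mem 1 (-93312 + 186624*ζ) (194400 + 46656*ζ) (90720 - 108864*ζ) (-8424 - 9288*ζ)))
      (cub_mem 2 (-7776 + 7776*ζ) (5184 + 7776*ζ) (6048 - 4752*ζ) (-252 - 756*ζ)))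
      (cub_mem 3 (1296 - 3888*ζ) (-4968 + 432*ζ) (-1296 + 2556*ζ) (324 + 36*ζ)))
      (cub_mem 4 (648 + 1080*ζ) (2232 - 1656*ζ) (-192 - 774*ζ) (-149 + 87*ζ)))
      (cub_mem 5 (-684 + 36*ζ) (-534 + 972*ζ) (322 + 56*ζ) (39 - 55*ζ)))
      (cub_mem 6 (330 - 234*ζ) (-56 - 322*ζ) (-162 + 89*ζ) (-1 + 19*ζ)))
      (cub_mem 7 (-87 + 149*ζ) (129 + 32*ζ) (46 - 62*ζ) (-5 - 3*ζ)))
      (cub_mem 8 (-6 - 54*ζ) (-71 + 36*ζ) (-2 + 23*ζ) (3 - 1*ζ)))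
      (cub_mem 9 (21 + 7*ζ) (22 - 28*ζ) (-6 - 4*ζ) (-1 + 1*ζ)))
      (cub_mem 10 (43 + 39*ζ) (84 - 70*ζ) (-6 - 25*ζ) (-4 + 2*ζ)))
      (cub_mem 11 (19 - 1*ζ) (15 - 24*ζ) (-6 - 3*ζ) (-1 + 1*ζ))
  convert this using 1
  funext x y0 y1 e w
  simp only [Pi.add_apply]
  unfold tauP
  ring

/-- evaluation of the `x`-variable at a constant -/
lemma Sec_const {m q : ℕ} {F : Fn} (hF : F ∈ Sec m q) (c : ℂ) :
    (fun _ y0 y1 e w => F c y0 y1 e w : Fn) ∈ Sec m q := by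
  refine Submodule.span_induction (p := fun F _ =>
    (fun _ y0 y1 e w => F c y0 y1 e w : Fn) ∈ Sec m q) ?_ ?_ ?_ ?_ hF
  · rintro F ⟨k, a, b, i, j, h1, h2, rfl⟩
    have h : (fun x y0 y1 e w => x ^ 0 * y0 ^ a * y1 ^ b * e ^ i * w ^ j : Fn) ∈ Sec m q :=
      mono_mem h1 h2
    have := Submodule.smul_mem _ (c ^ k) h
    convert this using 1
    funext x y0 y1 e w
    simp only [Pi.smul_apply, smul_eq_mul]
    ring
  · exact zero_mem _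
  · intro F H _ _ h1 h2
    exact add_mem h1 h2
  · intro d F _ h1
    exact Submodule.smul_mem _ d h1

/-- linear substitution of the frame symbols -/
lemma Sec_subst {m q : ℕ} {F L : Fn} (hF : F ∈ Sec m q) (hL : L ∈ Sec 1 0) (δ : ℂ) :
    (fun x y0 y1 e w => F x y0 y1 (L x y0 y1 e w) (δ * w) : Fn) ∈ Sec m q := by
  refine Submodule.span_induction (p := fun F _ =>
    (fun x y0 y1 e w => F x y0 y1 (L x y0 y1 e w) (δ * w) : Fn) ∈ Sec m q) ?_ ?_ ?_ ?_ hF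
  · rintro F ⟨k, a, b, i, j, h1, h2, rfl⟩
    have h : (fun x y0 y1 e w => x ^ k * y0 ^ a * y1 ^ b * e ^ 0 * w ^ j : Fn) ∈ Sec j q :=
      mono_mem (by omega) h2
    have h3 := Sec_mul (Sec_pow hL i) h
    have h4 := Submodule.smul_mem _ (δ ^ j) h3
    rw [mul_one, mul_zero, zero_add, h1] at h4
    convert h4 using 1
    funext x y0 y1 e w
    simp only [Pi.smul_apply, Pi.mul_apply, Pi.pow_apply, smul_eq_mul]
    ring
  · exact zero_mem _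
  · intro F H _ _ h1 h2
    exact add_mem h1 h2
  · intro d F _ h1
    exact Submodule.smul_mem _ d h1

lemma e_mem (k : ℕ) : (fun x _ _ e _ => x ^ k * e : Fn) ∈ Sec 1 0 := by
  have h : (fun x y0 y1 e w => x ^ k * y0 ^ 0 * y1 ^ 0 * e ^ 1 * w ^ 0 : Fn) ∈ Sec 1 0 :=
    mono_mem (by norm_num) (by norm_num)
  convert h using 1
  funext x y0 y1 e w; simp

/-- a section over the other chart is a Laurent section over chart 0 -/
lemma Sec_pull {m q : ℕ} {F : Fn} (hF : F ∈ Sec m q) :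
    ∃ N : ℕ, ∃ H ∈ Sec m q, ∀ x : ℂ, x ≠ 0 → ∀ y0 y1 e w : ℂ,
      F x⁻¹ y0 y1 (x ^ 6 * e + tauH x y0 y1 * w) ((x ^ 3)⁻¹ * w) =
        (x ^ N)⁻¹ * H x y0 y1 e w := by
  refine Submodule.span_induction (p := fun F _ =>
    ∃ N : ℕ, ∃ H ∈ Sec m q, ∀ x : ℂ, x ≠ 0 → ∀ y0 y1 e w : ℂ,
      F x⁻¹ y0 y1 (x ^ 6 * e + tauH x y0 y1 * w) ((x ^ 3)⁻¹ * w) =
        (x ^ N)⁻¹ * H x y0 y1 e w) ?_ ?_ ?_ ?_ hF
  · rintro F ⟨k, a, b, i, j, h1, h2, rfl⟩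
    have hL : ((fun x _ _ e _ => x ^ 10 * e : Fn) + (fun x y0 y1 _ w => tauP x y0 y1 * w : Fn)) ∈
        Sec 1 0 := add_mem (e_mem 10) tauP_mem
    have h : (fun x y0 y1 e w => x ^ 0 * y0 ^ a * y1 ^ b * e ^ 0 * w ^ j : Fn) ∈ Sec j q :=
      mono_mem (by omega) h2
    have h3 := Sec_mul (Sec_pow hL i) h
    rw [mul_one, mul_zero, zero_add, h1] at h3
    refine ⟨k + 4 * i + 3 * j, _, h3, ?_⟩
    intro x hx y0 y1 e w
    simp only [Pi.mul_apply, Pi.pow_apply, Pi.add_apply]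
    have hb : x ^ 6 * e + tauH x y0 y1 * w = (x ^ 4)⁻¹ * (x ^ 10 * e + tauP x y0 y1 * w) := by
      unfold tauH; field_simp
    rw [hb, mul_pow, mul_pow, inv_pow, inv_pow, inv_pow, ← pow_mul, ← pow_mul, pow_add, pow_add,
      mul_inv, mul_inv]
    ring
  · exact ⟨0, 0, zero_mem _, by simp⟩
  · rintro F G _ _ ⟨N1, H1, hH1, h1⟩ ⟨N2, H2, hH2, h2⟩
    refine ⟨N1 + N2, _, add_mem (Sec_xpow_mul hH1 N2) (Sec_xpow_mul hH2 N1), ?_⟩
    intro x hx y0 y1 e w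
    simp only [Pi.add_apply]
    rw [h1 x hx, h2 x hx, pow_add]
    have h3 : x ^ N1 ≠ 0 := pow_ne_zero _ hx
    have h4 : x ^ N2 ≠ 0 := pow_ne_zero _ hx
    field_simp
  · rintro d F _ ⟨N1, H1, hH1, h1⟩
    refine ⟨N1, d • H1, Submodule.smul_mem _ _ hH1, ?_⟩
    intro x hx y0 y1 e w
    simp only [Pi.smul_apply, smul_eq_mul]
    rw [h1 x hx]; ring

/-- the pair `(G0, G1)` is a global section of `S^m E (3, q)` -/
def Glob (G0 G1 : Fn) : Prop :=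
  ∀ x : ℂ, x ≠ 0 → ∀ y0 y1 e w : ℂ,
    G0 x y0 y1 e w = x ^ 3 * G1 x⁻¹ y0 y1 (x ^ 6 * e + tauH x y0 y1 * w) ((x ^ 3)⁻¹ * w)

lemma glob_of_ne {m q : ℕ} {z0 z1 : Fn} (h0 : z0 ∈ Sec m q) (h1 : z1 ∈ Sec m q) (c : ℂ)
    (hc : c ≠ 0) (h : ∀ y0 y1 e w : ℂ, z0 c y0 y1 e w =
      c ^ 3 * z1 c⁻¹ y0 y1 (c ^ 6 * e + tauH c y0 y1 * w) ((c ^ 3)⁻¹ * w)) :
    ∃ G0 ∈ Sec m q, ∃ G1 ∈ Sec m q, Glob G0 G1 ∧
      (∀ y0 y1 e w, G0 c y0 y1 e w = z0 c y0 y1 e w) ∧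
      (∀ y0 y1 e w, G1 c⁻¹ y0 y1 e w = z1 c⁻¹ y0 y1 e w) := by
  obtain ⟨N, H, hH, hN⟩ := Sec_pull h1
  -- D = x^N z0 - x^3 H
  have hD := sub_mem (Sec_xpow_mul h0 N) (Sec_xpow_mul hH 3)
  obtain ⟨D', hD', hdiv⟩ := Sec_div hD c
  have hcN : c ^ N ≠ 0 := pow_ne_zero _ hc
  have hvan : ∀ y0 y1 e w, c ^ N * z0 c y0 y1 e w - c ^ 3 * H c y0 y1 e w = 0 := by
    intro y0 y1 e w
    rw [h, hN c hc]
    field_simp
    ring
  obtain ⟨F0, hF0, F1, hF1, hsplit⟩ := H1_split m q 2 le_rfl D' hD' N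
  refine ⟨z0 - (fun x y0 y1 e w => (x - c) * F0 x y0 y1 e w), sub_mem h0 (Sec_sub_mul hF0 c),
    z1 - c • (fun x y0 y1 e w => (x - c⁻¹) * F1 x y0 y1 e w),
    sub_mem h1 (Submodule.smul_mem _ _ (Sec_sub_mul hF1 c⁻¹)), ?_, ?_, ?_⟩
  · intro x hx y0 y1 e w
    simp only [Pi.sub_apply, Pi.smul_apply, smul_eq_mul]
    have e1 := hdiv x y0 y1 e w
    simp only [Pi.sub_apply] at e1
    rw [hvan, zero_add] at e1
    have e2 := hsplit x hx y0 y1 e w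
    rw [hN x hx]
    have hxN : x ^ N ≠ 0 := pow_ne_zero _ hx
    have e3 : z0 x y0 y1 e w - x ^ 3 * ((x ^ N)⁻¹ * H x y0 y1 e w) =
        (x - c) * ((x ^ N)⁻¹ * D' x y0 y1 e w) := by
      field_simp
      linear_combination e1
    have e4 : x ^ 3 * (c * (x⁻¹ - c⁻¹)) = -((x - c) * x ^ 2) := by
      field_simp
      ring
    rw [e2] at e3
    generalize F1 x⁻¹ y0 y1 (x ^ 6 * e + tauH x y0 y1 * w) ((x ^ 3)⁻¹ * w) = f at *
    linear_combination e3 + f * e4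
  · intro y0 y1 e w
    simp
  · intro y0 y1 e w
    simp

lemma glob_zero0 {m q : ℕ} {z : Fn} (hz : z ∈ Sec m q) :
    ∃ G0 ∈ Sec m q, ∃ G1 ∈ Sec m q, Glob G0 G1 ∧
      (∀ y0 y1 e w, G0 0 y0 y1 e w = z 0 y0 y1 e w) := by
  obtain ⟨F0, hF0, F1, hF1, hs⟩ := H1_split m q 2 le_rfl z hz 1
  refine ⟨z - (fun x y0 y1 e w => (x - 0) * F0 x y0 y1 e w), sub_mem hz (Sec_sub_mul hF0 0),
    F1, hF1, ?_, ?_⟩
  · intro x hx y0 y1 e w
    have h := hs x hx y0 y1 e w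
    simp only [Pi.sub_apply, sub_zero]
    rw [pow_one] at h
    have h' : z x y0 y1 e w = x * (x⁻¹ * z x y0 y1 e w) := by field_simp
    rw [h', h]; ring
  · intro y0 y1 e w; simp

lemma glob_zero1 {m q : ℕ} {z : Fn} (hz : z ∈ Sec m q) :
    ∃ G0 ∈ Sec m q, ∃ G1 ∈ Sec m q, Glob G0 G1 ∧
      (∀ y0 y1 e w, G1 0 y0 y1 e w = z 0 y0 y1 e w) := by
  obtain ⟨N, H, hH, hN⟩ := Sec_pull hz
  obtain ⟨F0, hF0, F1, hF1, hs⟩ := H1_split m q 2 le_rfl _ (Sec_xpow_mul hH 3) N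
  refine ⟨F0, hF0, z - (fun x y0 y1 e w => (x - 0) * F1 x y0 y1 e w),
    sub_mem hz (Sec_sub_mul hF1 0), ?_, ?_⟩
  · intro x hx y0 y1 e w
    have h := hs x hx y0 y1 e w
    simp only [Pi.sub_apply, sub_zero]
    rw [hN x hx]
    have hx3 : x ^ 3 * x⁻¹ = x ^ 2 := by field_simp
    generalize F1 x⁻¹ y0 y1 (x ^ 6 * e + tauH x y0 y1 * w) ((x ^ 3)⁻¹ * w) = f at *
    linear_combination -h + f * hx3
  · intro y0 y1 e w; simp

/-- global generation of `S^m E (3, q)` in the `x`-direction -/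
theorem glob_gen {m q : ℕ} (i : Fin 2) (c : ℂ) {z : Fn} (hz : z ∈ Sec m q) :
    ∃ G : Fin 2 → Fn, (∀ l, G l ∈ Sec m q) ∧ Glob (G 0) (G 1) ∧
      (∀ y0 y1 e w, G i c y0 y1 e w = z c y0 y1 e w) := by
  rcases eq_or_ne c 0 with rfl | hc
  · fin_cases i
    · obtain ⟨G0, h0, G1, h1, hg, hv⟩ := glob_zero0 hz
      exact ⟨![G0, G1], fun l => by fin_cases l <;> assumption, hg, hv⟩
    · obtain ⟨G0, h0, G1, h1, hg, hv⟩ := glob_zero1 hz
      exact ⟨![G0, G1], fun l => by fin_cases l <;> assumption, hg, hv⟩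
  · have hτ : ∀ d : ℂ, (fun _ y0 y1 _ w => tauP d y0 y1 * w : Fn) ∈ Sec 1 0 :=
      fun d => Sec_const tauP_mem d
    fin_cases i
    · -- chart 0
      have h0 := Sec_const hz c
      have hL : (((c ^ 6)⁻¹ • (fun x _ _ e _ => x ^ 0 * e : Fn)) +
          (-((c ^ 3)⁻¹ * (c ^ 4)⁻¹)) • (fun _ y0 y1 _ w => tauP c y0 y1 * w : Fn)) ∈ Sec 1 0 :=
        add_mem (Submodule.smul_mem _ _ (e_mem 0)) (Submodule.smul_mem _ _ (hτ c))
      have h1 := Submodule.smul_mem _ (c ^ 3)⁻¹ (Sec_subst h0 hL (c ^ 3))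
      obtain ⟨G0, hG0, G1, hG1, hg, hv, -⟩ := glob_of_ne h0 h1 c hc (by
        intro y0 y1 e w
        simp only [Pi.smul_apply, Pi.add_apply, smul_eq_mul, tauH]
        have a1 : (c ^ 6)⁻¹ * (c ^ 0 * (c ^ 6 * e + (c ^ 4)⁻¹ * tauP c y0 y1 * w)) +
            -((c ^ 3)⁻¹ * (c ^ 4)⁻¹) * (tauP c y0 y1 * ((c ^ 3)⁻¹ * w)) = e := by
          field_simp
          ring
        have a2 : c ^ 3 * ((c ^ 3)⁻¹ * w) = w := by field_simp
        have a3 : ∀ f : ℂ, c ^ 3 * ((c ^ 3)⁻¹ * f) = f := by intro f; field_simp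
        simp only [pow_zero, one_mul] at a1 ⊢
        rw [a1, a2, a3])
      exact ⟨![G0, G1], fun l => by fin_cases l <;> assumption, hg, hv⟩
    · -- chart 1
      have h1 := Sec_const hz c
      have hci : c⁻¹ ≠ 0 := inv_ne_zero hc
      have hL : (((c⁻¹ ^ 6) • (fun x _ _ e _ => x ^ 0 * e : Fn)) +
          ((c⁻¹ ^ 4)⁻¹) • (fun _ y0 y1 _ w => tauP c⁻¹ y0 y1 * w : Fn)) ∈ Sec 1 0 :=
        add_mem (Submodule.smul_mem _ _ (e_mem 0)) (Submodule.smul_mem _ _ (hτ c⁻¹))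
      have h0 := Submodule.smul_mem _ (c⁻¹ ^ 3) (Sec_subst h1 hL ((c⁻¹ ^ 3)⁻¹))
      obtain ⟨G0, hG0, G1, hG1, hg, -, hv⟩ := glob_of_ne h0 h1 c⁻¹ hci (by
        intro y0 y1 e w
        simp only [Pi.smul_apply, Pi.add_apply, smul_eq_mul, tauH, pow_zero, one_mul, mul_assoc])
      rw [inv_inv] at hv
      exact ⟨![G0, G1], fun l => by fin_cases l <;> assumption, hg, hv⟩

end

end Crest.Agent.Quadric
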