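import Crest.Agent.Quadric.Ample

set_option autoImplicit false

namespace Crest.Agent.Quadric

open Complex Crest.AlgGeometry.QuadricBundle MvPolynomial

noncomputable section

lemma deg_of_hom {R : MvPolynomial (Fin 2) ℂ} {n : ℕ} (hR : R.IsHomogeneous n)
    {μ : Fin 2 →₀ ℕ} (h : μ ∈ R.support) : μ 0 + μ 1 = n := by
  have h1 := hR (mem_support_iff.mp h)
  have h2 : (Finsupp.weight (1 : Fin 2 → ℕ)) μ = μ 0 + μ 1 := by
    rw [Finsupp.weight_apply, Finsupp.sum_fintype _ _ (by simp)]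
    simp
  rw [← h2]; exact h1

lemma eval_frameSubst (v : Fin 2 → ℂ) (M : Matrix (Fin 2) (Fin 2) ℂ)
    (Q : MvPolynomial (Fin 2) ℂ) :
    eval v (frameSubst M Q) = eval (fun j => ∑ i, M i j * v i) Q := by
  unfold frameSubst
  rw [← MvPolynomial.coe_aeval_eq_eval, RingHom.coe_coe, aeval_bind₁]
  simp [aeval_eq_eval]

lemma Sec_poly {m q : ℕ} {F : Fn} (hF : F ∈ Sec m q) :
    ∃ Q : ℂ → ℂ → ℂ → MvPolynomial (Fin 2) ℂ,
      (∀ x y0 y1, (Q x y0 y1).IsHomogeneous m) ∧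
      (∀ μ, Differentiable ℂ (fun p : ℂ × ℂ × ℂ => coeff μ (Q p.1 p.2.1 p.2.2))) ∧
      ∀ x y0 y1 (v : Fin 2 → ℂ), eval v (Q x y0 y1) = F x y0 y1 (v 0) (v 1) := by
  refine Submodule.span_induction (p := fun F _ => ∃ Q : ℂ → ℂ → ℂ → MvPolynomial (Fin 2) ℂ,
      (∀ x y0 y1, (Q x y0 y1).IsHomogeneous m) ∧
      (∀ μ, Differentiable ℂ (fun p : ℂ × ℂ × ℂ => coeff μ (Q p.1 p.2.1 p.2.2))) ∧
      ∀ x y0 y1 (v : Fin 2 → ℂ), eval v (Q x y0 y1) = F x y0 y1 (v 0) (v 1)) ?_ ?_ ?_ ?_ hF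
  · rintro F ⟨k, a, b, i, j, h1, h2, rfl⟩
    refine ⟨fun x y0 y1 => monomial (Finsupp.single 0 i + Finsupp.single 1 j)
      (x ^ k * y0 ^ a * y1 ^ b), ?_, ?_, ?_⟩
    · intro x y0 y1
      exact isHomogeneous_monomial _ (by simp [h1])
    · intro μ
      simp only [coeff_monomial]
      split_ifs
      · fun_prop
      · fun_prop
    · intro x y0 y1 v
      rw [eval_monomial, Finsupp.prod_fintype _ _ (by simp)]
      simp [Fin.prod_univ_two]
      ring
  · refine ⟨fun _ _ _ => 0, fun _ _ _ => isHomogeneous_zero _ _ _, fun μ => ?_, ?_⟩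
    · simp only [coeff_zero]; fun_prop
    · intro x y0 y1 v; simp
  · rintro F G _ _ ⟨Q1, a1, b1, c1⟩ ⟨Q2, a2, b2, c2⟩
    refine ⟨fun x y0 y1 => Q1 x y0 y1 + Q2 x y0 y1, fun x y0 y1 => (a1 x y0 y1).add (a2 x y0 y1),
      fun μ => ?_, ?_⟩
    · simp only [coeff_add]; exact (b1 μ).add (b2 μ)
    · intro x y0 y1 v; simp [c1, c2]
  · rintro d F _ ⟨Q1, a1, b1, c1⟩
    refine ⟨fun x y0 y1 => C d * Q1 x y0 y1, fun x y0 y1 => ?_, fun μ => ?_, ?_⟩
    · simpa using (isHomogeneous_C (Fin 2) d).mul (a1 x y0 y1)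
    · simp only [coeff_C_mul]; exact (b1 μ).const_mul d
    · intro x y0 y1 v; simp [c1]

/-- the coordinate `y_j` which is `1` in the `y`-chart `j` -/
def ysel (j : Fin 2) (y0 y1 : ℂ) : ℂ := if j = 0 then y0 else y1

lemma ysel_yv (j : Fin 2) (y : ℂ) : ysel j (yv j y).1 (yv j y).2 = 1 := by
  fin_cases j <;> simp [ysel, yv]

/-- every homogeneous polynomial is the value of a constant section -/
lemma exists_const (n : ℕ) (j : Fin 2) {R : MvPolynomial (Fin 2) ℂ} (hR : R.IsHomogeneous n) :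
    ∃ z ∈ Sec n 0, ∀ (x y : ℂ) (v : Fin 2 → ℂ),
      z x (yv j y).1 (yv j y).2 (v 0) (v 1) = eval v R := by
  refine ⟨∑ μ ∈ R.support, coeff μ R • (fun _ y0 y1 e w =>
    (ysel j y0 y1) ^ (3 * μ 1) * e ^ (μ 0) * w ^ (μ 1) : Fn), ?_, ?_⟩
  · refine Submodule.sum_mem _ fun μ hμ => Submodule.smul_mem _ _ ?_
    have hd := deg_of_hom hR hμ
    fin_cases j
    · have h : (fun x y0 y1 e w => x ^ 0 * y0 ^ (3 * μ 1) * y1 ^ 0 * e ^ (μ 0) * w ^ (μ 1) : Fn)
          ∈ Sec n 0 := mono_mem hd (by simp)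
      convert h using 1
      funext x y0 y1 e w; simp [ysel]
    · have h : (fun x y0 y1 e w => x ^ 0 * y0 ^ 0 * y1 ^ (3 * μ 1) * e ^ (μ 0) * w ^ (μ 1) : Fn)
          ∈ Sec n 0 := mono_mem hd (by simp)
      convert h using 1
      funext x y0 y1 e w; simp [ysel]
  · intro x y v
    rw [eval_eq']
    simp only [Finset.sum_apply, Pi.smul_apply, smul_eq_mul, ysel_yv, one_pow, one_mul,
      Fin.prod_univ_two]

lemma fin2_ne : ∀ a b : Fin 2, a ≠ b → (a = 0 ∧ b = 1) ∨ (a = 1 ∧ b = 0) := by decide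

/-- the change of `x`-chart for a global section -/
lemma glob_rel {n : ℕ} {G : Fin 2 → Fn} (hG : Glob (G 0) (G 1)) (i i' j : Fin 2) (X Y : ℂ)
    (hX : i ≠ i' → X ≠ 0) (e w : ℂ) (M : Matrix (Fin 2) (Fin 2) ℂ) (hM : M = gx i i' j X Y) :
    G i X (yv j Y).1 (yv j Y).2 e w = (if i = i' then 1 else X ^ 3) *
      G i' (if i = i' then X else X⁻¹) (yv j Y).1 (yv j Y).2 (M 0 0 * e + M 1 0 * w)
        (M 1 1 * w) ∧ M 0 1 = 0 := by
  subst hM
  by_cases h : i = i'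
  · subst h
    simp [gx]
  · have hX' := hX h
    have h01 : (i = 0 ∧ i' = 1) ∨ (i = 1 ∧ i' = 0) := fin2_ne i i' h
    rcases h01 with ⟨rfl, rfl⟩ | ⟨rfl, rfl⟩
    · simp [gx]
      exact hG X hX' _ _ e w
    · simp [gx]
      have h1 := hG X⁻¹ (inv_ne_zero hX') (yv j Y).1 (yv j Y).2
        (X ^ 6 * e + -(X ^ 3 * tauH X⁻¹ (yv j Y).1 (yv j Y).2 * w)) ((X ^ 3)⁻¹ * w)
      rw [inv_inv] at h1
      rw [h1]
      have a1 : X⁻¹ ^ 6 * (X ^ 6 * e + -(X ^ 3 * tauH X⁻¹ (yv j Y).1 (yv j Y).2 * w)) +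
          tauH X⁻¹ (yv j Y).1 (yv j Y).2 * ((X ^ 3)⁻¹ * w) = e := by
        field_simp
        ring
      have a2 : (X⁻¹ ^ 3)⁻¹ * ((X ^ 3)⁻¹ * w) = w := by field_simp
      rw [a1, a2]
      field_simp

/-- the change of `y`-chart -/
lemma y_rel {n : ℕ} {F : Fn} (hF : F ∈ Sec n 0) (j j' : Fin 2) (x Y : ℂ)
    (hY : j ≠ j' → Y ≠ 0) (e w : ℂ) :
    F x (yv j' (if j = j' then Y else Y⁻¹)).1 (yv j' (if j = j' then Y else Y⁻¹)).2 e
      ((if j = j' then 1 else Y ^ 3) * w) = F x (yv j Y).1 (yv j Y).2 e w := by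
  by_cases h : j = j'
  · subst h; simp
  · have hY' := hY h
    have h01 : (j = 0 ∧ j' = 1) ∨ (j = 1 ∧ j' = 0) := fin2_ne j j' h
    have key : yv j' Y⁻¹ = (Y⁻¹ * (yv j Y).1, Y⁻¹ * (yv j Y).2) := by
      rcases h01 with ⟨rfl, rfl⟩ | ⟨rfl, rfl⟩ <;> simp [yv, hY']
    simp only [if_neg h, key]
    rw [Sec_homog_y hF]
    have : Y⁻¹ ^ 3 * (Y ^ 3 * w) = w := by field_simp
    rw [this]; simp

/-- scalar factor: the section of `O(N₁, N₂)` which is `1` on chart `α` -/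
def ell (α : Chart) (N1 N2 : ℕ) (β : Chart) (p : Fin 2 → ℂ) : ℂ :=
  (if β.1 = α.1 then 1 else (p 0) ^ N1) * (if β.2 = α.2 then 1 else (p 1) ^ N2)

lemma scal1 (a b c : Fin 2) (x : ℂ) (hx : a ≠ b → x ≠ 0) (N k S : ℕ) :
    (if a = c then 1 else x ^ N) * (if a = b then 1 else x ^ S) =
      (if a = b then 1 else x ^ (-(k : ℤ))) *
        ((if b = c then 1 else (if a = b then x else x⁻¹) ^ N) *
          (if a = b then 1 else x) ^ (k + S + N)) := by
  by_cases h : a = b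
  · subst h; simp
  · have hx' := hx h
    have h3 : (a = c ∧ b ≠ c) ∨ (a ≠ c ∧ b = c) := by
      revert h; clear hx; revert a b c; decide
    rw [if_neg h, if_neg h, if_neg h, if_neg h]
    rcases h3 with ⟨h4, h5⟩ | ⟨h4, h5⟩
    · rw [if_pos h4, if_neg h5, zpow_neg, zpow_natCast, pow_add, pow_add, inv_pow]
      field_simp
    · rw [if_neg h4, if_pos h5, zpow_neg, zpow_natCast, pow_add, pow_add]
      field_simp

theorem gK_ample (K : ℕ) (_hK : 1 ≤ K) : IsAmple (gK K) := by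
  intro k
  refine ⟨k + 3 * K, fun n hn α p R hR => ?_⟩
  obtain ⟨z, hz, hzv⟩ := exists_const n α.2 hR
  obtain ⟨G, hG, hglob, hval⟩ := glob_gen α.1 (p 0 ^ K) hz
  choose Qp hhom hdiff heval using fun l => Sec_poly (hG l)
  refine ⟨fun β p' => ell α (n - k - 3 * K) (n - k) β p' •
    Qp β.1 (p' 0 ^ K) (yv β.2 (p' 1 ^ K)).1 (yv β.2 (p' 1 ^ K)).2, ⟨?_, ?_, ?_⟩, ?_⟩
  · intro β p'
    exact (homogeneousSubmodule (Fin 2) ℂ n).smul_mem _ (hhom _ _ _ _)
  · intro β μ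
    simp only [coeff_smul, smul_eq_mul]
    refine Differentiable.mul ?_ ?_
    · unfold ell
      split_ifs <;> fun_prop
    · have h1 : Differentiable ℂ (fun p' : Fin 2 → ℂ => ((p' 0 ^ K, (yv β.2 (p' 1 ^ K)).1,
          (yv β.2 (p' 1 ^ K)).2) : ℂ × ℂ × ℂ)) := by
        have h2 : β.2 = 0 ∨ β.2 = 1 := by generalize β.2 = t; revert t; decide
        rcases h2 with h2 | h2 <;> simp only [h2, yv] <;> simp <;> fun_prop
      exact (hdiff β.1 μ).comp h1
  · rintro ⟨i, j⟩ ⟨i', j'⟩ p' hp'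
    obtain ⟨hp1, hp2⟩ := hp'
    simp only at hp1 hp2
    apply MvPolynomial.funext
    intro v
    simp only [smul_eval, eval_frameSubst, heval]
    set X : ℂ := p' 0 ^ K with hXdef
    set Y : ℂ := p' 1 ^ K with hYdef
    have hX : i ≠ i' → X ≠ 0 := fun h => pow_ne_zero _ (hp1 h)
    have hY : j ≠ j' → Y ≠ 0 := fun h => pow_ne_zero _ (hp2 h)
    obtain ⟨hrel, hM01⟩ := glob_rel (n := n) hglob i i' j X Y hX (v 0) (v 1) _ rfl
    have hyrel := y_rel (hG i') j j' (if i = i' then X else X⁻¹) Y hY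
      ((gx i i' j X Y) 0 0 * v 0 + (gx i i' j X Y) 1 0 * v 1) ((gx i i' j X Y) 1 1 * v 1)
    rw [hrel, ← hyrel]
    have htau0 : (tau (i, j) (i', j') p') 0 ^ K = if i = i' then X else X⁻¹ := by
      simp only [tau, hXdef]
      split_ifs <;> simp
    have htau1 : (tau (i, j) (i', j') p') 1 ^ K = if j = j' then Y else Y⁻¹ := by
      simp only [tau, hYdef]
      split_ifs <;> simp
    rw [htau0, htau1]
    -- the frame change
    set lam : ℂ := lineTrans 1 1 (i, j) (i', j') p' with hlam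
    have hg : gK K (i, j) (i', j') p' = lam • (gx i i' j X Y * gy j j' Y) := rfl
    have hgy00 : gy j j' Y 0 0 = 1 := by unfold gy; split_ifs <;> simp
    have hgy01 : gy j j' Y 0 1 = 0 := by unfold gy; split_ifs <;> simp
    have hgy10 : gy j j' Y 1 0 = 0 := by unfold gy; split_ifs <;> simp
    have hgy11 : gy j j' Y 1 1 = if j = j' then 1 else Y ^ 3 := by
      unfold gy; split_ifs <;> simp
    have hs0 : ∑ l, gK K (i, j) (i', j') p' l 0 * v l =
        lam * ((gx i i' j X Y) 0 0 * v 0 + (gx i i' j X Y) 1 0 * v 1) := by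
      rw [hg]
      simp only [Fin.sum_univ_two, Matrix.smul_apply, Matrix.mul_apply, smul_eq_mul, hgy00,
        hgy01, hgy10, hgy11, hM01]
      ring
    have hs1 : ∑ l, gK K (i, j) (i', j') p' l 1 * v l =
        lam * ((if j = j' then 1 else Y ^ 3) * ((gx i i' j X Y) 1 1 * v 1)) := by
      rw [hg]
      simp only [Fin.sum_univ_two, Matrix.smul_apply, Matrix.mul_apply, smul_eq_mul, hgy00,
        hgy01, hgy10, hgy11, hM01]
      ring
    rw [hs0, hs1, Sec_homog (hG i')]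
    -- scalars
    generalize G i' (if i = i' then X else X⁻¹) (yv j' (if j = j' then Y else Y⁻¹)).1
      (yv j' (if j = j' then Y else Y⁻¹)).2
      ((gx i i' j X Y) 0 0 * v 0 + (gx i i' j X Y) 1 0 * v 1)
      ((if j = j' then 1 else Y ^ 3) * ((gx i i' j X Y) 1 1 * v 1)) = g
    have hscal : ell α (n - k - 3 * K) (n - k) (i, j) p' * (if i = i' then 1 else X ^ 3) =
        lineTrans (-(k : ℤ)) (-(k : ℤ)) (i, j) (i', j') p' *
          (ell α (n - k - 3 * K) (n - k) (i', j') (tau (i, j) (i', j') p') * lam ^ n) := by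
      obtain ⟨N1, hN1⟩ : ∃ N1, n = k + 3 * K + N1 := ⟨n - k - 3 * K, by omega⟩
      have e1 : n - k - 3 * K = N1 := by omega
      have e2 : n - k = 3 * K + N1 := by omega
      rw [e1, e2]
      have s1 := scal1 i i' α.1 (p' 0) hp1 N1 k (3 * K)
      have s2 := scal1 j j' α.2 (p' 1) hp2 (3 * K + N1) k 0
      have e3 : k + 3 * K + N1 = n := by omega
      have e4 : k + 0 + (3 * K + N1) = n := by omega
      rw [e3] at s1
      rw [e4] at s2
      have e5 : (if i = i' then (1 : ℂ) else X ^ 3) = if i = i' then 1 else (p' 0) ^ (3 * K) := by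
        rw [hXdef, ← pow_mul, mul_comm K 3]
      have e6 : lam = (if i = i' then (1 : ℂ) else p' 0) * (if j = j' then 1 else p' 1) := by
        rw [hlam]; simp [lineTrans]
      have e7 : (if j = j' then (1 : ℂ) else p' 1 ^ 0) = 1 := by simp
      rw [e7, mul_one] at s2
      rw [e5, e6]
      simp only [ell, lineTrans, tau, Matrix.cons_val_zero, Matrix.cons_val_one]
      calc _ = ((if i = α.1 then 1 else (p' 0) ^ N1) * (if i = i' then 1 else (p' 0) ^ (3 * K))) *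
            (if j = α.2 then 1 else (p' 1) ^ (3 * K + N1)) := by ring
        _ = _ := by rw [s1, s2, mul_pow]; ring
    linear_combination g * hscal
  · apply MvPolynomial.funext
    intro v
    simp only [smul_eval, heval, hval, hzv]
    simp [ell]

end

end Crest.Agent.Quadric
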