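import Mathlib

/-!
Generic one-variable lemmas for S0396: Fourier modes of a `2πi`-periodic function on `ℂ` and the
three-point identity; sub-mean-value property.
-/

set_option autoImplicit false

namespace Crest.Agent.Quadric.Ana

open Complex MeasureTheory Set Filter Topology

section partials

variable {E : Type*} [NormedAddCommGroup E] [NormedSpace ℝ E]

/-- derivative in the real direction -/
noncomputable def dx (f : ℂ → E) (z : ℂ) : E := fderiv ℝ f z 1
/-- derivative in the imaginary direction -/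
noncomputable def dy (f : ℂ → E) (z : ℂ) : E := fderiv ℝ f z I
/-- Laplacian -/
noncomputable def lap (f : ℂ → E) (z : ℂ) : E := dx (dx f) z + dy (dy f) z

theorem contDiff_dx {f : ℂ → E} {n : ℕ∞} (hf : ContDiff ℝ ((n + 1 : ℕ∞) : WithTop ℕ∞) f) :
    ContDiff ℝ (n : WithTop ℕ∞) (dx f) := by
  have h1 : ContDiff ℝ (n : WithTop ℕ∞) (fderiv ℝ f) := hf.fderiv_right (by exact_mod_cast le_refl _)
  exact h1.clm_apply contDiff_const

theorem contDiff_dy {f : ℂ → E} {n : ℕ∞} (hf : ContDiff ℝ ((n + 1 : ℕ∞) : WithTop ℕ∞) f) :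
    ContDiff ℝ (n : WithTop ℕ∞) (dy f) := by
  have h1 : ContDiff ℝ (n : WithTop ℕ∞) (fderiv ℝ f) := hf.fderiv_right (by exact_mod_cast le_refl _)
  exact h1.clm_apply contDiff_const

theorem dx1 {f : ℂ → E} (hf : ContDiff ℝ 2 f) : ContDiff ℝ 1 (dx f) := by
  have h1 : ContDiff ℝ 1 (fderiv ℝ f) := hf.fderiv_right (by norm_num)
  exact h1.clm_apply contDiff_const

theorem dy1 {f : ℂ → E} (hf : ContDiff ℝ 2 f) : ContDiff ℝ 1 (dy f) := by
  have h1 : ContDiff ℝ 1 (fderiv ℝ f) := hf.fderiv_right (by norm_num)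
  exact h1.clm_apply contDiff_const

theorem dx0 {f : ℂ → E} (hf : ContDiff ℝ 1 f) : Continuous (dx f) :=
  (hf.continuous_fderiv (by norm_num)).clm_apply continuous_const

theorem dy0 {f : ℂ → E} (hf : ContDiff ℝ 1 f) : Continuous (dy f) :=
  (hf.continuous_fderiv (by norm_num)).clm_apply continuous_const

theorem lap0 {f : ℂ → E} (hf : ContDiff ℝ 2 f) : Continuous (lap f) :=
  (dx0 (dx1 hf)).add (dy0 (dy1 hf))

theorem hasDerivAt_dx {f : ℂ → E} (hf : ContDiff ℝ 1 f) (s : ℝ) (w : ℂ) :
    HasDerivAt (fun t : ℝ => f (t + w)) (dx f (s + w)) s := by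
  have h1 : HasFDerivAt f (fderiv ℝ f (s + w)) (s + w) :=
    (hf.differentiable (by norm_num) _).hasFDerivAt
  have h2 : HasDerivAt (fun t : ℝ => ((t : ℂ) + w)) 1 s := by
    simpa using (Complex.ofRealCLM.hasDerivAt (x := s)).add_const w
  exact h1.comp_hasDerivAt s h2

theorem hasDerivAt_dy {f : ℂ → E} (hf : ContDiff ℝ 1 f) (θ : ℝ) (w : ℂ) :
    HasDerivAt (fun t : ℝ => f (w + t * I)) (dy f (w + θ * I)) θ := by
  have h1 : HasFDerivAt f (fderiv ℝ f (w + θ * I)) (w + θ * I) :=
    (hf.differentiable (by norm_num) _).hasFDerivAt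
  have h2 : HasDerivAt (fun t : ℝ => (w + (t : ℂ) * I)) I θ := by
    have := ((Complex.ofRealCLM.hasDerivAt (x := θ)).mul_const I).const_add w
    simpa using this
  exact h1.comp_hasDerivAt θ h2

end partials

/-- (unnormalised) Fourier mode in the imaginary direction -/
noncomputable def mode (f : ℂ → ℂ) (m : ℤ) (s : ℝ) : ℂ :=
  ∫ θ in (0 : ℝ)..(2 * Real.pi), f (s + θ * I) * cexp (-(m * θ * I))

theorem norm_exp_mode (m : ℤ) (θ : ℝ) : ‖cexp (-(m * θ * I))‖ = 1 := by
  rw [Complex.norm_exp]; simp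

theorem mode_integrand_cont {f : ℂ → ℂ} (hf : Continuous f) (m : ℤ) :
    Continuous (fun p : ℝ × ℝ => f (p.1 + p.2 * I) * cexp (-(m * p.2 * I))) := by
  fun_prop

theorem mode_cont {f : ℂ → ℂ} (hf : Continuous f) (m : ℤ) : Continuous (mode f m) := by
  unfold mode
  exact intervalIntegral.continuous_parametric_intervalIntegral_of_continuous'
    (f := fun s θ : ℝ => f (s + θ * I) * cexp (-(m * θ * I)))
    (mode_integrand_cont hf m) _ _

theorem mode_hasDerivAt {f : ℂ → ℂ} (hf : ContDiff ℝ 1 f) (m : ℤ) (s : ℝ) :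
    HasDerivAt (mode f m) (mode (dx f) m s) s := by
  have hc := mode_integrand_cont hf.continuous m
  have hc' := mode_integrand_cont (dx0 hf) m
  obtain ⟨C, hC⟩ := (isCompact_Icc (a := s - 1) (b := s + 1)).prod
    (isCompact_Icc (a := (0 : ℝ)) (b := 2 * Real.pi)) |>.exists_bound_of_continuousOn hc'.continuousOn
  have hpi : (0 : ℝ) ≤ 2 * Real.pi := by positivity
  have := intervalIntegral.hasDerivAt_integral_of_dominated_loc_of_deriv_le
    (μ := volume) (a := 0) (b := 2 * Real.pi) (x₀ := s) (s := Icc (s - 1) (s + 1))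
    (F := fun s θ : ℝ => f (s + θ * I) * cexp (-(m * θ * I)))
    (F' := fun s θ : ℝ => dx f (s + θ * I) * cexp (-(m * θ * I)))
    (bound := fun _ => C)
    (Icc_mem_nhds (by linarith) (by linarith))
    (Filter.Eventually.of_forall fun x =>
      (Continuous.aestronglyMeasurable (by
        exact hc.comp (by fun_prop : Continuous fun θ : ℝ => ((x, θ) : ℝ × ℝ)))))
    (Continuous.intervalIntegrable
      (by exact hc.comp (by fun_prop : Continuous fun θ : ℝ => ((s, θ) : ℝ × ℝ))) _ _)
    (Continuous.aestronglyMeasurable (by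
        exact hc'.comp (by fun_prop : Continuous fun θ : ℝ => ((s, θ) : ℝ × ℝ))))
    (Filter.Eventually.of_forall fun t ht x hx => by
      have h1 : t ∈ Icc 0 (2 * Real.pi) := by
        rw [uIoc_of_le hpi] at ht; exact ⟨ht.1.le, ht.2⟩
      exact hC (x, t) ⟨hx, h1⟩)
    intervalIntegrable_const
    (Filter.Eventually.of_forall fun t ht x hx => by
      exact (hasDerivAt_dx hf x (t * I)).mul_const _)
  exact this.2

theorem mode_dy {f : ℂ → ℂ} (hf : ContDiff ℝ 1 f)
    (hper : ∀ z, f (z + 2 * Real.pi * I) = f z) (m : ℤ) (s : ℝ) :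
    mode (dy f) m s = I * m * mode f m s := by
  have h1 : ∀ θ : ℝ, HasDerivAt (fun θ : ℝ => f (s + θ * I) * cexp (-(m * θ * I)))
      (dy f (s + θ * I) * cexp (-(m * θ * I)) + f (s + θ * I) * (cexp (-(m * θ * I)) * (-(m * I)))) θ := by
    intro θ
    refine (hasDerivAt_dy hf θ s).mul ?_
    have h2 : HasDerivAt (fun t : ℝ => (-((m : ℂ) * t * I))) (-(m * I)) θ := by
      have := ((((Complex.ofRealCLM.hasDerivAt (x := θ)).const_mul (m : ℂ)).mul_const I)).fun_neg
      simpa using this
    exact h2.cexp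
  have hc := mode_integrand_cont (dy0 hf) m
  have hc0 := mode_integrand_cont hf.continuous m
  have c1 : Continuous fun θ : ℝ => dy f (s + θ * I) * cexp (-(m * θ * I)) :=
    hc.comp (by fun_prop : Continuous fun θ : ℝ => ((s, θ) : ℝ × ℝ))
  have c2 : Continuous fun θ : ℝ => f (s + θ * I) * (cexp (-(m * θ * I)) * (-(m * I))) := by
    have : Continuous fun θ : ℝ => f (s + θ * I) * cexp (-(m * θ * I)) :=
      hc0.comp (by fun_prop : Continuous fun θ : ℝ => ((s, θ) : ℝ × ℝ))
    have h3 := this.fun_mul (continuous_const (y := (-((m : ℂ) * I))))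
    convert h3 using 2
    ring
  have h4 := intervalIntegral.integral_eq_sub_of_hasDerivAt (a := 0) (b := 2 * Real.pi)
    (fun θ _ => h1 θ) ((c1.add c2).intervalIntegrable _ _)
  rw [intervalIntegral.integral_add (c1.intervalIntegrable _ _) (c2.intervalIntegrable _ _)] at h4
  have h5 : f (s + ((2 * Real.pi : ℝ) : ℂ) * I) * cexp (-(m * ((2 * Real.pi : ℝ) : ℂ) * I)) -
      f (s + ((0 : ℝ) : ℂ) * I) * cexp (-(m * ((0 : ℝ) : ℂ) * I)) = 0 := by
    have h6 : cexp (-(m * ((2 * Real.pi : ℝ) : ℂ) * I)) = 1 := by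
      have : -((m : ℂ) * ((2 * Real.pi : ℝ) : ℂ) * I) = ((-m : ℤ) : ℂ) * (2 * Real.pi * I) := by
        push_cast; ring
      rw [this, Complex.exp_int_mul_two_pi_mul_I]
    rw [h6]
    have h7 : (s : ℂ) + ((2 * Real.pi : ℝ) : ℂ) * I = s + 2 * Real.pi * I := by push_cast; ring
    rw [h7, hper]
    simp
  rw [h5] at h4
  have h8 : ∫ θ in (0 : ℝ)..(2 * Real.pi), f (s + θ * I) * (cexp (-(m * θ * I)) * (-(m * I))) =
      -(m * I) * mode f m s := by
    unfold mode
    rw [← intervalIntegral.integral_const_mul]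
    congr 1
    funext θ
    ring
  rw [h8] at h4
  have h9 : mode (dy f) m s + -(m * I) * mode f m s = 0 := h4
  linear_combination h9

/-- the kernel `sinh (m u) / m` -/
noncomputable def kk (m : ℤ) (u : ℝ) : ℝ := ∫ t in (0 : ℝ)..u, Real.cosh (m * t)

theorem kk_hasDerivAt (m : ℤ) (u : ℝ) : HasDerivAt (kk m) (Real.cosh (m * u)) u := by
  unfold kk
  have hc : Continuous (fun t : ℝ => Real.cosh (m * t)) := by fun_prop
  exact intervalIntegral.integral_hasDerivAt_right (hc.intervalIntegrable _ _)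
    hc.aestronglyMeasurable.stronglyMeasurableAtFilter hc.continuousAt

theorem kk_zero (m : ℤ) : kk m 0 = 0 := by simp [kk]

theorem mul_kk (m : ℤ) (u : ℝ) : (m : ℝ) * kk m u = Real.sinh (m * u) := by
  have h1 : ∀ t : ℝ, HasDerivAt (fun t : ℝ => Real.sinh (m * t)) (m * Real.cosh (m * t)) t := by
    intro t
    have h2 : HasDerivAt (fun t : ℝ => (m : ℝ) * t) m t := by
      simpa using (hasDerivAt_id t).const_mul (m : ℝ)
    have := h2.sinh
    convert this using 1
    ring
  have hc : Continuous (fun t : ℝ => (m : ℝ) * Real.cosh (m * t)) := by fun_prop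
  have h3 := intervalIntegral.integral_eq_sub_of_hasDerivAt (a := 0) (b := u)
    (fun θ _ => h1 θ) (hc.intervalIntegrable _ _)
  rw [intervalIntegral.integral_const_mul] at h3
  simpa [kk] using h3

theorem cosh_hasDerivAt (m : ℤ) (u : ℝ) :
    HasDerivAt (fun u : ℝ => Real.cosh (m * u)) ((m : ℝ) ^ 2 * kk m u) u := by
  have h2 : HasDerivAt (fun t : ℝ => (m : ℝ) * t) m u := by
    simpa using (hasDerivAt_id u).const_mul (m : ℝ)
  have := h2.cosh
  convert this using 1
  rw [← mul_kk]; ring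

theorem kk_nonneg (m : ℤ) {u : ℝ} (hu : 0 ≤ u) : 0 ≤ kk m u :=
  intervalIntegral.integral_nonneg hu (fun _ _ => (Real.cosh_pos _).le)

theorem kk_le (m : ℤ) {u : ℝ} (hu : 0 ≤ u) : kk m u ≤ u * Real.cosh (m * u) := by
  have hc : Continuous (fun t : ℝ => Real.cosh (m * t)) := by fun_prop
  have h1 : kk m u ≤ ∫ t in (0 : ℝ)..u, Real.cosh (m * u) := by
    apply intervalIntegral.integral_mono_on hu (hc.intervalIntegrable _ _) intervalIntegrable_const
    intro t ht
    rw [Real.cosh_le_cosh, abs_mul, abs_mul, abs_of_nonneg ht.1, abs_of_nonneg hu]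
    exact mul_le_mul_of_nonneg_left ht.2 (abs_nonneg _)
  simpa using h1

theorem kk_mono_le (m : ℤ) {u δ : ℝ} (hu : 0 ≤ u) (huδ : u ≤ δ) :
    kk m u ≤ δ * Real.cosh (m * δ) := by
  refine (kk_le m hu).trans ?_
  have : Real.cosh (m * u) ≤ Real.cosh (m * δ) := by
    rw [Real.cosh_le_cosh, abs_mul, abs_mul, abs_of_nonneg hu, abs_of_nonneg (hu.trans huδ)]
    exact mul_le_mul_of_nonneg_left huδ (abs_nonneg _)
  have h0 := (Real.cosh_pos (m * u)).le
  have h1 : 0 ≤ δ := hu.trans huδ
  nlinarith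

theorem kk_int_zero (u : ℝ) : kk 0 u = u := by
  simp [kk]

/-- **Three-point identity.** -/
theorem mode_tp {f : ℂ → ℂ} (hf : ContDiff ℝ 2 f)
    (hper : ∀ z, f (z + 2 * Real.pi * I) = f z) (m : ℤ) (s δ : ℝ) :
    mode f m (s + δ) + mode f m (s - δ) - 2 * Real.cosh (m * δ) * mode f m s =
      ∫ u in (0 : ℝ)..δ, (kk m (δ - u) : ℂ) * (mode (lap f) m (s + u) + mode (lap f) m (s - u)) := by
  have hf1 : ContDiff ℝ 1 f := hf.of_le (by norm_num)
  -- derivatives of g = mode f m
  have g1 : ∀ s, HasDerivAt (mode f m) (mode (dx f) m s) s := fun s => mode_hasDerivAt hf1 m s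
  have g2 : ∀ s, HasDerivAt (mode (dx f) m) (mode (dx (dx f)) m s) s :=
    fun s => mode_hasDerivAt (dx1 hf) m s
  have perdy : ∀ z, dy f (z + 2 * Real.pi * I) = dy f z := by
    intro z
    unfold dy
    have : f = fun z => f (z + 2 * Real.pi * I) := by funext z; rw [hper]
    conv_rhs => rw [this]
    rw [fderiv_comp_add_right]
  have hlap : ∀ s, mode (lap f) m s = mode (dx (dx f)) m s - (m : ℂ) ^ 2 * mode f m s := by
    intro s
    have e1 : mode (lap f) m s = mode (dx (dx f)) m s + mode (dy (dy f)) m s := by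
      unfold mode
      rw [← intervalIntegral.integral_add]
      · congr 1
        funext θ
        simp only [lap]
        ring
      · exact Continuous.intervalIntegrable
          ((mode_integrand_cont (dx0 (dx1 hf)) m).comp
            (by fun_prop : Continuous fun θ : ℝ => ((s, θ) : ℝ × ℝ))) _ _
      · exact Continuous.intervalIntegrable
          ((mode_integrand_cont (dy0 (dy1 hf)) m).comp
            (by fun_prop : Continuous fun θ : ℝ => ((s, θ) : ℝ × ℝ))) _ _
    rw [e1, mode_dy (dy1 hf) perdy, mode_dy hf1 hper]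
    ring_nf
    rw [I_sq]; ring
  -- the function of u
  have hG : ∀ u, HasDerivAt (fun u : ℝ => mode f m (s + u) + mode f m (s - u))
      (mode (dx f) m (s + u) - mode (dx f) m (s - u)) u := by
    intro u
    have h1 : HasDerivAt (fun u : ℝ => mode f m (s + u)) (mode (dx f) m (s + u)) u := by
      have := (g1 (s + u)).scomp u ((hasDerivAt_id u).const_add s)
      simpa [Function.comp_def] using this
    have h2 : HasDerivAt (fun u : ℝ => mode f m (s - u)) (-mode (dx f) m (s - u)) u := by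
      have := (g1 (s - u)).scomp u ((hasDerivAt_id u).const_sub s)
      simpa [Function.comp_def] using this
    have := h1.fun_add h2
    simpa [sub_eq_add_neg] using this
  have hG' : ∀ u, HasDerivAt (fun u : ℝ => mode (dx f) m (s + u) - mode (dx f) m (s - u))
      (mode (dx (dx f)) m (s + u) + mode (dx (dx f)) m (s - u)) u := by
    intro u
    have h1 : HasDerivAt (fun u : ℝ => mode (dx f) m (s + u)) (mode (dx (dx f)) m (s + u)) u := by
      have := (g2 (s + u)).scomp u ((hasDerivAt_id u).const_add s)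
      simpa [Function.comp_def] using this
    have h2 : HasDerivAt (fun u : ℝ => mode (dx f) m (s - u)) (-mode (dx (dx f)) m (s - u)) u := by
      have := (g2 (s - u)).scomp u ((hasDerivAt_id u).const_sub s)
      simpa [Function.comp_def] using this
    have := h1.fun_sub h2
    simpa [sub_eq_add_neg] using this
  have hk : ∀ u, HasDerivAt (fun u : ℝ => ((kk m (δ - u) : ℝ) : ℂ))
      (-((Real.cosh (m * (δ - u)) : ℝ) : ℂ)) u := by
    intro u
    have := (kk_hasDerivAt m (δ - u)).scomp u ((hasDerivAt_id u).const_sub δ)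
    have h2 : HasDerivAt (fun u : ℝ => kk m (δ - u)) (-(Real.cosh (m * (δ - u)))) u := by
      simpa [Function.comp_def] using this
    have h3 := h2.ofReal_comp
    simpa using h3
  have hk' : ∀ u, HasDerivAt (fun u : ℝ => ((Real.cosh (m * (δ - u)) : ℝ) : ℂ))
      (-(((m : ℝ) ^ 2 * kk m (δ - u) : ℝ) : ℂ)) u := by
    intro u
    have := (cosh_hasDerivAt m (δ - u)).scomp u ((hasDerivAt_id u).const_sub δ)
    have h2 : HasDerivAt (fun u : ℝ => Real.cosh (m * (δ - u))) (-((m : ℝ) ^ 2 * kk m (δ - u))) u := by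
      simpa [Function.comp_def] using this
    have h3 := h2.ofReal_comp
    simpa using h3
  have hmain : ∀ u, HasDerivAt (fun u : ℝ =>
      (mode (dx f) m (s + u) - mode (dx f) m (s - u)) * ((kk m (δ - u) : ℝ) : ℂ) +
      (mode f m (s + u) + mode f m (s - u)) * ((Real.cosh (m * (δ - u)) : ℝ) : ℂ))
      (((kk m (δ - u) : ℝ) : ℂ) * (mode (lap f) m (s + u) + mode (lap f) m (s - u))) u := by
    intro u
    have := ((hG' u).mul (hk u)).add ((hG u).mul (hk' u))
    refine this.congr_deriv ?_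
    rw [hlap, hlap]
    push_cast
    ring
  have hcont : Continuous (fun u : ℝ => ((kk m (δ - u) : ℝ) : ℂ) *
      (mode (lap f) m (s + u) + mode (lap f) m (s - u))) := by
    have c1 : Continuous (mode (lap f) m) := mode_cont (lap0 hf) m
    have c2 : Continuous (fun u : ℝ => kk m u) :=
      continuous_iff_continuousAt.2 fun u => (kk_hasDerivAt m u).continuousAt
    have c3 : Continuous (fun u : ℝ => ((kk m (δ - u) : ℝ) : ℂ)) :=
      Complex.continuous_ofReal.comp (c2.comp (by fun_prop))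
    exact c3.mul ((c1.comp (by fun_prop)).add (c1.comp (by fun_prop)))
  have h4 := intervalIntegral.integral_eq_sub_of_hasDerivAt (a := 0) (b := δ)
    (fun u _ => hmain u) (hcont.intervalIntegrable _ _)
  rw [h4]
  simp [kk_zero]
  ring

end Crest.Agent.Quadric.Ana
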