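import Mathlib
import Crest.Agent.Quadric.Ana1

/-!
Generic one-variable lemmas for S0396, part 2: means of functions with non-negative Laplacian.
-/

set_option autoImplicit false

namespace Crest.Agent.Quadric.Ana

open Complex MeasureTheory Set Filter Topology

/-- (unnormalised) circle mean -/
noncomputable def mean (f : ℂ → ℝ) (s : ℝ) : ℝ := ∫ θ in (0 : ℝ)..(2 * Real.pi), f (s + θ * I)

theorem mean_integrand_cont {f : ℂ → ℝ} (hf : Continuous f) :
    Continuous (fun p : ℝ × ℝ => f (p.1 + p.2 * I)) := by fun_prop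

theorem mean_ii {f : ℂ → ℝ} (hf : Continuous f) (s : ℝ) (a b : ℝ) :
    IntervalIntegrable (fun θ : ℝ => f (s + θ * I)) volume a b :=
  Continuous.intervalIntegrable (by fun_prop) _ _

theorem mean_cont {f : ℂ → ℝ} (hf : Continuous f) : Continuous (mean f) := by
  unfold mean
  exact intervalIntegral.continuous_parametric_intervalIntegral_of_continuous'
    (f := fun s θ : ℝ => f (s + θ * I)) (mean_integrand_cont hf) _ _

theorem two_pi_nonneg : (0 : ℝ) ≤ 2 * Real.pi := by positivity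

theorem mean_mono {f g : ℂ → ℝ} (hf : Continuous f) (hg : Continuous g) (h : ∀ z, f z ≤ g z)
    (s : ℝ) : mean f s ≤ mean g s :=
  intervalIntegral.integral_mono_on two_pi_nonneg (mean_ii hf s _ _) (mean_ii hg s _ _)
    (fun _ _ => h _)

theorem mean_nonneg {f : ℂ → ℝ} (h : ∀ z, 0 ≤ f z) (s : ℝ) : 0 ≤ mean f s :=
  intervalIntegral.integral_nonneg two_pi_nonneg (fun _ _ => h _)

theorem mode_ii {f : ℂ → ℂ} (hf : Continuous f) (m : ℤ) (s : ℝ) (a b : ℝ) :
    IntervalIntegrable (fun θ : ℝ => f (s + θ * I) * cexp (-(m * θ * I))) volume a b :=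
  Continuous.intervalIntegrable (by fun_prop) _ _

theorem norm_mode_le (f : ℂ → ℂ) (m : ℤ) (s : ℝ) :
    ‖mode f m s‖ ≤ mean (fun z => ‖f z‖) s := by
  unfold mode mean
  refine (intervalIntegral.norm_integral_le_integral_norm two_pi_nonneg).trans_eq ?_
  congr 1
  funext θ
  rw [norm_mul, norm_exp_mode, mul_one]

theorem dx_ofReal {f : ℂ → ℝ} (hf : Differentiable ℝ f) (z : ℂ) :
    dx (fun z => (f z : ℂ)) z = ((dx f z : ℝ) : ℂ) := by
  unfold dx
  have : HasFDerivAt (fun z => (f z : ℂ)) (Complex.ofRealCLM.comp (fderiv ℝ f z)) z :=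
    Complex.ofRealCLM.hasFDerivAt.comp z (hf z).hasFDerivAt
  rw [this.fderiv]
  simp

theorem dy_ofReal {f : ℂ → ℝ} (hf : Differentiable ℝ f) (z : ℂ) :
    dy (fun z => (f z : ℂ)) z = ((dy f z : ℝ) : ℂ) := by
  unfold dy
  have : HasFDerivAt (fun z => (f z : ℂ)) (Complex.ofRealCLM.comp (fderiv ℝ f z)) z :=
    Complex.ofRealCLM.hasFDerivAt.comp z (hf z).hasFDerivAt
  rw [this.fderiv]
  simp

theorem lap_ofReal {f : ℂ → ℝ} (hf : ContDiff ℝ 2 f) (z : ℂ) :
    lap (fun z => (f z : ℂ)) z = ((lap f z : ℝ) : ℂ) := by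
  unfold lap
  have h1 : dx (fun z => (f z : ℂ)) = fun z => ((dx f z : ℝ) : ℂ) := by
    funext z; exact dx_ofReal (hf.differentiable (by norm_num)) z
  have h2 : dy (fun z => (f z : ℂ)) = fun z => ((dy f z : ℝ) : ℂ) := by
    funext z; exact dy_ofReal (hf.differentiable (by norm_num)) z
  rw [h1, h2, dx_ofReal ((dx1 hf).differentiable (by norm_num)),
    dy_ofReal ((dy1 hf).differentiable (by norm_num))]
  push_cast
  rfl

theorem mode_zero_ofReal (f : ℂ → ℝ) (s : ℝ) :
    mode (fun z => (f z : ℂ)) 0 s = ((mean f s : ℝ) : ℂ) := by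
  unfold mode mean
  rw [← intervalIntegral.integral_ofReal]
  simp

theorem mean_tp {f : ℂ → ℝ} (hf : ContDiff ℝ 2 f)
    (hper : ∀ z, f (z + 2 * Real.pi * I) = f z) (s δ : ℝ) :
    mean f (s + δ) + mean f (s - δ) - 2 * mean f s =
      ∫ u in (0 : ℝ)..δ, (δ - u) * (mean (lap f) (s + u) + mean (lap f) (s - u)) := by
  have hF : ContDiff ℝ 2 (fun z => (f z : ℂ)) := Complex.ofRealCLM.contDiff.comp hf
  have h := mode_tp hF (fun z => by rw [hper]) 0 s δ
  have hl : lap (fun z => (f z : ℂ)) = fun z => ((lap f z : ℝ) : ℂ) := by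
    funext z; exact lap_ofReal hf z
  rw [hl] at h
  simp only [mode_zero_ofReal, kk_int_zero] at h
  have : ((mean f (s + δ) + mean f (s - δ) - 2 * mean f s : ℝ) : ℂ) =
      ((∫ u in (0 : ℝ)..δ, (δ - u) * (mean (lap f) (s + u) + mean (lap f) (s - u)) : ℝ) : ℂ) := by
    rw [← intervalIntegral.integral_ofReal]
    push_cast
    push_cast at h
    simpa using h
  exact_mod_cast this

/-- second difference of the circle means -/
noncomputable def SD (f : ℂ → ℝ) (s δ : ℝ) : ℝ := mean f (s + δ) + mean f (s - δ) - 2 * mean f s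

theorem SD_nonneg {f : ℂ → ℝ} (hf : ContDiff ℝ 2 f)
    (hper : ∀ z, f (z + 2 * Real.pi * I) = f z) (hl : ∀ z, 0 ≤ lap f z) (s : ℝ) {δ : ℝ}
    (hδ : 0 ≤ δ) : 0 ≤ SD f s δ := by
  unfold SD
  rw [mean_tp hf hper]
  refine intervalIntegral.integral_nonneg hδ fun u hu => ?_
  have h1 := mean_nonneg hl (s + u)
  have h2 := mean_nonneg hl (s - u)
  have h3 : 0 ≤ δ - u := by linarith [hu.2]
  positivity

/-- **Main estimate**: if the Laplacian of `η` is dominated by that of `a`. -/
theorem mode_tp_le {a : ℂ → ℝ} {η : ℂ → ℂ} (ha : ContDiff ℝ 2 a) (hη : ContDiff ℝ 2 η)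
    (hpa : ∀ z, a (z + 2 * Real.pi * I) = a z) (hpη : ∀ z, η (z + 2 * Real.pi * I) = η z)
    (hl : ∀ z, ‖lap η z‖ ≤ lap a z) (m : ℤ) (s : ℝ) {δ : ℝ} (hδ : 0 ≤ δ) :
    ‖mode η m (s + δ) + mode η m (s - δ) - 2 * Real.cosh (m * δ) * mode η m s‖ ≤
      Real.cosh (m * δ) * SD a s (2 * δ) := by
  have hl0 : ∀ z, 0 ≤ lap a z := fun z => (norm_nonneg _).trans (hl z)
  have ca : Continuous (lap a) := lap0 ha
  have cη : Continuous (lap η) := lap0 hη
  set Q : ℝ → ℝ := fun u => mean (lap a) (s + u) + mean (lap a) (s - u) with hQ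
  have cQ : Continuous Q := by
    have := mean_cont ca
    exact (this.comp (by fun_prop)).add (this.comp (by fun_prop))
  have hQ0 : ∀ u, 0 ≤ Q u := fun u => add_nonneg (mean_nonneg hl0 _) (mean_nonneg hl0 _)
  rw [mode_tp hη hpη]
  have h1 : ‖∫ u in (0 : ℝ)..δ, (kk m (δ - u) : ℂ) *
      (mode (lap η) m (s + u) + mode (lap η) m (s - u))‖ ≤
      ∫ u in (0 : ℝ)..δ, (δ * Real.cosh (m * δ)) * Q u := by
    refine intervalIntegral.norm_integral_le_of_norm_le hδ ?_ ?_
    · refine Filter.Eventually.of_forall fun u hu => ?_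
      have hu' : 0 ≤ δ - u := by linarith [hu.2]
      have hu'' : δ - u ≤ δ := by linarith [hu.1]
      rw [norm_mul, Complex.norm_real, Real.norm_eq_abs, abs_of_nonneg (kk_nonneg m hu')]
      refine mul_le_mul (kk_mono_le m hu' hu'') ?_ (norm_nonneg _) ?_
      · refine (norm_add_le _ _).trans (add_le_add ?_ ?_)
        · exact (norm_mode_le _ m _).trans (mean_mono cη.norm ca hl _)
        · exact (norm_mode_le _ m _).trans (mean_mono cη.norm ca hl _)
      · have := (Real.cosh_pos (m * δ)).le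
        positivity
    · exact (cQ.const_mul (δ * Real.cosh (m * δ))).intervalIntegrable _ _
  refine h1.trans ?_
  rw [intervalIntegral.integral_const_mul]
  have h2 : δ * ∫ u in (0 : ℝ)..δ, Q u ≤ SD a s (2 * δ) := by
    unfold SD
    rw [mean_tp ha hpa]
    have c2 : Continuous fun u : ℝ => (2 * δ - u) * Q u := by fun_prop
    have h3 : ∫ u in (0 : ℝ)..(2 * δ), (2 * δ - u) * Q u =
        (∫ u in (0 : ℝ)..δ, (2 * δ - u) * Q u) + ∫ u in δ..(2 * δ), (2 * δ - u) * Q u :=
      (intervalIntegral.integral_add_adjacent_intervals (c2.intervalIntegrable _ _)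
        (c2.intervalIntegrable _ _)).symm
    have h4 : 0 ≤ ∫ u in δ..(2 * δ), (2 * δ - u) * Q u := by
      refine intervalIntegral.integral_nonneg (by linarith) fun u hu => ?_
      have h3 : 0 ≤ 2 * δ - u := by linarith [hu.2]
      exact mul_nonneg h3 (hQ0 u)
    have h5 : δ * ∫ u in (0 : ℝ)..δ, Q u ≤ ∫ u in (0 : ℝ)..δ, (2 * δ - u) * Q u := by
      rw [← intervalIntegral.integral_const_mul]
      refine intervalIntegral.integral_mono_on hδ ((cQ.const_mul _).intervalIntegrable _ _)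
        (c2.intervalIntegrable _ _) fun u hu => ?_
      exact mul_le_mul_of_nonneg_right (by linarith [hu.2]) (hQ0 u)
    change _ ≤ ∫ u in (0 : ℝ)..(2 * δ), (2 * δ - u) * Q u
    linarith
  calc δ * Real.cosh (m * δ) * ∫ u in (0 : ℝ)..δ, Q u
      = Real.cosh (m * δ) * (δ * ∫ u in (0 : ℝ)..δ, Q u) := by ring
    _ ≤ Real.cosh (m * δ) * SD a s (2 * δ) :=
        mul_le_mul_of_nonneg_left h2 (Real.cosh_pos _).le

/-- A midpoint-convex function bounded above near `-∞` is monotone. -/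
theorem mono_of_midconvex {φ : ℝ → ℝ} (hφ : ∀ s δ, 0 ≤ δ → 0 ≤ φ (s + δ) + φ (s - δ) - 2 * φ s)
    {C S : ℝ} (hC : ∀ s ≤ S, φ s ≤ C) : Monotone φ := by
  intro x y hxy
  by_contra hlt
  push Not at hlt
  have hδ : 0 ≤ y - x := by linarith
  -- φ(x - n δ) ≥ φ x + n (φ x - φ y)
  have key : ∀ n : ℕ, φ (x - (n : ℝ) * (y - x)) - φ (x - (n : ℝ) * (y - x) + (y - x)) ≥ φ x - φ y := by
    intro n
    induction n with
    | zero => simp
    | succ n ih =>
      have h := hφ (x - (n : ℝ) * (y - x)) (y - x) hδ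
      have e1 : x - ((n + 1 : ℕ) : ℝ) * (y - x) = x - (n : ℝ) * (y - x) - (y - x) := by
        push_cast; ring
      have e2 : x - ((n + 1 : ℕ) : ℝ) * (y - x) + (y - x) = x - (n : ℝ) * (y - x) := by
        push_cast; ring
      rw [e2, e1]
      linarith
  have key2 : ∀ n : ℕ, φ (x - (n : ℝ) * (y - x)) ≥ φ x + n * (φ x - φ y) := by
    intro n
    induction n with
    | zero => simp
    | succ n ih =>
      have h := key (n + 1)
      have e2 : x - ((n + 1 : ℕ) : ℝ) * (y - x) + (y - x) = x - (n : ℝ) * (y - x) := by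
        push_cast; ring
      rw [e2] at h
      push_cast at h ⊢
      linarith
  have hpos : 0 < φ x - φ y := by linarith
  have hyx : 0 < y - x := by
    rcases eq_or_lt_of_le hδ with h | h
    · have : x = y := by linarith
      subst this; simp at hpos
    · exact h
  obtain ⟨n, hn⟩ := exists_nat_gt (max ((C - φ x) / (φ x - φ y)) ((x - S) / (y - x)))
  have hn1 : (C - φ x) < n * (φ x - φ y) := by
    have := lt_of_le_of_lt (le_max_left _ _) hn
    rwa [div_lt_iff₀ hpos] at this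
  have hn2 : (x - S) < n * (y - x) := by
    have := lt_of_le_of_lt (le_max_right _ _) hn
    rwa [div_lt_iff₀ hyx] at this
  have h1 := key2 n
  have h2 := hC (x - (n : ℝ) * (y - x)) (by linarith)
  linarith

/-- Reflected version. -/
theorem anti_of_midconvex {φ : ℝ → ℝ} (hφ : ∀ s δ, 0 ≤ δ → 0 ≤ φ (s + δ) + φ (s - δ) - 2 * φ s)
    {C S : ℝ} (hC : ∀ s, S ≤ s → φ s ≤ C) : Antitone φ := by
  have h := mono_of_midconvex (φ := fun s => φ (-s)) (C := C) (S := -S)
    (fun s δ hδ => by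
      have := hφ (-s) δ hδ
      have e1 : -(s + δ) = -s - δ := by ring
      have e2 : -(s - δ) = -s + δ := by ring
      rw [e1, e2]; linarith)
    (fun s hs => hC (-s) (by linarith))
  intro x y hxy
  have := h (neg_le_neg hxy)
  simpa using this

end Crest.Agent.Quadric.Ana
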