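import Mathlib
import Crest.Agent.Quadric.Ana2

/-!
Generic one-variable lemmas for S0396, part 3: Laplacian of a holomorphic composition,
sub-mean-value property, pointwise bound by circle means.
-/

set_option autoImplicit false

namespace Crest.Agent.Quadric.Ana

open Complex MeasureTheory Set Filter Topology

section comp

variable {E : Type*} [NormedAddCommGroup E] [NormedSpace ℝ E]

theorem lap_eq (f : ℂ → E) (hf : ContDiff ℝ 2 f) (z : ℂ) :
    lap f z = fderiv ℝ (fderiv ℝ f) z 1 1 + fderiv ℝ (fderiv ℝ f) z I I := by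
  have h1 : DifferentiableAt ℝ (fderiv ℝ f) z :=
    (hf.fderiv_right (m := 1) (by norm_num)).differentiable (by norm_num) z
  unfold lap dx dy
  have e : ∀ v : ℂ, fderiv ℝ (fun w => fderiv ℝ f w v) z v = fderiv ℝ (fderiv ℝ f) z v v := by
    intro v
    have h2 : HasFDerivAt (fun w => fderiv ℝ f w v)
        ((fderiv ℝ (fderiv ℝ f) z).flip v) z := by
      have := h1.hasFDerivAt.clm_apply (hasFDerivAt_const v z)
      simpa using this
    rw [h2.fderiv]
    rfl
  rw [e 1, e I]

/-- multiplication by `c` as a real-linear map -/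
noncomputable def mulL (c : ℂ) : ℂ →L[ℝ] ℂ := (ContinuousLinearMap.toSpanSingleton ℂ c).restrictScalars ℝ

@[simp] theorem mulL_apply (c v : ℂ) : mulL c v = v * c := by simp [mulL]

/-- Laplacian of a composition with a holomorphic map. -/
theorem lap_comp {f : ℂ → E} (hf : ContDiff ℝ 2 f) {g g' g'' : ℂ → ℂ}
    (hg : ∀ z, HasDerivAt g (g' z) z) (hg' : ∀ z, HasDerivAt g' (g'' z) z) (z : ℂ) :
    lap (fun z => f (g z)) z = (‖g' z‖ ^ 2) • lap f (g z) := by
  have hf1 : Differentiable ℝ f := hf.differentiable (by norm_num)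
  have hf2 : Differentiable ℝ (fderiv ℝ f) :=
    (hf.fderiv_right (m := 1) (by norm_num)).differentiable (by norm_num)
  have G : ∀ z, HasFDerivAt g (mulL (g' z)) z := fun z => ((hg z).hasFDerivAt).restrictScalars ℝ
  have G' : ∀ z, HasFDerivAt g' (mulL (g'' z)) z := fun z => ((hg' z).hasFDerivAt).restrictScalars ℝ
  have D1 : ∀ (v : ℂ) (z : ℂ), fderiv ℝ (fun z => f (g z)) z v = fderiv ℝ f (g z) (v * g' z) := by
    intro v z
    have h := (hf1 (g z)).hasFDerivAt.comp z (G z)
    have h' : HasFDerivAt (fun z => f (g z)) ((fderiv ℝ f (g z)).comp (mulL (g' z))) z := h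
    rw [h'.fderiv]
    simp
  have D2 : ∀ (v : ℂ) (z : ℂ), fderiv ℝ (fun z => fderiv ℝ (fun z => f (g z)) z v) z v =
      fderiv ℝ (fderiv ℝ f) (g z) (v * g' z) (v * g' z) + fderiv ℝ f (g z) (v * (v * g'' z)) := by
    intro v z
    have e : (fun z => fderiv ℝ (fun z => f (g z)) z v) = fun z => fderiv ℝ f (g z) (v * g' z) := by
      funext z; exact D1 v z
    rw [e]
    have h1 : HasFDerivAt (fun z => fderiv ℝ f (g z)) ((fderiv ℝ (fderiv ℝ f) (g z)).comp
        (mulL (g' z))) z := (hf2 (g z)).hasFDerivAt.comp z (G z)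
    have h2 : HasFDerivAt (fun z => v * g' z) (v • mulL (g'' z)) z := (G' z).const_mul v
    have h3 := h1.clm_apply h2
    rw [h3.fderiv]
    simp only [ContinuousLinearMap.add_apply, ContinuousLinearMap.comp_apply,
      ContinuousLinearMap.flip_apply, ContinuousLinearMap.smul_apply, mulL_apply, smul_eq_mul]
    rw [add_comm]
  have L : lap (fun z => f (g z)) z =
      (fderiv ℝ (fderiv ℝ f) (g z) (1 * g' z) (1 * g' z) + fderiv ℝ f (g z) (1 * (1 * g'' z))) +
      (fderiv ℝ (fderiv ℝ f) (g z) (I * g' z) (I * g' z) + fderiv ℝ f (g z) (I * (I * g'' z))) := by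
    rw [← D2 1 z, ← D2 I z]
    rfl
  rw [L, lap_eq f hf]
  set B := fderiv ℝ (fderiv ℝ f) (g z) with hB
  have hI : I * (I * g'' z) = -(1 * (1 * g'' z)) := by
    rw [← mul_assoc, I_mul_I]; ring
  rw [hI, map_neg]
  set x := (g' z).re
  set y := (g' z).im
  have e1 : 1 * g' z = (x : ℝ) • (1 : ℂ) + (y : ℝ) • I := by
    rw [one_mul, real_smul, real_smul, mul_one]; exact (re_add_im _).symm
  have e2 : I * g' z = (-y : ℝ) • (1 : ℂ) + (x : ℝ) • I := by
    rw [real_smul, real_smul, mul_one]
    conv_lhs => rw [← re_add_im (g' z)]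
    push_cast
    ring_nf
    rw [I_sq]
    simp only [x, y]
    ring
  have e3 : ‖g' z‖ ^ 2 = x ^ 2 + y ^ 2 := by
    rw [← Complex.normSq_eq_norm_sq, Complex.normSq_apply]; simp only [x, y]; ring
  rw [e1, e2, e3]
  simp only [map_add, map_smul, ContinuousLinearMap.add_apply, ContinuousLinearMap.smul_apply]
  module

end comp

/-- Sub-mean-value property. -/
theorem submean {f : ℂ → ℝ} (hf : ContDiff ℝ 2 f) (hl : ∀ z, 0 ≤ lap f z) (z₀ : ℂ) {ρ : ℝ}
    (hρ : 0 < ρ) :
    2 * Real.pi * f z₀ ≤ ∫ θ in (0 : ℝ)..(2 * Real.pi), f (z₀ + ρ * cexp (θ * I)) := by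
  -- log-polar coordinates
  set F : ℂ → ℝ := fun ζ => f (z₀ + cexp ζ) with hF
  have cF : ContDiff ℝ 2 F := by
    have : ContDiff ℝ 2 (fun ζ : ℂ => z₀ + cexp ζ) :=
      contDiff_const.add (Complex.contDiff_exp (𝕜 := ℝ))
    exact hf.comp this
  have hper : ∀ z, F (z + 2 * Real.pi * I) = F z := by
    intro z
    simp only [hF]
    rw [Complex.exp_add, Complex.exp_two_pi_mul_I, mul_one]
  have hlF : ∀ z, 0 ≤ lap F z := by
    intro z
    have := lap_comp (f := f) hf (g := fun ζ => z₀ + cexp ζ) (g' := cexp) (g'' := cexp)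
      (fun z => (Complex.hasDerivAt_exp z).const_add z₀) (fun z => Complex.hasDerivAt_exp z) z
    rw [hF, this]
    exact smul_nonneg (by positivity) (hl _)
  -- bounded near -∞
  obtain ⟨C, hC⟩ := (isCompact_closedBall z₀ 1).exists_bound_of_continuousOn hf.continuous.continuousOn
  have hexp : ∀ s θ : ℝ, cexp (s + θ * I) = (Real.exp s : ℂ) * cexp (θ * I) := by
    intro s θ; rw [Complex.exp_add]; push_cast; rfl
  have hbd : ∀ s ≤ (0 : ℝ), mean F s ≤ 2 * Real.pi * C := by
    intro s hs
    have : mean F s ≤ ∫ θ in (0 : ℝ)..(2 * Real.pi), C := by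
      refine intervalIntegral.integral_mono_on two_pi_nonneg (mean_ii cF.continuous s _ _)
        intervalIntegrable_const fun θ _ => ?_
      have h1 : z₀ + cexp (s + θ * I) ∈ Metric.closedBall z₀ 1 := by
        rw [Metric.mem_closedBall, dist_eq_norm, add_sub_cancel_left, Complex.norm_exp]
        simp [hs]
      exact (le_abs_self _).trans (hC _ h1)
    simpa [mul_comm, mul_left_comm] using this
  have hmono : Monotone (mean F) :=
    mono_of_midconvex (fun s δ hδ => SD_nonneg cF hper hlF s hδ) hbd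
  -- limit at -∞
  have hlim : Tendsto (mean F) atBot (𝓝 (2 * Real.pi * f z₀)) := by
    have h1 : 2 * Real.pi * f z₀ = ∫ θ in (0 : ℝ)..(2 * Real.pi), f z₀ := by
      simp [mul_comm]
    rw [h1]
    unfold mean
    refine intervalIntegral.tendsto_integral_filter_of_dominated_convergence (fun _ => C) ?_ ?_ ?_ ?_
    · exact Filter.Eventually.of_forall fun s => Continuous.aestronglyMeasurable (by
        have := cF.continuous; fun_prop)
    · filter_upwards [eventually_le_atBot (0 : ℝ)] with s hs
      refine Filter.Eventually.of_forall fun θ _ => ?_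
      have h1 : z₀ + cexp (s + θ * I) ∈ Metric.closedBall z₀ 1 := by
        rw [Metric.mem_closedBall, dist_eq_norm, add_sub_cancel_left, Complex.norm_exp]
        simp [hs]
      exact hC _ h1
    · exact intervalIntegrable_const
    · refine Filter.Eventually.of_forall fun θ _ => ?_
      have h2 : Tendsto (fun s : ℝ => z₀ + cexp (s + θ * I)) atBot (𝓝 z₀) := by
        have h3 : Tendsto (fun s : ℝ => (Real.exp s : ℂ) * cexp (θ * I)) atBot (𝓝 ((0 : ℝ) * cexp (θ * I))) :=
          ((Complex.continuous_ofReal.tendsto 0).comp Real.tendsto_exp_atBot).mul_const _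
        have h4 := h3.const_add z₀
        simp only [ofReal_zero, zero_mul, add_zero] at h4
        refine h4.congr fun s => ?_
        rw [hexp]
      exact (hf.continuous.tendsto z₀).comp h2
  have hle : 2 * Real.pi * f z₀ ≤ mean F (Real.log ρ) :=
    hmono.le_of_tendsto hlim (Real.log ρ)
  refine hle.trans_eq ?_
  unfold mean
  congr 1
  funext θ
  simp only [hF]
  rw [hexp, Real.exp_log hρ]

end Crest.Agent.Quadric.Ana
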