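import Mathlib
import Crest.Agent.Quadric.Ana3

/-!
S0396 analysis, part 4: pointwise bound of a non-negative periodic subharmonic function by
its circle means.
-/

set_option autoImplicit false

namespace Crest.Agent.Quadric.Ana

open Complex MeasureTheory Set Filter Topology

theorem mean_shift {f : ℂ → ℝ} (hper : ∀ z, f (z + 2 * Real.pi * I) = f z) (s θ₀ : ℝ) :
    ∫ θ in (θ₀ - Real.pi)..(θ₀ + Real.pi), f (s + θ * I) = mean f s := by
  have hp : Function.Periodic (fun θ : ℝ => f (s + θ * I)) (2 * Real.pi) := by
    intro θ
    have : (s : ℂ) + ((θ + 2 * Real.pi : ℝ) : ℂ) * I = s + θ * I + 2 * Real.pi * I := by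
      push_cast; ring
    change f (s + ((θ + 2 * Real.pi : ℝ) : ℂ) * I) = _
    rw [this, hper]
  have := hp.intervalIntegral_add_eq (θ₀ - Real.pi) 0
  unfold mean
  rw [zero_add] at this
  rw [← this]
  congr 1
  ring

theorem le_mean_of_psh {f : ℂ → ℝ} (hf : ContDiff ℝ 2 f) (hl : ∀ z, 0 ≤ lap f z)
    (h0 : ∀ z, 0 ≤ f z) (hper : ∀ z, f (z + 2 * Real.pi * I) = f z)
    (hm : Monotone (mean f)) (z : ℂ) :
    Real.pi ^ 3 * f z ≤ 2 * Real.pi * mean f (z.re + Real.pi) := by
  have hpi := Real.pi_pos
  -- step 1: circle inequality on (-π, π)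
  have h1 : ∀ ρ ∈ Ioo (0 : ℝ) Real.pi, ENNReal.ofReal (2 * Real.pi * f z) ≤
      ∫⁻ θ in Ioo (-Real.pi) Real.pi, ENNReal.ofReal (f (z + ρ * cexp (θ * I))) := by
    intro ρ hρ
    have h := submean hf hl z hρ.1
    have hp : Function.Periodic (fun θ : ℝ => f (z + ρ * cexp (θ * I))) (2 * Real.pi) := by
      intro θ
      have : ((θ + 2 * Real.pi : ℝ) : ℂ) * I = θ * I + 2 * Real.pi * I := by push_cast; ring
      change f (z + ρ * cexp (((θ + 2 * Real.pi : ℝ) : ℂ) * I)) = _
      rw [this, Complex.exp_add, Complex.exp_two_pi_mul_I, mul_one]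
    have e := hp.intervalIntegral_add_eq (-Real.pi) 0
    rw [zero_add] at e
    rw [← e] at h
    have e2 : -Real.pi + 2 * Real.pi = Real.pi := by ring
    rw [e2, intervalIntegral.integral_of_le (by linarith), integral_Ioc_eq_integral_Ioo] at h
    have hcont : Continuous (fun θ : ℝ => f (z + ρ * cexp (θ * I))) := by
      have := hf.continuous
      fun_prop
    have hint : IntegrableOn (fun θ : ℝ => f (z + ρ * cexp (θ * I))) (Ioo (-Real.pi) Real.pi) :=
      (hcont.integrableOn_Icc (a := -Real.pi) (b := Real.pi)).mono_set Ioo_subset_Icc_self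
    rw [← ofReal_integral_eq_lintegral_ofReal hint (Filter.Eventually.of_forall fun _ => h0 _)]
    exact ENNReal.ofReal_le_ofReal h
  -- the function on ℂ
  set G : ℂ → ENNReal := fun w => (Metric.ball (0 : ℂ) Real.pi).indicator
    (fun w => ENNReal.ofReal (f (z + w))) w with hG
  have hfm : Measurable f := hf.continuous.measurable
  have hpol := Complex.lintegral_comp_polarCoord_symm G
  -- lower bound
  have hlow : ENNReal.ofReal (Real.pi ^ 3 * f z) ≤ ∫⁻ w, G w := by
    rw [← hpol]
    have hsub : Ioo (0 : ℝ) Real.pi ×ˢ Ioo (-Real.pi) Real.pi ⊆ polarCoord.target := by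
      intro p hp
      exact ⟨hp.1.1, hp.2⟩
    refine le_trans ?_ (lintegral_mono_set hsub)
    have hmeas : Measurable (fun p : ℝ × ℝ => ENNReal.ofReal p.1 • G (Complex.polarCoord.symm p)) := by
      have hGm : Measurable G :=
        Measurable.indicator (by fun_prop) Metric.isOpen_ball.measurableSet
      have : Measurable (fun p : ℝ × ℝ => Complex.polarCoord.symm p) := by
        simp only [Complex.polarCoord_symm_apply]
        fun_prop
      exact (ENNReal.measurable_ofReal.comp measurable_fst).mul (hGm.comp this)
    rw [Measure.volume_eq_prod, setLIntegral_prod _ (by exact hmeas.aemeasurable)]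
    have h2 : ∀ ρ ∈ Ioo (0 : ℝ) Real.pi, ENNReal.ofReal (ρ * (2 * Real.pi * f z)) ≤
        ∫⁻ θ in Ioo (-Real.pi) Real.pi, ENNReal.ofReal ρ • G (Complex.polarCoord.symm (ρ, θ)) := by
      intro ρ hρ
      simp only [smul_eq_mul]
      rw [lintegral_const_mul']
      · rw [ENNReal.ofReal_mul hρ.1.le]
        gcongr
        refine (h1 ρ hρ).trans (le_of_eq ?_)
        refine lintegral_congr fun θ => ?_
        have e : Complex.polarCoord.symm (ρ, θ) = ρ * cexp (θ * I) := by
          rw [Complex.polarCoord_symm_apply, Complex.exp_mul_I]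
          push_cast
          rfl
        rw [e, hG]
        simp only
        rw [indicator_of_mem]
        rw [mem_ball_zero_iff, norm_mul, Complex.norm_exp_ofReal_mul_I, mul_one, Complex.norm_real,
          Real.norm_eq_abs, abs_of_pos hρ.1]
        exact hρ.2
      · exact ENNReal.ofReal_ne_top
    refine le_trans ?_ (setLIntegral_mono' measurableSet_Ioo h2)
    have hint : IntegrableOn (fun ρ : ℝ => ρ * (2 * Real.pi * f z)) (Ioo 0 Real.pi) :=
      ((by fun_prop : Continuous fun ρ : ℝ => ρ * (2 * Real.pi * f z)).integrableOn_Icc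
        (a := 0) (b := Real.pi)).mono_set Ioo_subset_Icc_self
    rw [← ofReal_integral_eq_lintegral_ofReal hint]
    · apply ENNReal.ofReal_le_ofReal
      rw [← integral_Ioc_eq_integral_Ioo, ← intervalIntegral.integral_of_le hpi.le,
        intervalIntegral.integral_mul_const, integral_id]
      nlinarith [h0 z]
    · refine (ae_restrict_mem measurableSet_Ioo).mono fun ρ hρ => ?_
      have := h0 z
      have := hρ.1.le
      simp only [Pi.zero_apply]
      positivity
  -- upper bound
  have hup : ∫⁻ w, G w ≤ ENNReal.ofReal (2 * Real.pi * mean f (z.re + Real.pi)) := by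
    have hGm : Measurable G :=
      Measurable.indicator (by fun_prop) Metric.isOpen_ball.measurableSet
    rw [← (Complex.volume_preserving_equiv_real_prod.symm).lintegral_comp_emb
      measurableEquivRealProd.symm.measurableEmbedding]
    have h3 : ∀ p : ℝ × ℝ, G (measurableEquivRealProd.symm p) ≤
        (Ioo (-Real.pi) Real.pi ×ˢ Ioo (-Real.pi) Real.pi).indicator
          (fun p : ℝ × ℝ => ENNReal.ofReal (f (z + (p.1 + p.2 * I)))) p := by
      intro p
      have e : (measurableEquivRealProd.symm p : ℂ) = p.1 + p.2 * I := by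
        rw [measurableEquivRealProd_symm_apply]
        exact Complex.mk_eq_add_mul_I _ _
      rw [hG]
      simp only
      by_cases hp : (measurableEquivRealProd.symm p : ℂ) ∈ Metric.ball (0 : ℂ) Real.pi
      · rw [indicator_of_mem hp, indicator_of_mem, e]
        rw [mem_ball_zero_iff] at hp
        have hre : |p.1| < Real.pi := by
          have := Complex.abs_re_le_norm (measurableEquivRealProd.symm p : ℂ)
          rw [measurableEquivRealProd_symm_apply] at this hp
          exact lt_of_le_of_lt this hp
        have him : |p.2| < Real.pi := by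
          have := Complex.abs_im_le_norm (measurableEquivRealProd.symm p : ℂ)
          rw [measurableEquivRealProd_symm_apply] at this hp
          exact lt_of_le_of_lt this hp
        exact ⟨abs_lt.1 hre, abs_lt.1 him⟩
      · rw [indicator_of_notMem hp]
        exact zero_le
    refine (lintegral_mono h3).trans ?_
    rw [lintegral_indicator (measurableSet_Ioo.prod measurableSet_Ioo), Measure.volume_eq_prod,
      setLIntegral_prod _ (by
        refine Measurable.aemeasurable ?_
        fun_prop)]
    have h4 : ∀ a ∈ Ioo (-Real.pi) Real.pi, ∫⁻ b in Ioo (-Real.pi) Real.pi,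
        ENNReal.ofReal (f (z + (a + b * I))) ≤ ENNReal.ofReal (mean f (z.re + Real.pi)) := by
      intro a ha
      have hcont : Continuous (fun b : ℝ => f (z + (a + b * I))) := by
        have := hf.continuous
        fun_prop
      have hint : IntegrableOn (fun b : ℝ => f (z + (a + b * I))) (Ioo (-Real.pi) Real.pi) :=
        (hcont.integrableOn_Icc (a := -Real.pi) (b := Real.pi)).mono_set Ioo_subset_Icc_self
      rw [← ofReal_integral_eq_lintegral_ofReal hint (Filter.Eventually.of_forall fun _ => h0 _)]
      apply ENNReal.ofReal_le_ofReal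
      rw [← integral_Ioc_eq_integral_Ioo, ← intervalIntegral.integral_of_le (by linarith)]
      have e1 : ∫ b in (-Real.pi)..Real.pi, f (z + (a + b * I)) = mean f (z.re + a) := by
        rw [← mean_shift hper (z.re + a) z.im]
        have := intervalIntegral.integral_comp_add_right (a := -Real.pi) (b := Real.pi)
          (fun θ : ℝ => f ((z.re + a : ℝ) + θ * I)) z.im
        rw [show -Real.pi + z.im = z.im - Real.pi by ring,
          show Real.pi + z.im = z.im + Real.pi by ring] at this
        rw [← this]
        congr 1
        funext b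
        congr 1
        conv_lhs => rw [← Complex.re_add_im z]
        push_cast
        ring
      rw [e1]
      exact hm (by linarith [ha.2])
    refine (setLIntegral_mono' measurableSet_Ioo h4).trans ?_
    rw [setLIntegral_const, Real.volume_Ioo, ← ENNReal.ofReal_mul (mean_nonneg h0 _)]
    apply ENNReal.ofReal_le_ofReal
    linarith
  have hfin := hlow.trans hup
  rwa [ENNReal.ofReal_le_ofReal_iff] at hfin
  have := mean_nonneg h0 (z.re + Real.pi)
  positivity

end Crest.Agent.Quadric.Ana
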