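import Mathlib
import Crest.Agent.Quadric.Ana4

/-!
S0396 analysis, part 5: two-variable means and modes.
-/

set_option autoImplicit false

namespace Crest.Agent.Quadric.Ana

open Complex MeasureTheory Set Filter Topology

/-- joint continuity -/
abbrev JC {E : Type*} [TopologicalSpace E] (f : ℂ → ℂ → E) : Prop :=
  Continuous (fun p : ℂ × ℂ => f p.1 p.2)

/-- joint `C^2` -/
abbrev J2 {E : Type*} [NormedAddCommGroup E] [NormedSpace ℝ E] (f : ℂ → ℂ → E) : Prop :=
  ContDiff ℝ 2 (fun p : ℂ × ℂ => f p.1 p.2)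

theorem J2.jc {E : Type*} [NormedAddCommGroup E] [NormedSpace ℝ E] {f : ℂ → ℂ → E} (h : J2 f) :
    JC f := ContDiff.continuous h

theorem J2.slice {E : Type*} [NormedAddCommGroup E] [NormedSpace ℝ E] {f : ℂ → ℂ → E} (h : J2 f)
    (W : ℂ) : ContDiff ℝ 2 (fun z => f z W) := by
  have h1 : ContDiff ℝ 2 (fun z : ℂ => ((z, W) : ℂ × ℂ)) := contDiff_id.prodMk contDiff_const
  exact ContDiff.comp (g := fun p : ℂ × ℂ => f p.1 p.2) h h1

theorem J2.slice2 {E : Type*} [NormedAddCommGroup E] [NormedSpace ℝ E] {f : ℂ → ℂ → E} (h : J2 f)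
    (Z : ℂ) : ContDiff ℝ 2 (fun w => f Z w) := by
  have h1 : ContDiff ℝ 2 (fun w : ℂ => ((Z, w) : ℂ × ℂ)) := contDiff_const.prodMk contDiff_id
  exact ContDiff.comp (g := fun p : ℂ × ℂ => f p.1 p.2) h h1

theorem JC.slice {E : Type*} [TopologicalSpace E] {f : ℂ → ℂ → E} (h : JC f) (W : ℂ) :
    Continuous (fun z => f z W) :=
  Continuous.comp (g := fun p : ℂ × ℂ => f p.1 p.2) h
    (by fun_prop : Continuous fun z : ℂ => ((z, W) : ℂ × ℂ))

theorem JC.swap {E : Type*} [TopologicalSpace E] {f : ℂ → ℂ → E} (h : JC f) :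
    JC (fun w z => f z w) :=
  Continuous.comp (g := fun p : ℂ × ℂ => f p.1 p.2) h
    (by fun_prop : Continuous fun p : ℂ × ℂ => ((p.2, p.1) : ℂ × ℂ))

theorem J2.swap {E : Type*} [NormedAddCommGroup E] [NormedSpace ℝ E] {f : ℂ → ℂ → E} (h : J2 f) :
    J2 (fun w z => f z w) :=
  ContDiff.comp (g := fun p : ℂ × ℂ => f p.1 p.2) h
    (contDiff_snd.prodMk contDiff_fst : ContDiff ℝ 2 fun p : ℂ × ℂ => ((p.2, p.1) : ℂ × ℂ))

/-- double mean -/
noncomputable def A2 (f : ℂ → ℂ → ℝ) (s t : ℝ) : ℝ :=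
  ∫ φ in (0 : ℝ)..(2 * Real.pi), mean (fun z => f z (t + φ * I)) s

/-- double mode -/
noncomputable def M2 (f : ℂ → ℂ → ℂ) (m n : ℤ) (s t : ℝ) : ℂ :=
  ∫ φ in (0 : ℝ)..(2 * Real.pi), mode (fun z => f z (t + φ * I)) m s * cexp (-(n * φ * I))

theorem mean_slice_cont {f : ℂ → ℂ → ℝ} (hf : JC f) (s t : ℝ) :
    Continuous (fun φ : ℝ => mean (fun z => f z (t + φ * I)) s) := by
  unfold mean
  refine intervalIntegral.continuous_parametric_intervalIntegral_of_continuous'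
    (f := fun φ θ : ℝ => f (s + θ * I) (t + φ * I)) ?_ _ _
  exact Continuous.comp hf (by fun_prop : Continuous fun p : ℝ × ℝ =>
    (((s : ℂ) + p.2 * I, (t : ℂ) + p.1 * I) : ℂ × ℂ))

theorem mode_slice_cont {f : ℂ → ℂ → ℂ} (hf : JC f) (m : ℤ) (s t : ℝ) :
    Continuous (fun φ : ℝ => mode (fun z => f z (t + φ * I)) m s) := by
  unfold mode
  refine intervalIntegral.continuous_parametric_intervalIntegral_of_continuous'
    (f := fun φ θ : ℝ => f (s + θ * I) (t + φ * I) * cexp (-(m * θ * I))) ?_ _ _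
  have h1 : Continuous fun p : ℝ × ℝ => f (s + p.2 * I) (t + p.1 * I) :=
    Continuous.comp hf (by fun_prop : Continuous fun p : ℝ × ℝ =>
      (((s : ℂ) + p.2 * I, (t : ℂ) + p.1 * I) : ℂ × ℂ))
  exact h1.mul (by fun_prop)

theorem A2_ii {f : ℂ → ℂ → ℝ} (hf : JC f) (s t a b : ℝ) :
    IntervalIntegrable (fun φ : ℝ => mean (fun z => f z (t + φ * I)) s) volume a b :=
  (mean_slice_cont hf s t).intervalIntegrable _ _

theorem M2_cont {f : ℂ → ℂ → ℂ} (hf : JC f) (m n : ℤ) (s t : ℝ) :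
    Continuous (fun φ : ℝ => mode (fun z => f z (t + φ * I)) m s * cexp (-(n * φ * I))) :=
  (mode_slice_cont hf m s t).mul (by fun_prop)

theorem M2_ii {f : ℂ → ℂ → ℂ} (hf : JC f) (m n : ℤ) (s t a b : ℝ) :
    IntervalIntegrable (fun φ : ℝ => mode (fun z => f z (t + φ * I)) m s * cexp (-(n * φ * I)))
      volume a b :=
  (M2_cont hf m n s t).intervalIntegrable _ _

theorem A2_mono {f g : ℂ → ℂ → ℝ} (hf : JC f) (hg : JC g) (h : ∀ z w, f z w ≤ g z w) (s t : ℝ) :
    A2 f s t ≤ A2 g s t :=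
  intervalIntegral.integral_mono_on two_pi_nonneg (A2_ii hf _ _ _ _) (A2_ii hg _ _ _ _)
    (fun _ _ => mean_mono (hf.slice _) (hg.slice _) (fun _ => h _ _) _)

/-- monotonicity on the given torus only -/
theorem A2_mono' {f g : ℂ → ℂ → ℝ} (hf : JC f) (hg : JC g) (s t : ℝ)
    (h : ∀ θ φ : ℝ, f (s + θ * I) (t + φ * I) ≤ g (s + θ * I) (t + φ * I)) :
    A2 f s t ≤ A2 g s t :=
  intervalIntegral.integral_mono_on two_pi_nonneg (A2_ii hf _ _ _ _) (A2_ii hg _ _ _ _)
    (fun φ _ => intervalIntegral.integral_mono_on two_pi_nonneg (mean_ii (hf.slice _) s _ _)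
      (mean_ii (hg.slice _) s _ _) (fun θ _ => h θ φ))

theorem A2_nonneg {f : ℂ → ℂ → ℝ} (h : ∀ z w, 0 ≤ f z w) (s t : ℝ) : 0 ≤ A2 f s t :=
  intervalIntegral.integral_nonneg two_pi_nonneg (fun _ _ => mean_nonneg (fun _ => h _ _) _)

theorem A2_const (c s t : ℝ) : A2 (fun _ _ => c) s t = (2 * Real.pi) ^ 2 * c := by
  simp [A2, mean]; ring

theorem mean_add {f g : ℂ → ℝ} (hf : Continuous f) (hg : Continuous g) (s : ℝ) :
    mean (fun z => f z + g z) s = mean f s + mean g s :=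
  intervalIntegral.integral_add (mean_ii hf s _ _) (mean_ii hg s _ _)

theorem mean_smul (c : ℝ) (f : ℂ → ℝ) (s : ℝ) : mean (fun z => c * f z) s = c * mean f s :=
  intervalIntegral.integral_const_mul _ _

theorem A2_add {f g : ℂ → ℂ → ℝ} (hf : JC f) (hg : JC g) (s t : ℝ) :
    A2 (fun z w => f z w + g z w) s t = A2 f s t + A2 g s t := by
  unfold A2
  rw [← intervalIntegral.integral_add (A2_ii hf _ _ _ _) (A2_ii hg _ _ _ _)]
  congr 1
  funext φ
  exact mean_add (hf.slice _) (hg.slice _) s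

theorem A2_smul (c : ℝ) (f : ℂ → ℂ → ℝ) (s t : ℝ) :
    A2 (fun z w => c * f z w) s t = c * A2 f s t := by
  unfold A2
  rw [← intervalIntegral.integral_const_mul]
  congr 1
  funext φ
  exact mean_smul c _ s

theorem mode_add {f g : ℂ → ℂ} (hf : Continuous f) (hg : Continuous g) (m : ℤ) (s : ℝ) :
    mode (fun z => f z + g z) m s = mode f m s + mode g m s := by
  unfold mode
  rw [← intervalIntegral.integral_add (mode_ii hf m s _ _) (mode_ii hg m s _ _)]
  congr 1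
  funext θ
  ring

theorem mode_smul (c : ℂ) (f : ℂ → ℂ) (m : ℤ) (s : ℝ) :
    mode (fun z => c * f z) m s = c * mode f m s := by
  unfold mode
  rw [← intervalIntegral.integral_const_mul]
  congr 1
  funext θ
  ring

theorem M2_add {f g : ℂ → ℂ → ℂ} (hf : JC f) (hg : JC g) (m n : ℤ) (s t : ℝ) :
    M2 (fun z w => f z w + g z w) m n s t = M2 f m n s t + M2 g m n s t := by
  unfold M2
  rw [← intervalIntegral.integral_add (M2_ii hf _ _ _ _ _ _) (M2_ii hg _ _ _ _ _ _)]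
  congr 1
  funext φ
  rw [mode_add (hf.slice _) (hg.slice _)]
  ring

theorem M2_smul (c : ℂ) (f : ℂ → ℂ → ℂ) (m n : ℤ) (s t : ℝ) :
    M2 (fun z w => c * f z w) m n s t = c * M2 f m n s t := by
  unfold M2
  rw [← intervalIntegral.integral_const_mul]
  congr 1
  funext φ
  rw [mode_smul]
  ring

theorem norm_M2_le {f : ℂ → ℂ → ℂ} (hf : JC f) (m n : ℤ) (s t : ℝ) :
    ‖M2 f m n s t‖ ≤ A2 (fun z w => ‖f z w‖) s t := by
  unfold M2 A2
  refine (intervalIntegral.norm_integral_le_integral_norm two_pi_nonneg).trans ?_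
  have hfn : JC (fun z w => ‖f z w‖) := Continuous.norm hf
  refine intervalIntegral.integral_mono_on two_pi_nonneg
    ((M2_cont hf m n s t).norm.intervalIntegrable _ _)
    (A2_ii hfn s t _ _) (fun φ _ => ?_)
  rw [norm_mul, norm_exp_mode, mul_one]
  exact norm_mode_le _ _ _

theorem M2_ofReal (f : ℂ → ℂ → ℝ) (s t : ℝ) :
    M2 (fun z w => (f z w : ℂ)) 0 0 s t = ((A2 f s t : ℝ) : ℂ) := by
  unfold M2 A2
  rw [← intervalIntegral.integral_ofReal]
  congr 1
  funext φ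
  rw [mode_zero_ofReal (fun z => f z (t + φ * I)) s]
  simp

/-- Fubini -/
theorem A2_swap {f : ℂ → ℂ → ℝ} (hf : JC f) (s t : ℝ) :
    A2 (fun w z => f z w) t s = A2 f s t := by
  unfold A2 mean
  rw [MeasureTheory.intervalIntegral_intervalIntegral_swap]
  have hc : Continuous (Function.uncurry fun x y : ℝ => f (s + x * I) (t + y * I)) :=
    Continuous.comp hf (by fun_prop : Continuous fun p : ℝ × ℝ =>
      (((s : ℂ) + p.1 * I, (t : ℂ) + p.2 * I) : ℂ × ℂ))
  refine (hc.integrableOn_Icc (a := (0, 0)) (b := (2 * Real.pi, 2 * Real.pi))).mono_set ?_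
  rw [uIoc_of_le two_pi_nonneg, ← Icc_prod_Icc]
  exact prod_mono Ioc_subset_Icc_self Ioc_subset_Icc_self

theorem M2_swap {f : ℂ → ℂ → ℂ} (hf : JC f) (m n : ℤ) (s t : ℝ) :
    M2 (fun w z => f z w) n m t s = M2 f m n s t := by
  unfold M2 mode
  simp_rw [← intervalIntegral.integral_mul_const]
  rw [MeasureTheory.intervalIntegral_intervalIntegral_swap]
  · congr 1
    funext φ
    congr 1
    funext θ
    ring
  · have hc0 : Continuous (fun p : ℝ × ℝ => f (s + p.1 * I) (t + p.2 * I)) :=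
      Continuous.comp hf (by fun_prop : Continuous fun p : ℝ × ℝ =>
        (((s : ℂ) + p.1 * I, (t : ℂ) + p.2 * I) : ℂ × ℂ))
    have hc : Continuous (Function.uncurry fun x y : ℝ =>
        f (s + x * I) (t + y * I) * cexp (-(n * y * I)) * cexp (-(m * x * I))) := by
      change Continuous (fun p : ℝ × ℝ =>
        f (s + p.1 * I) (t + p.2 * I) * cexp (-(n * p.2 * I)) * cexp (-(m * p.1 * I)))
      fun_prop
    refine (hc.integrableOn_Icc (a := (0, 0)) (b := (2 * Real.pi, 2 * Real.pi))).mono_set ?_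
    rw [uIoc_of_le two_pi_nonneg, ← Icc_prod_Icc]
    exact prod_mono Ioc_subset_Icc_self Ioc_subset_Icc_self

theorem ii_conj (f : ℝ → ℂ) (a b : ℝ) :
    ∫ x in a..b, (starRingEnd ℂ) (f x) = (starRingEnd ℂ) (∫ x in a..b, f x) := by
  simp only [intervalIntegral, integral_conj, map_sub]

theorem conj_exp_mode (m : ℤ) (θ : ℝ) :
    (starRingEnd ℂ) (cexp (-(((-m : ℤ) : ℂ) * θ * I))) = cexp (-(m * θ * I)) := by
  rw [← Complex.exp_conj]
  congr 1
  simp

theorem mode_conj (f : ℂ → ℂ) (m : ℤ) (s : ℝ) :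
    mode (fun z => (starRingEnd ℂ) (f z)) m s = (starRingEnd ℂ) (mode f (-m) s) := by
  unfold mode
  rw [← ii_conj]
  congr 1
  funext θ
  rw [map_mul, conj_exp_mode]

/-- conjugation -/
theorem M2_conj (f : ℂ → ℂ → ℂ) (m n : ℤ) (s t : ℝ) :
    M2 (fun z w => (starRingEnd ℂ) (f z w)) m n s t = (starRingEnd ℂ) (M2 f (-m) (-n) s t) := by
  unfold M2
  rw [← ii_conj]
  congr 1
  funext φ
  rw [map_mul, conj_exp_mode, mode_conj]

/-- **Main estimate**, two-variable version. -/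
theorem M2_tp_le {a : ℂ → ℂ → ℝ} {η : ℂ → ℂ → ℂ} (ha : J2 a) (hη : J2 η)
    (hpa : ∀ z w, a (z + 2 * Real.pi * I) w = a z w)
    (hpη : ∀ z w, η (z + 2 * Real.pi * I) w = η z w)
    (hl : ∀ z w, ‖lap (fun z => η z w) z‖ ≤ lap (fun z => a z w) z) (m n : ℤ) (s t : ℝ) {δ : ℝ}
    (hδ : 0 ≤ δ) :
    ‖M2 η m n (s + δ) t + M2 η m n (s - δ) t - 2 * Real.cosh (m * δ) * M2 η m n s t‖ ≤
      Real.cosh (m * δ) * (A2 a (s + 2 * δ) t + A2 a (s - 2 * δ) t - 2 * A2 a s t) := by
  have e1 : M2 η m n (s + δ) t + M2 η m n (s - δ) t - 2 * Real.cosh (m * δ) * M2 η m n s t =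
      ∫ φ in (0 : ℝ)..(2 * Real.pi), (mode (fun z => η z (t + φ * I)) m (s + δ) +
        mode (fun z => η z (t + φ * I)) m (s - δ) -
        2 * Real.cosh (m * δ) * mode (fun z => η z (t + φ * I)) m s) * cexp (-(n * φ * I)) := by
    unfold M2
    rw [← intervalIntegral.integral_add (M2_ii hη.jc _ _ _ _ _ _) (M2_ii hη.jc _ _ _ _ _ _),
      ← intervalIntegral.integral_const_mul, ← intervalIntegral.integral_sub]
    · congr 1
      funext φ
      ring
    · exact (M2_ii hη.jc _ _ _ _ _ _).add (M2_ii hη.jc _ _ _ _ _ _)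
    · exact (M2_ii hη.jc _ _ _ _ _ _).const_mul _
  have e2 : A2 a (s + 2 * δ) t + A2 a (s - 2 * δ) t - 2 * A2 a s t =
      ∫ φ in (0 : ℝ)..(2 * Real.pi), SD (fun z => a z (t + φ * I)) s (2 * δ) := by
    unfold A2 SD
    rw [← intervalIntegral.integral_add (A2_ii ha.jc _ _ _ _) (A2_ii ha.jc _ _ _ _),
      ← intervalIntegral.integral_const_mul, ← intervalIntegral.integral_sub]
    · exact (A2_ii ha.jc _ _ _ _).add (A2_ii ha.jc _ _ _ _)
    · exact (A2_ii ha.jc _ _ _ _).const_mul _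
  rw [e1, e2, ← intervalIntegral.integral_const_mul]
  refine intervalIntegral.norm_integral_le_of_norm_le two_pi_nonneg ?_ ?_
  · refine Filter.Eventually.of_forall fun φ _ => ?_
    rw [norm_mul, norm_exp_mode, mul_one]
    exact mode_tp_le (ha.slice _) (hη.slice _) (fun z => hpa z _) (fun z => hpη z _)
      (fun z => hl z _) m s hδ
  · refine Continuous.intervalIntegrable ?_ _ _
    unfold SD
    have := mean_slice_cont ha.jc
    have h1 := this (s + 2 * δ) t
    have h2 := this (s - 2 * δ) t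
    have h3 := this s t
    fun_prop

end Crest.Agent.Quadric.Ana
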