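import Mathlib
import Crest.Agent.Quadric.Ana5
import Crest.Agent.Quadric.Defs

/-!
S0396 analysis, part 6: the structure `Sys` (symmetric under exchange of the variables) and its
consequences for one system.
-/

set_option autoImplicit false

namespace Crest.Agent.Quadric.Ana

open Complex MeasureTheory Set Filter Topology
open scoped ComplexConjugate ContDiff

section linear

variable {E F : Type*} [NormedAddCommGroup E] [NormedSpace ℝ E] [NormedAddCommGroup F]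
  [NormedSpace ℝ F]

theorem dx_clm {f : ℂ → E} (hf : Differentiable ℝ f) (L : E →L[ℝ] F) (z : ℂ) :
    dx (fun z => L (f z)) z = L (dx f z) := by
  unfold dx
  have : HasFDerivAt (fun z => L (f z)) (L.comp (fderiv ℝ f z)) z :=
    L.hasFDerivAt.comp z (hf z).hasFDerivAt
  rw [this.fderiv]
  rfl

theorem dy_clm {f : ℂ → E} (hf : Differentiable ℝ f) (L : E →L[ℝ] F) (z : ℂ) :
    dy (fun z => L (f z)) z = L (dy f z) := by
  unfold dy
  have : HasFDerivAt (fun z => L (f z)) (L.comp (fderiv ℝ f z)) z :=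
    L.hasFDerivAt.comp z (hf z).hasFDerivAt
  rw [this.fderiv]
  rfl

theorem lap_clm {f : ℂ → E} (hf : ContDiff ℝ 2 f) (L : E →L[ℝ] F) (z : ℂ) :
    lap (fun z => L (f z)) z = L (lap f z) := by
  unfold lap
  have h1 : dx (fun z => L (f z)) = fun z => L (dx f z) := by
    funext z; exact dx_clm (hf.differentiable (by norm_num)) L z
  have h2 : dy (fun z => L (f z)) = fun z => L (dy f z) := by
    funext z; exact dy_clm (hf.differentiable (by norm_num)) L z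
  rw [h1, h2, dx_clm ((dx1 hf).differentiable (by norm_num)),
    dy_clm ((dy1 hf).differentiable (by norm_num)), map_add]

end linear

/-- the real-linear functional `(a, e, b) ↦ N(α ε₁ + β ε₂)` -/
noncomputable def NL (α β : ℂ) : (ℝ × ℂ × ℝ) →L[ℝ] ℝ :=
  (‖α‖ ^ 2) • ContinuousLinearMap.fst ℝ ℝ (ℂ × ℝ) +
  (2 : ℝ) • (Complex.reCLM.comp ((mulL (α * conj β)).comp
    ((ContinuousLinearMap.fst ℝ ℂ ℝ).comp (ContinuousLinearMap.snd ℝ ℝ (ℂ × ℝ))))) +
  (‖β‖ ^ 2) • ((ContinuousLinearMap.snd ℝ ℂ ℝ).comp (ContinuousLinearMap.snd ℝ ℝ (ℂ × ℝ)))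

theorem NL_apply (α β : ℂ) (a : ℝ) (e : ℂ) (b : ℝ) : NL α β (a, e, b) = Nf a e b α β := by
  simp [NL, Nf]
  ring

theorem lap_Nf {a b : ℂ → ℝ} {e : ℂ → ℂ} (ha : ContDiff ℝ 2 a) (hb : ContDiff ℝ 2 b)
    (he : ContDiff ℝ 2 e) (α β z : ℂ) :
    lap (fun z => Nf (a z) (e z) (b z) α β) z = Nf (lap a z) (lap e z) (lap b z) α β := by
  have hF : ContDiff ℝ 2 (fun z => ((a z, e z, b z) : ℝ × ℂ × ℝ)) := ha.prodMk (he.prodMk hb)
  have h1 : (fun z => Nf (a z) (e z) (b z) α β) = fun z => NL α β (a z, e z, b z) := by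
    funext z; rw [NL_apply]
  rw [h1, lap_clm hF, ← NL_apply]
  congr 1
  have p1 := lap_clm hF (ContinuousLinearMap.fst ℝ ℝ (ℂ × ℝ)) z
  have p2 := lap_clm hF ((ContinuousLinearMap.fst ℝ ℂ ℝ).comp
    (ContinuousLinearMap.snd ℝ ℝ (ℂ × ℝ))) z
  have p3 := lap_clm hF ((ContinuousLinearMap.snd ℝ ℂ ℝ).comp
    (ContinuousLinearMap.snd ℝ ℝ (ℂ × ℝ))) z
  simp only [ContinuousLinearMap.coe_fst', ContinuousLinearMap.comp_apply,
    ContinuousLinearMap.coe_snd'] at p1 p2 p3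
  rw [p1, p2, p3]

theorem psd_bound {a b : ℝ} {e : ℂ} (h : ∀ α β : ℂ, 0 ≤ Nf a e b α β) {τ : ℝ} (hτ : 0 < τ) :
    ‖e‖ ≤ τ / 2 * a + 1 / (2 * τ) * b := by
  rcases eq_or_ne e 0 with he | he
  · subst he
    have h1 := h 1 0
    have h2 := h 0 1
    simp [Nf] at h1 h2
    simp only [norm_zero]
    positivity
  · have hn : 0 < ‖e‖ := norm_pos_iff.2 he
    have hs : 0 < Real.sqrt τ := Real.sqrt_pos.2 hτ
    have hss : Real.sqrt τ ^ 2 = τ := Real.sq_sqrt hτ.le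
    have := h (-(Real.sqrt τ : ℂ) * (conj e / ‖e‖)) ((Real.sqrt τ : ℂ)⁻¹)
    unfold Nf at this
    have e1 : ‖-(Real.sqrt τ : ℂ) * (conj e / ‖e‖)‖ ^ 2 = τ := by
      rw [norm_mul, norm_neg, norm_div, Complex.norm_real, Complex.norm_real, RCLike.norm_conj,
        Real.norm_eq_abs, Real.norm_eq_abs, abs_of_pos hs, abs_of_pos hn, div_self hn.ne', mul_one,
        hss]
    have e2 : ‖(Real.sqrt τ : ℂ)⁻¹‖ ^ 2 = 1 / τ := by
      rw [norm_inv, Complex.norm_real, Real.norm_eq_abs, abs_of_pos hs, inv_pow, hss, one_div]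
    have e3 : (-(Real.sqrt τ : ℂ) * (conj e / ‖e‖) * conj ((Real.sqrt τ : ℂ)⁻¹) * e).re = -‖e‖ := by
      have hsc : (Real.sqrt τ : ℂ) ≠ 0 := by exact_mod_cast hs.ne'
      have hnc : (‖e‖ : ℂ) ≠ 0 := by exact_mod_cast hn.ne'
      have : -(Real.sqrt τ : ℂ) * (conj e / ‖e‖) * conj ((Real.sqrt τ : ℂ)⁻¹) * e =
          -(conj e * e / ‖e‖) := by
        rw [map_inv₀, Complex.conj_ofReal]
        field_simp
      rw [this]
      have h3 : conj e * e = (‖e‖ : ℂ) ^ 2 := Complex.conj_mul' e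
      rw [h3, pow_two, mul_div_assoc, div_self hnc, mul_one]
      simp
    rw [e1, e2, e3] at this
    have h5 : 1 / (2 * τ) * b = (1 / τ * b) / 2 := by field_simp
    rw [h5]
    linarith

/-- weight `e^{-2 c Re z}` -/
theorem cd_weight (c : ℝ) : ContDiff ℝ 2 (fun z : ℂ => Real.exp (-(2 * c * z.re))) := by
  have h1 : ContDiff ℝ 2 (fun z : ℂ => z.re) := Complex.reCLM.contDiff
  exact Real.contDiff_exp.comp ((contDiff_const.mul h1).neg)

theorem J2.weight {f : ℂ → ℂ → ℝ} (hf : J2 f) (c : ℝ) :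
    J2 (fun z w => Real.exp (-(2 * c * z.re)) * f z w) := by
  have h1 : ContDiff ℝ 2 (fun p : ℂ × ℂ => Real.exp (-(2 * c * p.1.re))) :=
    (cd_weight c).comp contDiff_fst
  exact h1.mul hf

theorem A2_weight (c : ℝ) (f : ℂ → ℂ → ℝ) (s t : ℝ) :
    A2 (fun z w => Real.exp (-(2 * c * z.re)) * f z w) s t = Real.exp (-(2 * c * s)) * A2 f s t := by
  unfold A2 mean
  rw [← intervalIntegral.integral_const_mul]
  congr 1
  funext φ
  rw [← intervalIntegral.integral_const_mul]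
  congr 1
  funext θ
  simp

/-- second differences of double means are non-negative -/
theorem A2_sd_nonneg {f : ℂ → ℂ → ℝ} (sf : J2 f)
    (hp : ∀ z w, f (z + 2 * Real.pi * I) w = f z w)
    (hl : ∀ z w, 0 ≤ lap (fun z => f z w) z) (s t : ℝ) {δ : ℝ} (hδ : 0 ≤ δ) :
    0 ≤ A2 f (s + δ) t + A2 f (s - δ) t - 2 * A2 f s t := by
  have e2 : A2 f (s + δ) t + A2 f (s - δ) t - 2 * A2 f s t =
      ∫ φ in (0 : ℝ)..(2 * Real.pi), SD (fun z => f z (t + φ * I)) s δ := by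
    unfold A2 SD
    rw [← intervalIntegral.integral_add (A2_ii sf.jc _ _ _ _) (A2_ii sf.jc _ _ _ _),
      ← intervalIntegral.integral_const_mul, ← intervalIntegral.integral_sub]
    · exact (A2_ii sf.jc _ _ _ _).add (A2_ii sf.jc _ _ _ _)
    · exact (A2_ii sf.jc _ _ _ _).const_mul _
  rw [e2]
  exact intervalIntegral.integral_nonneg two_pi_nonneg fun φ _ =>
    SD_nonneg (sf.slice _) (fun z => hp z _) (fun z => hl z _) s hδ

theorem A2_le_of_le {f : ℂ → ℂ → ℝ} (sf : JC f) {C s t : ℝ}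
    (h : ∀ z w : ℂ, w.re = t → z.re = s → f z w ≤ C) : A2 f s t ≤ (2 * Real.pi) ^ 2 * C := by
  rw [← A2_const C s t]
  exact A2_mono' sf (continuous_const) s t fun θ φ => h _ _ (by simp) (by simp)

theorem A2_monotone {f : ℂ → ℂ → ℝ} (sf : J2 f)
    (hp : ∀ z w, f (z + 2 * Real.pi * I) w = f z w)
    (hl : ∀ z w, 0 ≤ lap (fun z => f z w) z) (t : ℝ)
    (hb : ∃ C, ∀ z w : ℂ, w.re = t → z.re ≤ 0 → f z w ≤ C) : Monotone (fun s => A2 f s t) := by
  obtain ⟨C, hC⟩ := hb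
  exact mono_of_midconvex (fun s δ hδ => A2_sd_nonneg sf hp hl s t hδ)
    (C := (2 * Real.pi) ^ 2 * C) (S := 0)
    (fun s hs => A2_le_of_le sf.jc fun z w hw hz => hC z w hw (by rw [hz]; exact hs))

theorem A2_antitone {f : ℂ → ℂ → ℝ} (sf : J2 f)
    (hp : ∀ z w, f (z + 2 * Real.pi * I) w = f z w)
    (hl : ∀ z w, 0 ≤ lap (fun z => f z w) z) (t : ℝ)
    (hb : ∃ C, ∀ z w : ℂ, w.re = t → 0 ≤ z.re → f z w ≤ C) : Antitone (fun s => A2 f s t) := by
  obtain ⟨C, hC⟩ := hb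
  exact anti_of_midconvex (fun s δ hδ => A2_sd_nonneg sf hp hl s t hδ)
    (C := (2 * Real.pi) ^ 2 * C) (S := 0)
    (fun s hs => A2_le_of_le sf.jc fun z w hw hz => hC z w hw (by rw [hz]; exact hs))

/-- The system `(a, e, b)`, symmetric under exchange of the two variables. -/
structure Sys (κ : ℝ) where
  a : ℂ → ℂ → ℝ
  b : ℂ → ℂ → ℝ
  e : ℂ → ℂ → ℂ
  sa : J2 a
  sb : J2 b
  se : J2 e
  a0 : ∀ Z W, 0 ≤ a Z W
  b0 : ∀ Z W, 0 ≤ b Z W
  cs : ∀ Z W, ‖e Z W‖ ^ 2 ≤ a Z W * b Z W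
  pa1 : ∀ Z W, a (Z + 2 * Real.pi * I) W = a Z W
  pa2 : ∀ Z W, a Z (W + 2 * Real.pi * I) = a Z W
  pb1 : ∀ Z W, b (Z + 2 * Real.pi * I) W = b Z W
  pb2 : ∀ Z W, b Z (W + 2 * Real.pi * I) = b Z W
  pe1 : ∀ Z W, e (Z + 2 * Real.pi * I) W = e Z W
  pe2 : ∀ Z W, e Z (W + 2 * Real.pi * I) = e Z W
  psh1 : ∀ s1 s2 : ℂ → ℂ, Differentiable ℂ s1 → Differentiable ℂ s2 → ∀ Z W,
    0 ≤ lap (fun z => Nf (a z W) (e z W) (b z W) (s1 z) (s2 z)) Z
  psh2 : ∀ s1 s2 : ℂ → ℂ, Differentiable ℂ s1 → Differentiable ℂ s2 → ∀ Z W,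
    0 ≤ lap (fun w => Nf (a Z w) (e Z w) (b Z w) (s1 w) (s2 w)) W
  a_bot1 : ∀ τ : ℝ, ∃ C, ∀ Z W : ℂ, W.re = τ → Z.re ≤ 0 → a Z W ≤ C
  a_top1 : ∀ τ : ℝ, ∃ C, ∀ Z W : ℂ, W.re = τ → 0 ≤ Z.re → a Z W ≤ C * Real.exp ((12 + 2 * κ) * Z.re)
  a_bot2 : ∀ t : ℝ, ∃ C, ∀ Z W : ℂ, Z.re = t → W.re ≤ 0 → a Z W ≤ C
  a_top2 : ∀ t : ℝ, ∃ C, ∀ Z W : ℂ, Z.re = t → 0 ≤ W.re → a Z W ≤ C * Real.exp ((2 * κ) * W.re)
  b_bot1 : ∀ τ : ℝ, ∃ C, ∀ Z W : ℂ, W.re = τ → Z.re ≤ 0 → b Z W ≤ C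
  b_top1 : ∀ τ : ℝ, ∃ C, ∀ Z W : ℂ, W.re = τ → 0 ≤ Z.re → b Z W ≤ C * Real.exp ((2 * κ) * Z.re)
  b_bot2 : ∀ t : ℝ, ∃ C, ∀ Z W : ℂ, Z.re = t → W.re ≤ 0 → b Z W ≤ C
  b_top2 : ∀ t : ℝ, ∃ C, ∀ Z W : ℂ, Z.re = t → 0 ≤ W.re → b Z W ≤ C * Real.exp ((12 + 2 * κ) * W.re)

namespace Sys

variable {κ : ℝ} (S : Sys κ)

theorem Nf_swap (a : ℝ) (e : ℂ) (b : ℝ) (α β : ℂ) : Nf b (conj e) a β α = Nf a e b α β := by
  unfold Nf
  have : (β * conj α * conj e).re = (α * conj β * e).re := by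
    rw [← Complex.conj_re (α * conj β * e)]
    simp only [map_mul, Complex.conj_conj]
    congr 1
    ring
  rw [this]; ring

/-- exchange of the two variables -/
noncomputable def swap : Sys κ where
  a := fun w z => S.b z w
  b := fun w z => S.a z w
  e := fun w z => conj (S.e z w)
  sa := S.sb.swap
  sb := S.sa.swap
  se := by
    have h1 := S.se.swap
    exact Complex.conjCLE.contDiff.comp h1
  a0 := fun _ _ => S.b0 _ _
  b0 := fun _ _ => S.a0 _ _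
  cs := fun Z W => by
    rw [RCLike.norm_conj, mul_comm]; exact S.cs _ _
  pa1 := fun _ _ => S.pb2 _ _
  pa2 := fun _ _ => S.pb1 _ _
  pb1 := fun _ _ => S.pa2 _ _
  pb2 := fun _ _ => S.pa1 _ _
  pe1 := fun _ _ => by rw [S.pe2]
  pe2 := fun _ _ => by rw [S.pe1]
  psh1 := fun s1 s2 h1 h2 Z W => by
    have := S.psh2 s2 s1 h2 h1 W Z
    simpa only [Nf_swap] using this
  psh2 := fun s1 s2 h1 h2 Z W => by
    have := S.psh1 s2 s1 h2 h1 W Z
    simpa only [Nf_swap] using this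
  a_bot1 := fun τ => by
    obtain ⟨C, hC⟩ := S.b_bot2 τ; exact ⟨C, fun Z W h1 h2 => hC W Z h1 h2⟩
  a_top1 := fun τ => by
    obtain ⟨C, hC⟩ := S.b_top2 τ; exact ⟨C, fun Z W h1 h2 => hC W Z h1 h2⟩
  a_bot2 := fun τ => by
    obtain ⟨C, hC⟩ := S.b_bot1 τ; exact ⟨C, fun Z W h1 h2 => hC W Z h1 h2⟩
  a_top2 := fun τ => by
    obtain ⟨C, hC⟩ := S.b_top1 τ; exact ⟨C, fun Z W h1 h2 => hC W Z h1 h2⟩
  b_bot1 := fun τ => by
    obtain ⟨C, hC⟩ := S.a_bot2 τ; exact ⟨C, fun Z W h1 h2 => hC W Z h1 h2⟩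
  b_top1 := fun τ => by
    obtain ⟨C, hC⟩ := S.a_top2 τ; exact ⟨C, fun Z W h1 h2 => hC W Z h1 h2⟩
  b_bot2 := fun τ => by
    obtain ⟨C, hC⟩ := S.a_bot1 τ; exact ⟨C, fun Z W h1 h2 => hC W Z h1 h2⟩
  b_top2 := fun τ => by
    obtain ⟨C, hC⟩ := S.a_top1 τ; exact ⟨C, fun Z W h1 h2 => hC W Z h1 h2⟩

theorem norm_exp_sq (c : ℝ) (z : ℂ) : ‖cexp (-(c * z))‖ ^ 2 = Real.exp (-(2 * c * z.re)) := by
  rw [Complex.norm_exp, ← Real.exp_nat_mul]
  congr 1
  simp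
  ring

theorem lapA (c : ℝ) (z w : ℂ) : 0 ≤ lap (fun z => Real.exp (-(2 * c * z.re)) * S.a z w) z := by
  have h := S.psh1 (fun z => cexp (-(c * z))) (fun _ => 0) (by fun_prop) (by fun_prop) z w
  have e : (fun z => Nf (S.a z w) (S.e z w) (S.b z w) (cexp (-(c * z))) 0) =
      fun z => Real.exp (-(2 * c * z.re)) * S.a z w := by
    funext z
    unfold Nf
    rw [norm_exp_sq]
    simp
  rwa [e] at h

theorem lapB (c : ℝ) (z w : ℂ) : 0 ≤ lap (fun z => Real.exp (-(2 * c * z.re)) * S.b z w) z := by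
  have h := S.psh1 (fun _ => 0) (fun z => cexp (-(c * z))) (by fun_prop) (by fun_prop) z w
  have e : (fun z => Nf (S.a z w) (S.e z w) (S.b z w) 0 (cexp (-(c * z)))) =
      fun z => Real.exp (-(2 * c * z.re)) * S.b z w := by
    funext z
    unfold Nf
    rw [norm_exp_sq]
    simp
  rwa [e] at h

theorem lapA0 (z w : ℂ) : 0 ≤ lap (fun z => S.a z w) z := by
  have := S.lapA 0 z w
  simpa using this

theorem lapB0 (z w : ℂ) : 0 ≤ lap (fun z => S.b z w) z := by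
  have := S.lapB 0 z w
  simpa using this

/-- domination of the Laplacian of `e`, twisted by `e^{-c z}` in the first slot -/
theorem lapE (c : ℝ) {τ : ℝ} (hτ : 0 < τ) (z w : ℂ) :
    ‖lap (fun z => cexp (-(c * z)) * S.e z w) z‖ ≤
      lap (fun z => τ / 2 * (Real.exp (-(2 * c * z.re)) * S.a z w) + 1 / (2 * τ) * S.b z w) z := by
  have ca : ContDiff ℝ 2 (fun z => Real.exp (-(2 * c * z.re)) * S.a z w) :=
    (J2.weight S.sa c).slice w
  have cb : ContDiff ℝ 2 (fun z => S.b z w) := S.sb.slice w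
  have ce : ContDiff ℝ 2 (fun z => cexp (-(c * z)) * S.e z w) := by
    have h1 : ContDiff ℝ 2 (fun z : ℂ => cexp (-(c * z))) :=
      (Complex.contDiff_exp (𝕜 := ℝ)).comp ((contDiff_const.mul contDiff_id).neg)
    exact h1.mul (S.se.slice w)
  have key : ∀ α β : ℂ, 0 ≤ Nf (lap (fun z => Real.exp (-(2 * c * z.re)) * S.a z w) z)
      (lap (fun z => cexp (-(c * z)) * S.e z w) z) (lap (fun z => S.b z w) z) α β := by
    intro α β
    rw [← lap_Nf ca cb ce]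
    have h := S.psh1 (fun z => α * cexp (-(c * z))) (fun _ => β) (by fun_prop) (by fun_prop) z w
    convert h using 2
    funext z
    unfold Nf
    rw [norm_mul, mul_pow, norm_exp_sq]
    have : α * conj β * (cexp (-(c * z)) * S.e z w) = α * cexp (-(c * z)) * conj β * S.e z w := by
      ring
    rw [this]
    ring
  have hb := psd_bound key hτ
  refine hb.trans_eq ?_
  have e1 : (fun z => τ / 2 * (Real.exp (-(2 * c * z.re)) * S.a z w) + 1 / (2 * τ) * S.b z w) =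
      fun z => Nf (Real.exp (-(2 * c * z.re)) * S.a z w) 0 (S.b z w) (Real.sqrt (τ / 2) : ℂ)
        (Real.sqrt (1 / (2 * τ)) : ℂ) := by
    funext z
    unfold Nf
    rw [Complex.norm_real, Complex.norm_real, Real.norm_eq_abs, Real.norm_eq_abs, sq_abs, sq_abs,
      Real.sq_sqrt (by positivity), Real.sq_sqrt (by positivity)]
    simp
  rw [e1, lap_Nf ca cb contDiff_const]
  unfold Nf
  rw [Complex.norm_real, Complex.norm_real, Real.norm_eq_abs, Real.norm_eq_abs, sq_abs, sq_abs,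
      Real.sq_sqrt (by positivity), Real.sq_sqrt (by positivity)]
  have hz : lap (fun _ : ℂ => (0 : ℂ)) z = 0 := by
    have h1 : dx (fun _ : ℂ => (0 : ℂ)) = fun _ => 0 := by funext z; simp [dx]
    have h2 : dy (fun _ : ℂ => (0 : ℂ)) = fun _ => 0 := by funext z; simp [dy]
    unfold lap
    rw [h1, h2]
    simp [dx, dy]
  rw [hz]
  simp

theorem A_mono (t : ℝ) : Monotone (fun s => A2 S.a s t) :=
  A2_monotone S.sa S.pa1 S.lapA0 t (S.a_bot1 t)

theorem B_mono (t : ℝ) : Monotone (fun s => A2 S.b s t) :=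
  A2_monotone S.sb S.pb1 S.lapB0 t (S.b_bot1 t)

theorem A_anti (t : ℝ) : Antitone (fun s => Real.exp (-(2 * (6 + κ) * s)) * A2 S.a s t) := by
  have h := A2_antitone (f := fun z w => Real.exp (-(2 * (6 + κ) * z.re)) * S.a z w)
    (J2.weight S.sa (6 + κ)) (fun z w => by simp [S.pa1]) (S.lapA (6 + κ)) t (by
      obtain ⟨C, hC⟩ := S.a_top1 t
      refine ⟨C, fun z w hw hz => ?_⟩
      have h1 := hC z w hw hz
      have h2 : Real.exp (-(2 * (6 + κ) * z.re)) * S.a z w ≤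
          Real.exp (-(2 * (6 + κ) * z.re)) * (C * Real.exp ((12 + 2 * κ) * z.re)) := by gcongr
      refine h2.trans_eq ?_
      rw [mul_left_comm, ← Real.exp_add]
      ring_nf
      simp)
  simpa only [A2_weight] using h

theorem B_anti (t : ℝ) : Antitone (fun s => Real.exp (-(2 * κ * s)) * A2 S.b s t) := by
  have h := A2_antitone (f := fun z w => Real.exp (-(2 * κ * z.re)) * S.b z w)
    (J2.weight S.sb κ) (fun z w => by simp [S.pb1]) (S.lapB κ) t (by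
      obtain ⟨C, hC⟩ := S.b_top1 t
      refine ⟨C, fun z w hw hz => ?_⟩
      have h1 := hC z w hw hz
      have h2 : Real.exp (-(2 * κ * z.re)) * S.b z w ≤
          Real.exp (-(2 * κ * z.re)) * (C * Real.exp ((2 * κ) * z.re)) := by gcongr
      refine h2.trans_eq ?_
      rw [mul_left_comm, ← Real.exp_add]
      ring_nf
      simp)
  simpa only [A2_weight] using h

theorem A_shift (s t : ℝ) {δ : ℝ} (hδ : 0 ≤ δ) :
    A2 S.a (s + δ) t ≤ Real.exp (2 * (6 + κ) * δ) * A2 S.a s t := by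
  have h := S.A_anti t (show s ≤ s + δ by linarith)
  simp only at h
  have h2 := mul_le_mul_of_nonneg_left h (Real.exp_pos (2 * (6 + κ) * (s + δ))).le
  rw [← mul_assoc, ← mul_assoc, ← Real.exp_add, ← Real.exp_add] at h2
  ring_nf at h2 ⊢
  simpa using h2

theorem B_shift (s t : ℝ) {δ : ℝ} (hδ : 0 ≤ δ) :
    A2 S.b (s + δ) t ≤ Real.exp (2 * κ * δ) * A2 S.b s t := by
  have h := S.B_anti t (show s ≤ s + δ by linarith)
  simp only at h
  have h2 := mul_le_mul_of_nonneg_left h (Real.exp_pos (2 * κ * (s + δ))).le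
  rw [← mul_assoc, ← mul_assoc, ← Real.exp_add, ← Real.exp_add] at h2
  ring_nf at h2 ⊢
  simpa using h2

end Sys

end Crest.Agent.Quadric.Ana
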