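import Mathlib
import Crest.Agent.Quadric.Ana6

/-!
S0396 analysis, part 7: families of systems and ultrafilter limits of the modes.
-/

set_option autoImplicit false

namespace Crest.Agent.Quadric.Ana

open Complex MeasureTheory Set Filter Topology
open scoped ComplexConjugate ContDiff

/-- ultrafilter on `ℕ` -/
noncomputable abbrev UU : Filter ℕ := (hyperfilter ℕ : Filter ℕ)

/-- ultrafilter limit -/
noncomputable def Lm (f : ℕ → ℂ) : ℂ := limUnder UU f

theorem Lm_tendsto {f : ℕ → ℂ} {C : ℝ} (h : ∀ k, ‖f k‖ ≤ C) : Tendsto f UU (𝓝 (Lm f)) := by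
  have hc : IsCompact (Metric.closedBall (0 : ℂ) C) := isCompact_closedBall 0 C
  have hmem : (Ultrafilter.map f (hyperfilter ℕ) : Filter ℂ) ≤ 𝓟 (Metric.closedBall (0 : ℂ) C) := by
    rw [Ultrafilter.coe_map, le_principal_iff, mem_map]
    refine Filter.univ_mem' fun k => ?_
    simpa using h k
  obtain ⟨x, _, hx⟩ := hc.ultrafilter_le_nhds _ hmem
  refine tendsto_nhds_limUnder ⟨x, ?_⟩
  rw [Ultrafilter.coe_map] at hx
  exact hx

theorem Lm_unique {f : ℕ → ℂ} {l : ℂ} (h : Tendsto f UU (𝓝 l)) : Lm f = l :=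
  h.limUnder_eq

theorem UU_le : UU ≤ (atTop : Filter ℕ) := by
  rw [← Nat.cofinite_eq_atTop]
  exact hyperfilter_le_cofinite

/-- twisting a mode -/
theorem mode_twist (c : ℤ) (f : ℂ → ℂ) (m : ℤ) (s : ℝ) :
    mode (fun z => cexp (-(((c : ℝ) : ℂ) * z)) * f z) (m - c) s = Real.exp (-(c * s)) * mode f m s := by
  unfold mode
  rw [← intervalIntegral.integral_const_mul]
  congr 1
  funext θ
  have : cexp (-(((c : ℝ) : ℂ) * (s + θ * I))) * cexp (-(((m - c : ℤ) : ℂ) * θ * I)) =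
      (Real.exp (-(c * s)) : ℂ) * cexp (-(m * θ * I)) := by
    rw [Complex.ofReal_exp, ← Complex.exp_add, ← Complex.exp_add]
    congr 1
    push_cast
    ring
  linear_combination f (s + θ * I) * this

theorem M2_twist (c : ℤ) (f : ℂ → ℂ → ℂ) (m n : ℤ) (s t : ℝ) :
    M2 (fun z w => cexp (-(((c : ℝ) : ℂ) * z)) * f z w) (m - c) n s t =
      Real.exp (-(c * s)) * M2 f m n s t := by
  unfold M2
  rw [← intervalIntegral.integral_const_mul]
  congr 1
  funext φ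
  rw [mode_twist c (fun z => f z (t + φ * I)) m s]
  ring

/-- family of systems with `κ → 0`, normalised -/
structure Fam where
  κ : ℕ → ℝ
  κ0 : ∀ k, 0 ≤ κ k
  κ1 : ∀ k, κ k ≤ 1
  κl : Tendsto κ atTop (𝓝 0)
  S : ∀ k, Sys (κ k)
  na : ∀ k, A2 (S k).a 0 0 ≤ 1
  nb : ∀ k, A2 (S k).b 0 0 ≤ 1

namespace Fam

variable (F : Fam)

noncomputable def swap : Fam where
  κ := F.κ
  κ0 := F.κ0
  κ1 := F.κ1
  κl := F.κl
  S := fun k => (F.S k).swap
  na := fun k => by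
    have := A2_swap (F.S k).sb.jc 0 0
    exact (le_of_eq this).trans (F.nb k)
  nb := fun k => by
    have := A2_swap (F.S k).sa.jc 0 0
    exact (le_of_eq this).trans (F.na k)

theorem swap_a (k : ℕ) (s t : ℝ) : A2 (F.swap.S k).a t s = A2 (F.S k).b s t :=
  A2_swap (F.S k).sb.jc s t

theorem swap_b (k : ℕ) (s t : ℝ) : A2 (F.swap.S k).b t s = A2 (F.S k).a s t :=
  A2_swap (F.S k).sa.jc s t

theorem A_bd1 (k : ℕ) (s t : ℝ) : A2 (F.S k).a s t ≤ Real.exp (14 * |s|) * A2 (F.S k).a 0 t := by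
  have h0 := A2_nonneg (F.S k).a0 0 t
  rcases le_total 0 s with hs | hs
  · have h := (F.S k).A_shift 0 t hs
    rw [zero_add] at h
    refine h.trans ?_
    rw [abs_of_nonneg hs]
    gcongr
    nlinarith [F.κ1 k]
  · have h := (F.S k).A_mono t hs
    simp only at h
    refine h.trans ?_
    have : 1 ≤ Real.exp (14 * |s|) := Real.one_le_exp (by positivity)
    nlinarith

theorem B_bd1 (k : ℕ) (s t : ℝ) :
    A2 (F.S k).b s t ≤ Real.exp (2 * F.κ k * |s|) * A2 (F.S k).b 0 t := by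
  have h0 := A2_nonneg (F.S k).b0 0 t
  rcases le_total 0 s with hs | hs
  · have h := (F.S k).B_shift 0 t hs
    rw [zero_add] at h
    rw [abs_of_nonneg hs]
    exact h
  · have h := (F.S k).B_mono t hs
    simp only at h
    refine h.trans ?_
    have := F.κ0 k
    have : 1 ≤ Real.exp (2 * F.κ k * |s|) := Real.one_le_exp (by positivity)
    nlinarith

theorem A_bd (k : ℕ) (s t : ℝ) :
    A2 (F.S k).a s t ≤ Real.exp (14 * |s|) * Real.exp (2 * F.κ k * |t|) := by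
  refine (F.A_bd1 k s t).trans ?_
  gcongr
  have h := F.swap.B_bd1 k t 0
  rw [F.swap_b, F.swap_b] at h
  refine h.trans ?_
  have h1 := F.na k
  have h2 := Real.exp_pos (2 * F.κ k * |t|)
  change Real.exp (2 * F.κ k * |t|) * A2 (F.S k).a 0 0 ≤ _
  nlinarith

theorem B_bd (k : ℕ) (s t : ℝ) :
    A2 (F.S k).b s t ≤ Real.exp (2 * F.κ k * |s|) * Real.exp (14 * |t|) := by
  have h := F.swap.A_bd k t s
  rw [F.swap_a] at h
  rw [mul_comm]
  exact h

theorem A_bd' (k : ℕ) (s t : ℝ) :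
    A2 (F.S k).a s t ≤ Real.exp (14 * |s| + 14 * |t|) := by
  refine (F.A_bd k s t).trans ?_
  rw [← Real.exp_add]
  gcongr
  have := F.κ1 k
  linarith

theorem B_bd' (k : ℕ) (s t : ℝ) :
    A2 (F.S k).b s t ≤ Real.exp (14 * |s| + 14 * |t|) := by
  refine (F.B_bd k s t).trans ?_
  rw [← Real.exp_add]
  gcongr
  have := F.κ1 k
  linarith

/-- AM-GM for the off-diagonal entry -/
theorem e_le (k : ℕ) {τ : ℝ} (hτ : 0 < τ) (z w : ℂ) :
    ‖(F.S k).e z w‖ ≤ τ / 2 * (F.S k).a z w + 1 / (2 * τ) * (F.S k).b z w := by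
  have h := (F.S k).cs z w
  have ha := (F.S k).a0 z w
  have hb := (F.S k).b0 z w
  have h1 : ((F.S k).a z w * (F.S k).b z w) ≤
      (τ / 2 * (F.S k).a z w + 1 / (2 * τ) * (F.S k).b z w) ^ 2 := by
    have : (τ / 2 * (F.S k).a z w + 1 / (2 * τ) * (F.S k).b z w) ^ 2 -
      (F.S k).a z w * (F.S k).b z w = (τ / 2 * (F.S k).a z w - 1 / (2 * τ) * (F.S k).b z w) ^ 2 := by
      field_simp; ring
    nlinarith [sq_nonneg (τ / 2 * (F.S k).a z w - 1 / (2 * τ) * (F.S k).b z w)]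
  exact abs_le_of_sq_le_sq' (h.trans h1) (by positivity) |>.2

theorem M2e_le (k : ℕ) {τ : ℝ} (hτ : 0 < τ) (m n : ℤ) (s t : ℝ) :
    ‖M2 (F.S k).e m n s t‖ ≤ τ / 2 * A2 (F.S k).a s t + 1 / (2 * τ) * A2 (F.S k).b s t := by
  refine (norm_M2_le (F.S k).se.jc m n s t).trans ?_
  have ja : JC (fun z w => τ / 2 * (F.S k).a z w) := continuous_const.mul (F.S k).sa.jc
  have jb : JC (fun z w => 1 / (2 * τ) * (F.S k).b z w) := continuous_const.mul (F.S k).sb.jc
  have h := A2_mono (f := fun z w => ‖(F.S k).e z w‖)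
    (g := fun z w => τ / 2 * (F.S k).a z w + 1 / (2 * τ) * (F.S k).b z w)
    ((F.S k).se.jc.norm) (ja.add jb) (fun z w => F.e_le k hτ z w) s t
  rw [A2_add ja jb, A2_smul, A2_smul] at h
  exact h

/-- limits of the modes -/
noncomputable def h (m n : ℤ) (s t : ℝ) : ℂ := Lm fun k => M2 (F.S k).e m n s t
noncomputable def α (m n : ℤ) (s t : ℝ) : ℂ := Lm fun k => M2 (fun z w => ((F.S k).a z w : ℂ)) m n s t
noncomputable def β (m n : ℤ) (s t : ℝ) : ℂ := Lm fun k => M2 (fun z w => ((F.S k).b z w : ℂ)) m n s t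

theorem h_tendsto (m n : ℤ) (s t : ℝ) :
    Tendsto (fun k => M2 (F.S k).e m n s t) UU (𝓝 (F.h m n s t)) := by
  refine Lm_tendsto (C := Real.exp (14 * |s| + 14 * |t|)) fun k => ?_
  have := F.M2e_le k one_pos m n s t
  have h1 := F.A_bd' k s t
  have h2 := F.B_bd' k s t
  linarith

theorem M2a_le (k : ℕ) (m n : ℤ) (s t : ℝ) :
    ‖M2 (fun z w => ((F.S k).a z w : ℂ)) m n s t‖ ≤ A2 (F.S k).a s t := by
  refine (norm_M2_le (Complex.continuous_ofReal.comp (F.S k).sa.jc) m n s t).trans ?_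
  refine A2_mono (Complex.continuous_ofReal.comp (F.S k).sa.jc).norm (F.S k).sa.jc
    (fun z w => ?_) s t
  rw [Complex.norm_real, Real.norm_eq_abs, abs_of_nonneg ((F.S k).a0 z w)]

theorem M2b_le (k : ℕ) (m n : ℤ) (s t : ℝ) :
    ‖M2 (fun z w => ((F.S k).b z w : ℂ)) m n s t‖ ≤ A2 (F.S k).b s t := by
  refine (norm_M2_le (Complex.continuous_ofReal.comp (F.S k).sb.jc) m n s t).trans ?_
  refine A2_mono (Complex.continuous_ofReal.comp (F.S k).sb.jc).norm (F.S k).sb.jc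
    (fun z w => ?_) s t
  rw [Complex.norm_real, Real.norm_eq_abs, abs_of_nonneg ((F.S k).b0 z w)]

theorem α_tendsto (m n : ℤ) (s t : ℝ) :
    Tendsto (fun k => M2 (fun z w => ((F.S k).a z w : ℂ)) m n s t) UU (𝓝 (F.α m n s t)) :=
  Lm_tendsto (C := Real.exp (14 * |s| + 14 * |t|)) fun k =>
    (F.M2a_le k m n s t).trans (F.A_bd' k s t)

theorem β_tendsto (m n : ℤ) (s t : ℝ) :
    Tendsto (fun k => M2 (fun z w => ((F.S k).b z w : ℂ)) m n s t) UU (𝓝 (F.β m n s t)) :=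
  Lm_tendsto (C := Real.exp (14 * |s| + 14 * |t|)) fun k =>
    (F.M2b_le k m n s t).trans (F.B_bd' k s t)

theorem swap_α (m n : ℤ) (s t : ℝ) : F.swap.α n m t s = F.β m n s t := by
  unfold α β
  congr 1
  funext k
  exact M2_swap (f := fun z w => ((F.S k).b z w : ℂ))
    (Complex.continuous_ofReal.comp (F.S k).sb.jc) m n s t

theorem swap_β (m n : ℤ) (s t : ℝ) : F.swap.β n m t s = F.α m n s t := by
  unfold α β
  congr 1
  funext k
  exact M2_swap (f := fun z w => ((F.S k).a z w : ℂ))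
    (Complex.continuous_ofReal.comp (F.S k).sa.jc) m n s t

theorem swap_h (m n : ℤ) (s t : ℝ) : F.swap.h n m t s = conj (F.h (-m) (-n) s t) := by
  have h1 : ∀ k, M2 (F.swap.S k).e n m t s = conj (M2 (F.S k).e (-m) (-n) s t) := by
    intro k
    have e1 : M2 (F.swap.S k).e n m t s = M2 (fun z w => conj ((F.S k).e z w)) m n s t :=
      M2_swap (f := fun z w => conj ((F.S k).e z w))
        (Complex.continuous_conj.comp (F.S k).se.jc) m n s t
    rw [e1, M2_conj]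
  refine Lm_unique ?_
  simp only [h1]
  exact (Complex.continuous_conj.tendsto _).comp (F.h_tendsto (-m) (-n) s t)

/-- estimate of the three-point expression for one `k` -/
theorem tp_e (k : ℕ) (c : ℤ) {τ : ℝ} (hτ : 0 < τ) (m n : ℤ) (s t : ℝ) {δ : ℝ} (hδ : 0 ≤ δ) :
    ‖Real.exp (-(c * (s + δ))) * M2 (F.S k).e m n (s + δ) t +
      Real.exp (-(c * (s - δ))) * M2 (F.S k).e m n (s - δ) t -
      2 * Real.cosh (((m - c : ℤ) : ℝ) * δ) * (Real.exp (-(c * s)) * M2 (F.S k).e m n s t)‖ ≤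
    Real.cosh (((m - c : ℤ) : ℝ) * δ) *
      (τ / 2 * (Real.exp (-(2 * c * (s + 2 * δ))) * Real.exp (14 * |s + 2 * δ| + 14 * |t|) +
        Real.exp (-(2 * c * (s - 2 * δ))) * Real.exp (14 * |s - 2 * δ| + 14 * |t|)) +
       1 / (2 * τ) * ((Real.exp (4 * F.κ k * δ) - 1) * Real.exp (14 * |s| + 14 * |t|))) := by
  set S := F.S k
  have jA : J2 (fun z w => Real.exp (-(2 * (c : ℝ) * z.re)) * S.a z w) := J2.weight S.sa c
  have jA' : J2 (fun z w => τ / 2 * (Real.exp (-(2 * (c : ℝ) * z.re)) * S.a z w)) :=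
    contDiff_const.mul jA
  have jB' : J2 (fun z w => 1 / (2 * τ) * S.b z w) := contDiff_const.mul S.sb
  have jE : J2 (fun z w => cexp (-(((c : ℝ) : ℂ) * z)) * S.e z w) := by
    have h1 : ContDiff ℝ 2 (fun p : ℂ × ℂ => cexp (-(((c : ℝ) : ℂ) * p.1))) :=
      (Complex.contDiff_exp (𝕜 := ℝ)).comp ((contDiff_const.mul contDiff_fst).neg)
    exact h1.mul S.se
  have key := M2_tp_le (a := fun z w => τ / 2 * (Real.exp (-(2 * (c : ℝ) * z.re)) * S.a z w) +
      1 / (2 * τ) * S.b z w) (η := fun z w => cexp (-(((c : ℝ) : ℂ) * z)) * S.e z w)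
    (jA'.add jB') jE (fun z w => by simp [S.pa1, S.pb1])
    (fun z w => by
      rw [S.pe1]
      congr 1
      have : -(((c : ℝ) : ℂ) * (z + 2 * Real.pi * I)) =
          -(((c : ℝ) : ℂ) * z) + ((-c : ℤ) : ℂ) * (2 * Real.pi * I) := by push_cast; ring
      rw [this, Complex.exp_add, Complex.exp_int_mul_two_pi_mul_I, mul_one])
    (fun z w => S.lapE c hτ z w) (m - c) n s t hδ
  rw [M2_twist, M2_twist, M2_twist] at key
  have hsplit : ∀ s', A2 (fun z w => τ / 2 * (Real.exp (-(2 * (c : ℝ) * z.re)) * S.a z w) +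
      1 / (2 * τ) * S.b z w) s' t =
      τ / 2 * (Real.exp (-(2 * c * s')) * A2 S.a s' t) + 1 / (2 * τ) * A2 S.b s' t := by
    intro s'
    rw [A2_add jA'.jc jB'.jc, A2_smul, A2_smul, A2_weight]
  rw [hsplit, hsplit, hsplit] at key
  refine key.trans ?_
  refine mul_le_mul_of_nonneg_left ?_ (Real.cosh_pos _).le
  have a1 := F.A_bd' k (s + 2 * δ) t
  have a2 := F.A_bd' k (s - 2 * δ) t
  have a3 := A2_nonneg S.a0 s t
  have b1 := S.B_shift s t (δ := 2 * δ) (by linarith)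
  have b2 : A2 S.b (s - 2 * δ) t ≤ A2 S.b s t := S.B_mono t (show s - 2 * δ ≤ s by linarith)
  have b3 := F.B_bd' k s t
  have b4 := A2_nonneg S.b0 s t
  have hκ := F.κ0 k
  have e1 : Real.exp (2 * F.κ k * (2 * δ)) = Real.exp (4 * F.κ k * δ) := by congr 1; ring
  rw [e1] at b1
  have e2 : 0 ≤ Real.exp (4 * F.κ k * δ) - 1 := by
    have := Real.one_le_exp (x := 4 * F.κ k * δ) (by positivity)
    linarith
  have hτ' : 0 < 1 / (2 * τ) := by positivity
  have m1 : Real.exp (-(2 * c * (s + 2 * δ))) * A2 S.a (s + 2 * δ) t ≤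
      Real.exp (-(2 * c * (s + 2 * δ))) * Real.exp (14 * |s + 2 * δ| + 14 * |t|) := by gcongr
  have m2 : Real.exp (-(2 * c * (s - 2 * δ))) * A2 S.a (s - 2 * δ) t ≤
      Real.exp (-(2 * c * (s - 2 * δ))) * Real.exp (14 * |s - 2 * δ| + 14 * |t|) := by gcongr
  have m3 : 0 ≤ Real.exp (-(2 * c * s)) * A2 S.a s t := by positivity
  have m4 : A2 S.b (s + 2 * δ) t + A2 S.b (s - 2 * δ) t - 2 * A2 S.b s t ≤
      (Real.exp (4 * F.κ k * δ) - 1) * Real.exp (14 * |s| + 14 * |t|) := by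
    nlinarith
  have m5 := mul_le_mul_of_nonneg_left m4 hτ'.le
  nlinarith [mul_le_mul_of_nonneg_left m1 (by positivity : (0:ℝ) ≤ τ / 2),
    mul_le_mul_of_nonneg_left m2 (by positivity : (0:ℝ) ≤ τ / 2),
    mul_nonneg (by positivity : (0:ℝ) ≤ τ / 2) m3]

theorem exp_κ_tendsto (δ : ℝ) : Tendsto (fun k => Real.exp (4 * F.κ k * δ) - 1) UU (𝓝 0) := by
  have h1 : Tendsto (fun k => Real.exp (4 * F.κ k * δ) - 1) atTop (𝓝 (Real.exp (4 * 0 * δ) - 1)) := by
    have := F.κl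
    exact ((Real.continuous_exp.tendsto _).comp ((this.const_mul 4).mul_const δ)).sub_const 1
  have h2 := h1.mono_left UU_le
  simpa using h2

theorem tp_lim (c : ℤ) (m n : ℤ) (s t : ℝ) {δ : ℝ} (hδ : 0 ≤ δ) :
    Real.exp (-(c * (s + δ))) * F.h m n (s + δ) t +
      Real.exp (-(c * (s - δ))) * F.h m n (s - δ) t -
      2 * Real.cosh (((m - c : ℤ) : ℝ) * δ) * (Real.exp (-(c * s)) * F.h m n s t) = 0 := by
  set T := (Real.exp (-(c * (s + δ))) * F.h m n (s + δ) t +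
      Real.exp (-(c * (s - δ))) * F.h m n (s - δ) t -
      2 * Real.cosh (((m - c : ℤ) : ℝ) * δ) * (Real.exp (-(c * s)) * F.h m n s t)) with hT
  set R := (Real.exp (-(2 * c * (s + 2 * δ))) * Real.exp (14 * |s + 2 * δ| + 14 * |t|) +
        Real.exp (-(2 * c * (s - 2 * δ))) * Real.exp (14 * |s - 2 * δ| + 14 * |t|)) with hR
  have hR0 : 0 ≤ R := by positivity
  have hlim : Tendsto (fun k => Real.exp (-(c * (s + δ))) * M2 (F.S k).e m n (s + δ) t +
      Real.exp (-(c * (s - δ))) * M2 (F.S k).e m n (s - δ) t -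
      2 * Real.cosh (((m - c : ℤ) : ℝ) * δ) * (Real.exp (-(c * s)) * M2 (F.S k).e m n s t)) UU
      (𝓝 T) := by
    exact (((F.h_tendsto m n (s + δ) t).const_mul _).add
      ((F.h_tendsto m n (s - δ) t).const_mul _)).sub
      (((F.h_tendsto m n s t).const_mul _).const_mul _)
  have hb : ∀ τ : ℝ, 0 < τ → ‖T‖ ≤ Real.cosh (((m - c : ℤ) : ℝ) * δ) * (τ / 2 * R) := by
    intro τ hτ
    have h1 : Tendsto (fun k => Real.cosh (((m - c : ℤ) : ℝ) * δ) *
      (τ / 2 * R + 1 / (2 * τ) * ((Real.exp (4 * F.κ k * δ) - 1) * Real.exp (14 * |s| + 14 * |t|)))) UU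
      (𝓝 (Real.cosh (((m - c : ℤ) : ℝ) * δ) *
      (τ / 2 * R + 1 / (2 * τ) * (0 * Real.exp (14 * |s| + 14 * |t|))))) :=
      ((((F.exp_κ_tendsto δ).mul_const _).const_mul _).const_add _).const_mul _
    have h2 := le_of_tendsto_of_tendsto' hlim.norm h1 (fun k => F.tp_e k c hτ m n s t hδ)
    simpa using h2
  have : ‖T‖ ≤ 0 := by
    have h1 : Tendsto (fun τ : ℝ => Real.cosh (((m - c : ℤ) : ℝ) * δ) * (τ / 2 * R)) (𝓝[>] 0)
        (𝓝 (Real.cosh (((m - c : ℤ) : ℝ) * δ) * (0 / 2 * R))) := by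
      refine Tendsto.mono_left ?_ nhdsWithin_le_nhds
      exact Continuous.tendsto (by fun_prop) 0
    have h2 := ge_of_tendsto h1 (by
      filter_upwards [self_mem_nhdsWithin] with τ hτ
      exact hb τ hτ)
    simpa using h2
  exact norm_le_zero_iff.1 this

/-- **shift law** in the first variable -/
theorem h_shift (m n : ℤ) (s t : ℝ) {δ : ℝ} (hδ : 0 ≤ δ) :
    F.h m n (s + δ) t = Real.exp (m * δ) * F.h m n s t := by
  rcases eq_or_lt_of_le hδ with h0 | hpos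
  · subst h0; simp
  have e0 := F.tp_lim 0 m n s t hδ
  have e6 := F.tp_lim 6 m n s t hδ
  have x0 : (Real.exp (-(((0 : ℤ) : ℝ) * (s + δ))) : ℂ) = 1 := by simp
  have x1 : (Real.exp (-(((0 : ℤ) : ℝ) * (s - δ))) : ℂ) = 1 := by simp
  have x2 : (Real.exp (-(((0 : ℤ) : ℝ) * s)) : ℂ) = 1 := by simp
  rw [x0, x1, x2] at e0
  -- variables
  set p := F.h m n (s + δ) t
  set q := F.h m n (s - δ) t
  set u := F.h m n s t
  have c0 : (2 : ℂ) * (Real.cosh (((m - 0 : ℤ) : ℝ) * δ) : ℂ) =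
      (Real.exp (m * δ) : ℂ) + (Real.exp (-(m * δ)) : ℂ) := by
    rw [Real.cosh_eq]
    push_cast
    rw [show ((m : ℂ) - 0) = m by ring]
    ring
  have c6 : (2 : ℂ) * (Real.cosh (((m - 6 : ℤ) : ℝ) * δ) : ℂ) =
      (Real.exp (m * δ) : ℂ) * (Real.exp (-(6 * δ)) : ℂ) +
        (Real.exp (-(m * δ)) : ℂ) * (Real.exp (6 * δ) : ℂ) := by
    rw [Real.cosh_eq, ← Complex.ofReal_mul, ← Complex.ofReal_mul, ← Real.exp_add, ← Real.exp_add]
    push_cast
    rw [show (((m : ℂ) - 6) * δ) = m * δ + -(6 * δ) by ring]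
    rw [show (-((m : ℂ) * δ + -(6 * δ))) = -(m * δ) + 6 * δ by ring]
    ring
  have y1 : (Real.exp (-(((6 : ℤ) : ℝ) * (s + δ))) : ℂ) =
      (Real.exp (-(6 * s)) : ℂ) * (Real.exp (-(6 * δ)) : ℂ) := by
    rw [← Complex.ofReal_mul, ← Real.exp_add]; congr 2; push_cast; ring
  have y2 : (Real.exp (-(((6 : ℤ) : ℝ) * (s - δ))) : ℂ) =
      (Real.exp (-(6 * s)) : ℂ) * (Real.exp (6 * δ) : ℂ) := by
    rw [← Complex.ofReal_mul, ← Real.exp_add]; congr 2; push_cast; ring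
  have y3 : (Real.exp (-(((6 : ℤ) : ℝ) * s)) : ℂ) = (Real.exp (-(6 * s)) : ℂ) := by
    push_cast; rfl
  rw [y1, y2, y3, c6] at e6
  rw [c0] at e0
  have hs6 : (Real.exp (-(6 * s)) : ℂ) ≠ 0 := by exact_mod_cast (Real.exp_pos _).ne'
  have E6 : (Real.exp (-(6 * δ)) : ℂ) * p + (Real.exp (6 * δ) : ℂ) * q -
      ((Real.exp (m * δ) : ℂ) * (Real.exp (-(6 * δ)) : ℂ) +
        (Real.exp (-(m * δ)) : ℂ) * (Real.exp (6 * δ) : ℂ)) * u = 0 := by
    apply mul_left_cancel₀ hs6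
    rw [mul_zero]
    linear_combination e6
  have hne : (Real.exp (6 * δ) : ℂ) - (Real.exp (-(6 * δ)) : ℂ) ≠ 0 := by
    rw [← Complex.ofReal_sub]
    have : Real.exp (-(6 * δ)) < Real.exp (6 * δ) := Real.exp_lt_exp.2 (by linarith)
    exact_mod_cast (sub_pos.2 this).ne'
  have : ((Real.exp (6 * δ) : ℂ) - (Real.exp (-(6 * δ)) : ℂ)) * p =
      ((Real.exp (6 * δ) : ℂ) - (Real.exp (-(6 * δ)) : ℂ)) * ((Real.exp (m * δ) : ℂ) * u) := by
    linear_combination (Real.exp (6 * δ) : ℂ) * e0 - E6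
  exact mul_left_cancel₀ hne this

end Fam

end Crest.Agent.Quadric.Ana
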