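import Mathlib
import Crest.Agent.Quadric.Ana7

/-!
S0396 analysis, part 8: structure of the limit modes.
-/

set_option autoImplicit false

namespace Crest.Agent.Quadric.Ana

open Complex MeasureTheory Set Filter Topology
open scoped ComplexConjugate ContDiff

namespace Fam

variable (F : Fam)

theorem tp_b (k : ℕ) (m n : ℤ) (s t : ℝ) {δ : ℝ} (hδ : 0 ≤ δ) :
    ‖M2 (fun z w => ((F.S k).b z w : ℂ)) m n (s + δ) t +
      M2 (fun z w => ((F.S k).b z w : ℂ)) m n (s - δ) t -
      2 * Real.cosh (m * δ) * M2 (fun z w => ((F.S k).b z w : ℂ)) m n s t‖ ≤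
    Real.cosh (m * δ) *
      ((Real.exp (4 * F.κ k * δ) - 1) * Real.exp (14 * |s| + 14 * |t|)) := by
  set S := F.S k
  have jE : J2 (fun z w => ((S.b z w : ℝ) : ℂ)) := Complex.ofRealCLM.contDiff.comp S.sb
  have key := M2_tp_le (a := S.b) (η := fun z w => ((S.b z w : ℝ) : ℂ))
    S.sb jE (fun z w => S.pb1 z w)
    (fun z w => by rw [S.pb1])
    (fun z w => by
      rw [lap_ofReal (S.sb.slice w), Complex.norm_real, Real.norm_eq_abs,
        abs_of_nonneg (S.lapB0 z w)]) m n s t hδ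
  refine key.trans ?_
  refine mul_le_mul_of_nonneg_left ?_ (Real.cosh_pos _).le
  have b1 := S.B_shift s t (δ := 2 * δ) (by linarith)
  have b2 : A2 S.b (s - 2 * δ) t ≤ A2 S.b s t := S.B_mono t (show s - 2 * δ ≤ s by linarith)
  have b3 := F.B_bd' k s t
  have b4 := A2_nonneg S.b0 s t
  have hκ := F.κ0 k
  have e1 : Real.exp (2 * F.κ k * (2 * δ)) = Real.exp (4 * F.κ k * δ) := by congr 1; ring
  rw [e1] at b1
  have e2 : 0 ≤ Real.exp (4 * F.κ k * δ) - 1 := by
    have := Real.one_le_exp (x := 4 * F.κ k * δ) (by positivity)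
    linarith
  nlinarith

theorem β_tp (m n : ℤ) (s t : ℝ) {δ : ℝ} (hδ : 0 ≤ δ) :
    F.β m n (s + δ) t + F.β m n (s - δ) t = 2 * Real.cosh (m * δ) * F.β m n s t := by
  have hlim := ((F.β_tendsto m n (s + δ) t).add (F.β_tendsto m n (s - δ) t)).sub
      ((F.β_tendsto m n s t).const_mul (2 * (Real.cosh (m * δ) : ℂ)))
  have h1 : Tendsto (fun k => Real.cosh (m * δ) *
      ((Real.exp (4 * F.κ k * δ) - 1) * Real.exp (14 * |s| + 14 * |t|))) UU
      (𝓝 (Real.cosh (m * δ) * (0 * Real.exp (14 * |s| + 14 * |t|)))) :=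
      ((F.exp_κ_tendsto δ).mul_const _).const_mul _
  have h2 := le_of_tendsto_of_tendsto' hlim.norm h1 (fun k => F.tp_b k m n s t hδ)
  rw [zero_mul, mul_zero] at h2
  have h3 := norm_le_zero_iff.1 h2
  exact sub_eq_zero.1 h3

theorem β_bd (m n : ℤ) (s t : ℝ) : ‖F.β m n s t‖ ≤ Real.exp (14 * |t|) := by
  have h1 : Tendsto (fun k => Real.exp (2 * F.κ k * |s|) * Real.exp (14 * |t|)) UU
      (𝓝 (Real.exp (2 * 0 * |s|) * Real.exp (14 * |t|))) := by
    have := F.κl.mono_left UU_le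
    exact ((Real.continuous_exp.tendsto _).comp ((this.const_mul 2).mul_const |s|)).mul_const _
  have h2 := le_of_tendsto_of_tendsto' (F.β_tendsto m n s t).norm h1
    (fun k => (F.M2b_le k m n s t).trans (F.B_bd k s t))
  simpa using h2

theorem β_zero (m n : ℤ) (hm : m ≠ 0) (s t : ℝ) : F.β m n s t = 0 := by
  have hb : ∀ δ : ℝ, 0 ≤ δ → Real.cosh (m * δ) * ‖F.β m n s t‖ ≤ Real.exp (14 * |t|) := by
    intro δ hδ
    have h := F.β_tp m n s t hδ
    have h1 : ‖F.β m n (s + δ) t + F.β m n (s - δ) t‖ ≤ 2 * Real.exp (14 * |t|) := by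
      have := norm_add_le (F.β m n (s + δ) t) (F.β m n (s - δ) t)
      have := F.β_bd m n (s + δ) t
      have := F.β_bd m n (s - δ) t
      linarith
    rw [h, norm_mul, norm_mul, Complex.norm_real, Real.norm_eq_abs,
      abs_of_pos (Real.cosh_pos _)] at h1
    have : ‖(2 : ℂ)‖ = 2 := by norm_num
    rw [this] at h1
    linarith
  have hm1 : (1 : ℝ) ≤ |(m : ℝ)| := by
    have : (1 : ℤ) ≤ |m| := Int.one_le_abs hm
    exact_mod_cast this
  by_contra hne
  have hpos : 0 < ‖F.β m n s t‖ := norm_pos_iff.2 hne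
  obtain ⟨N, hN⟩ := exists_nat_gt (Real.exp (14 * |t|) / ‖F.β m n s t‖)
  rw [div_lt_iff₀ hpos] at hN
  have h1 := hb (2 * N) (by positivity)
  have h2 : (N : ℝ) ≤ Real.cosh (m * (2 * N)) := by
    rw [← Real.cosh_abs]
    have h3 : |(m : ℝ) * (2 * N)| = |(m : ℝ)| * (2 * N) := by
      rw [abs_mul, abs_of_nonneg (by positivity : (0:ℝ) ≤ 2 * N)]
    rw [h3, Real.cosh_eq]
    have h4 : |(m : ℝ)| * (2 * N) + 1 ≤ Real.exp (|(m : ℝ)| * (2 * N)) := Real.add_one_le_exp _
    have h5 := Real.exp_pos (-(|(m : ℝ)| * (2 * N)))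
    have h6 : (2 : ℝ) * N ≤ |(m : ℝ)| * (2 * N) := by
      have : (0 : ℝ) ≤ 2 * N := by positivity
      nlinarith
    linarith
  nlinarith

theorem β_const (n : ℤ) (s t : ℝ) : F.β 0 n s t = F.β 0 n 0 t := by
  -- arithmetic progressions bounded
  have key : ∀ (s δ : ℝ), 0 ≤ δ → F.β 0 n (s + δ) t = F.β 0 n s t := by
    intro s δ hδ
    have hstep : ∀ j : ℕ, F.β 0 n (s + (j + 1 : ℕ) * δ) t - F.β 0 n (s + j * δ) t =
        F.β 0 n (s + δ) t - F.β 0 n s t := by
      intro j
      induction j with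
      | zero => simp
      | succ j ih =>
        have h := F.β_tp 0 n (s + (j + 1 : ℕ) * δ) t hδ
        have e1 : s + ((j + 1 : ℕ) : ℝ) * δ + δ = s + ((j + 1 + 1 : ℕ) : ℝ) * δ := by push_cast; ring
        have e2 : s + ((j + 1 : ℕ) : ℝ) * δ - δ = s + (j : ℝ) * δ := by push_cast; ring
        rw [e1, e2] at h
        simp only [Int.cast_zero, zero_mul, Real.cosh_zero, Complex.ofReal_one, mul_one] at h
        linear_combination h + ih
    have hsum : ∀ j : ℕ, F.β 0 n (s + j * δ) t = F.β 0 n s t +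
        j * (F.β 0 n (s + δ) t - F.β 0 n s t) := by
      intro j
      induction j with
      | zero => simp
      | succ j ih =>
        have := hstep j
        rw [ih] at this
        push_cast at this ⊢
        linear_combination this
    by_contra hne
    have hpos : 0 < ‖F.β 0 n (s + δ) t - F.β 0 n s t‖ := norm_pos_iff.2 (sub_ne_zero.2 hne)
    obtain ⟨N, hN⟩ := exists_nat_gt ((2 * Real.exp (14 * |t|)) / ‖F.β 0 n (s + δ) t - F.β 0 n s t‖)
    rw [div_lt_iff₀ hpos] at hN
    have h1 : (N : ℂ) * (F.β 0 n (s + δ) t - F.β 0 n s t) = F.β 0 n (s + N * δ) t - F.β 0 n s t := by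
      rw [hsum N]; ring
    have h2 : ‖F.β 0 n (s + N * δ) t - F.β 0 n s t‖ ≤ 2 * Real.exp (14 * |t|) := by
      have := norm_sub_le (F.β 0 n (s + N * δ) t) (F.β 0 n s t)
      have := F.β_bd 0 n (s + N * δ) t
      have := F.β_bd 0 n s t
      linarith
    rw [← h1, norm_mul, Complex.norm_natCast] at h2
    linarith
  rcases le_total 0 s with hs | hs
  · have := key 0 s hs
    rwa [zero_add] at this
  · have := key s (-s) (by linarith)
    rw [show s + -s = 0 by ring] at this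
    exact this.symm

theorem α_zero (m n : ℤ) (hn : n ≠ 0) (s t : ℝ) : F.α m n s t = 0 := by
  rw [← F.swap_β]; exact F.swap.β_zero n m hn t s

theorem α_const (m : ℤ) (s t : ℝ) : F.α m 0 s t = F.α m 0 s 0 := by
  rw [← F.swap_β, ← F.swap_β]; exact F.swap.β_const m t s

theorem h_shift2 (m n : ℤ) (s t : ℝ) {δ : ℝ} (hδ : 0 ≤ δ) :
    F.h m n s (t + δ) = Real.exp (-(n * δ)) * F.h m n s t := by
  have h := F.swap.h_shift (-n) (-m) t s hδ
  rw [F.swap_h (-m) (-n), F.swap_h (-m) (-n)] at h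
  have h2 := congrArg (starRingEnd ℂ) h
  rw [map_mul, Complex.conj_conj, Complex.conj_conj, Complex.conj_ofReal] at h2
  rw [neg_neg, neg_neg] at h2
  rw [h2]
  congr 3
  push_cast
  ring

theorem h_bd (m n : ℤ) (s t : ℝ) : ‖F.h m n s t‖ ≤ Real.exp (14 * |s| + 14 * |t|) := by
  refine le_of_tendsto (F.h_tendsto m n s t).norm (Filter.Eventually.of_forall fun k => ?_)
  have := F.M2e_le k one_pos m n s t
  have h1 := F.A_bd' k s t
  have h2 := F.B_bd' k s t
  linarith

/-- vanishing for negative `m` -/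
theorem h_neg (m n : ℤ) (hm : m < 0) (s t : ℝ) : F.h m n s t = 0 := by
  have hb : ∀ δ : ℝ, 0 ≤ δ → ‖F.h m n (s - δ) t‖ ≤ Real.exp (14 * |s| + 14 * |t|) := by
    intro δ hδ
    refine le_of_tendsto (F.h_tendsto m n (s - δ) t).norm (Filter.Eventually.of_forall fun k => ?_)
    have h0 := F.M2e_le k one_pos m n (s - δ) t
    have h1 := F.A_bd' k s t
    have h2 := F.B_bd' k s t
    have h3 : A2 (F.S k).a (s - δ) t ≤ A2 (F.S k).a s t :=
      (F.S k).A_mono t (show s - δ ≤ s by linarith)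
    have h4 : A2 (F.S k).b (s - δ) t ≤ A2 (F.S k).b s t :=
      (F.S k).B_mono t (show s - δ ≤ s by linarith)
    linarith
  have hm1 : (m : ℝ) ≤ -1 := by exact_mod_cast Int.le_sub_one_of_lt hm
  by_contra hne
  have hpos : 0 < ‖F.h m n s t‖ := norm_pos_iff.2 hne
  obtain ⟨N, hN⟩ := exists_nat_gt (Real.exp (14 * |s| + 14 * |t|) / ‖F.h m n s t‖)
  rw [div_lt_iff₀ hpos] at hN
  have h1 := F.h_shift m n (s - N) t (δ := N) (by positivity)
  rw [sub_add_cancel] at h1
  have h2 := hb N (by positivity)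
  have h3 : ‖F.h m n s t‖ = Real.exp (m * N) * ‖F.h m n (s - N) t‖ := by
    conv_lhs => rw [h1]
    rw [norm_mul, Complex.norm_real, Real.norm_eq_abs, abs_of_pos (Real.exp_pos _)]
  have h4 : Real.exp (m * N) ≤ Real.exp (-N) := by
    apply Real.exp_le_exp.2
    have : (0 : ℝ) ≤ N := by positivity
    nlinarith
  have h5 : (N : ℝ) * Real.exp (-N) ≤ 1 := by
    rw [Real.exp_neg]
    have := Real.add_one_le_exp (N : ℝ)
    rw [← div_eq_mul_inv, div_le_one (Real.exp_pos _)]
    linarith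
  have h6 := Real.exp_pos (14 * |s| + 14 * |t|)
  have h7 : ‖F.h m n s t‖ ≤ Real.exp (-N) * Real.exp (14 * |s| + 14 * |t|) := by
    rw [h3]
    gcongr
  have h8 : (N : ℝ) * ‖F.h m n s t‖ ≤ Real.exp (14 * |s| + 14 * |t|) := by
    calc (N : ℝ) * ‖F.h m n s t‖ ≤ N * (Real.exp (-N) * Real.exp (14 * |s| + 14 * |t|)) := by gcongr
      _ = (N * Real.exp (-N)) * Real.exp (14 * |s| + 14 * |t|) := by ring
      _ ≤ 1 * Real.exp (14 * |s| + 14 * |t|) := by gcongr
      _ = _ := one_mul _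
  linarith

/-- vanishing for `m > 6` -/
theorem h_big (m n : ℤ) (hm : 6 < m) (s t : ℝ) : F.h m n s t = 0 := by
  set R := Real.exp (14 * |s| + 14 * |t|) with hR
  have hRpos : 0 < R := Real.exp_pos _
  have hb : ∀ δ : ℝ, 0 ≤ δ → ‖F.h m n (s + δ) t‖ ≤ Real.exp (6 * δ) * R := by
    intro δ hδ
    have h1 : Tendsto (fun k => Real.exp (6 * δ) * (Real.exp (2 * F.κ k * δ) * R)) UU
        (𝓝 (Real.exp (6 * δ) * (Real.exp (2 * 0 * δ) * R))) := by
      have := F.κl.mono_left UU_le
      exact ((((Real.continuous_exp.tendsto _).comp ((this.const_mul 2).mul_const δ)).mul_const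
        _)).const_mul _
    have h2 := le_of_tendsto_of_tendsto' (F.h_tendsto m n (s + δ) t).norm h1 (fun k => by
      have hτ : 0 < Real.exp (-(6 * δ)) := Real.exp_pos _
      have h0 := F.M2e_le k hτ m n (s + δ) t
      have hA := (F.S k).A_shift s t hδ
      have hB := (F.S k).B_shift s t hδ
      have a1 := F.A_bd' k s t
      have b1 := F.B_bd' k s t
      have e1 : Real.exp (-(6 * δ)) * Real.exp (2 * (6 + F.κ k) * δ) =
          Real.exp (6 * δ) * Real.exp (2 * F.κ k * δ) := by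
        rw [← Real.exp_add, ← Real.exp_add]; congr 1; ring
      have e2 : 1 / (2 * Real.exp (-(6 * δ))) = Real.exp (6 * δ) / 2 := by
        rw [Real.exp_neg]; field_simp
      rw [e2] at h0
      have hA' : Real.exp (-(6 * δ)) / 2 * A2 (F.S k).a (s + δ) t ≤
          (Real.exp (6 * δ) * Real.exp (2 * F.κ k * δ)) / 2 * R := by
        calc Real.exp (-(6 * δ)) / 2 * A2 (F.S k).a (s + δ) t
            ≤ Real.exp (-(6 * δ)) / 2 * (Real.exp (2 * (6 + F.κ k) * δ) * A2 (F.S k).a s t) := by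
              gcongr
          _ = (Real.exp (-(6 * δ)) * Real.exp (2 * (6 + F.κ k) * δ)) / 2 * A2 (F.S k).a s t := by
              ring
          _ ≤ _ := by rw [e1]; gcongr
      have hB' : Real.exp (6 * δ) / 2 * A2 (F.S k).b (s + δ) t ≤
          (Real.exp (6 * δ) * Real.exp (2 * F.κ k * δ)) / 2 * R := by
        calc Real.exp (6 * δ) / 2 * A2 (F.S k).b (s + δ) t
            ≤ Real.exp (6 * δ) / 2 * (Real.exp (2 * F.κ k * δ) * A2 (F.S k).b s t) := by
              gcongr
          _ ≤ Real.exp (6 * δ) / 2 * (Real.exp (2 * F.κ k * δ) * R) := by gcongr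
          _ = _ := by ring
      linarith)
    simpa using h2
  have hm1 : (7 : ℝ) ≤ m := by exact_mod_cast (Int.add_one_le_of_lt hm : (6 : ℤ) + 1 ≤ m)
  by_contra hne
  have hpos : 0 < ‖F.h m n s t‖ := norm_pos_iff.2 hne
  obtain ⟨N, hN⟩ := exists_nat_gt (R / ‖F.h m n s t‖)
  rw [div_lt_iff₀ hpos] at hN
  have hN0 : (0 : ℝ) ≤ N := by positivity
  have h1 := F.h_shift m n s t hN0
  have h2 := hb N hN0
  rw [h1, norm_mul, Complex.norm_real, Real.norm_eq_abs, abs_of_pos (Real.exp_pos _)] at h2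
  have h4 : Real.exp (7 * N) ≤ Real.exp (m * N) := by
    apply Real.exp_le_exp.2
    nlinarith
  have h5 : Real.exp (7 * (N : ℝ)) = Real.exp (6 * N) * Real.exp N := by
    rw [← Real.exp_add]; congr 1; ring
  have h6 : (N : ℝ) ≤ Real.exp N := by
    have := Real.add_one_le_exp (N : ℝ)
    linarith
  have h7 := Real.exp_pos (6 * (N : ℝ))
  have h8 : Real.exp (6 * N) * (N * ‖F.h m n s t‖) ≤ Real.exp (6 * N) * R := by
    calc Real.exp (6 * N) * (N * ‖F.h m n s t‖)
        ≤ Real.exp (6 * N) * (Real.exp N * ‖F.h m n s t‖) := by gcongr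
      _ = Real.exp (7 * N) * ‖F.h m n s t‖ := by rw [h5]; ring
      _ ≤ Real.exp (m * N) * ‖F.h m n s t‖ := by gcongr
      _ ≤ _ := h2
  have h9 := le_of_mul_le_mul_left h8 h7
  linarith

theorem h_pos2 (m n : ℤ) (hn : 0 < n) (s t : ℝ) : F.h m n s t = 0 := by
  have h := F.swap.h_neg (-n) (-m) (by omega) t s
  rw [F.swap_h (-m) (-n), neg_neg, neg_neg] at h
  simpa using h

theorem h_big2 (m n : ℤ) (hn : n < -6) (s t : ℝ) : F.h m n s t = 0 := by
  have h := F.swap.h_big (-n) (-m) (by omega) t s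
  rw [F.swap_h (-m) (-n), neg_neg, neg_neg] at h
  simpa using h

/-- **structure of the limit of the off-diagonal entry** -/
theorem h_formula (m n : ℤ) (s t : ℝ) :
    F.h m n s t = Real.exp (m * s) * Real.exp (-(n * t)) * F.h m n 0 0 := by
  have e1 : F.h m n s t = Real.exp (m * s) * F.h m n 0 t := by
    rcases le_total 0 s with hs | hs
    · have := F.h_shift m n 0 t hs
      rwa [zero_add] at this
    · have := F.h_shift m n s t (δ := -s) (by linarith)
      rw [add_neg_cancel] at this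
      rw [this, ← mul_assoc, ← Complex.ofReal_mul, ← Real.exp_add]
      simp
  have e2 : F.h m n 0 t = Real.exp (-(n * t)) * F.h m n 0 0 := by
    rcases le_total 0 t with ht | ht
    · have := F.h_shift2 m n 0 0 ht
      rwa [zero_add] at this
    · have := F.h_shift2 m n 0 t (δ := -t) (by linarith)
      rw [add_neg_cancel] at this
      rw [this, ← mul_assoc, ← Complex.ofReal_mul, ← Real.exp_add]
      simp
  rw [e1, e2]
  ring

end Fam

end Crest.Agent.Quadric.Ana
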