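import Mathlib
import Crest.Agent.Quadric.Ana5

/-!
S0396 analysis, part 9: Fejér averages.
-/

set_option autoImplicit false

namespace Crest.Agent.Quadric.Ana

open Complex MeasureTheory Set Filter Topology Finset
open scoped ComplexConjugate

/-- Cesàro-type double sum -/
noncomputable def S1 (N : ℕ) (g : ℤ → ℂ) : ℂ :=
  (N : ℂ)⁻¹ * ∑ j ∈ range N, ∑ l ∈ range N, g ((l : ℤ) - j)

/-- Fejér kernel -/
noncomputable def Fk (N : ℕ) (u : ℝ) : ℝ := (N : ℝ)⁻¹ * ‖∑ j ∈ range N, cexp (j * u * I)‖ ^ 2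

theorem Fk_nonneg (N : ℕ) (u : ℝ) : 0 ≤ Fk N u := by unfold Fk; positivity

theorem Fk_cont (N : ℕ) : Continuous (Fk N) := by unfold Fk; fun_prop

theorem Fk_eq (N : ℕ) (u : ℝ) : ((Fk N u : ℝ) : ℂ) = S1 N (fun m => cexp (-(m * u * I))) := by
  unfold Fk S1
  push_cast
  rw [← Complex.mul_conj']
  congr 1
  rw [map_sum, Finset.sum_mul_sum]
  refine Finset.sum_congr rfl fun j _ => Finset.sum_congr rfl fun l _ => ?_
  rw [← Complex.exp_conj, ← Complex.exp_add]
  congr 1
  simp
  ring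

/-- `F_N(u) |1 - e^{iu}|² ≤ 4/N` -/
theorem Fk_mul_le (N : ℕ) (u : ℝ) : Fk N u * ‖1 - cexp (u * I)‖ ^ 2 ≤ 4 / N := by
  unfold Fk
  have h1 : (∑ j ∈ range N, cexp (j * u * I)) * (1 - cexp (u * I)) = 1 - cexp (u * I) ^ N := by
    have : ∀ j : ℕ, cexp (j * u * I) = cexp (u * I) ^ j := by
      intro j
      rw [← Complex.exp_nat_mul]
      congr 1
      ring
    simp_rw [this]
    exact geom_sum_mul_neg _ _
  have h2 : ‖∑ j ∈ range N, cexp (j * u * I)‖ * ‖1 - cexp (u * I)‖ ≤ 2 := by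
    rw [← norm_mul, h1]
    refine (norm_sub_le _ _).trans ?_
    rw [norm_pow, Complex.norm_exp_ofReal_mul_I]
    norm_num
  have h3 : (‖∑ j ∈ range N, cexp (j * u * I)‖ * ‖1 - cexp (u * I)‖) ^ 2 ≤ 4 := by
    have : 0 ≤ ‖∑ j ∈ range N, cexp (j * u * I)‖ * ‖1 - cexp (u * I)‖ := by positivity
    nlinarith
  rw [mul_pow] at h3
  rw [mul_assoc, div_eq_inv_mul]
  exact mul_le_mul_of_nonneg_left h3 (by positivity)

theorem M2_sum {ι : Type*} (J : Finset ι) (f : ι → ℂ → ℂ → ℂ) (hf : ∀ i ∈ J, JC (f i)) (m n : ℤ)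
    (s t : ℝ) : M2 (fun z w => ∑ i ∈ J, f i z w) m n s t = ∑ i ∈ J, M2 (f i) m n s t := by
  classical
  induction J using Finset.induction_on with
  | empty => simp [M2, mode]
  | insert a J ha ih =>
    simp only [Finset.sum_insert ha]
    rw [M2_add (hf a (Finset.mem_insert_self a J))
      (continuous_finsetSum _ fun i hi => hf i (Finset.mem_insert_of_mem hi)),
      ih fun i hi => hf i (Finset.mem_insert_of_mem hi)]

theorem M2_S1 (N : ℕ) (f : ℤ → ℂ → ℂ → ℂ) (hf : ∀ i, JC (f i)) (m n : ℤ)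
    (s t : ℝ) : M2 (fun z w => S1 N (fun i => f i z w)) m n s t = S1 N (fun i => M2 (f i) m n s t) := by
  unfold S1
  rw [M2_smul, M2_sum]
  · congr 1
    refine Finset.sum_congr rfl fun j _ => ?_
    rw [M2_sum]
    exact fun i _ => hf _
  · exact fun i _ => continuous_finsetSum _ fun i hi => hf _

theorem M2_char (f : ℂ → ℂ → ℂ) (m n : ℤ) (s t : ℝ) :
    M2 (fun z w => cexp (-(m * z.im * I)) * cexp (-(n * w.im * I)) * f z w) 0 0 s t =
      M2 f m n s t := by
  unfold M2 mode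
  congr 1
  funext φ
  rw [← intervalIntegral.integral_mul_const, ← intervalIntegral.integral_mul_const]
  congr 1
  funext θ
  simp
  ring

theorem S1_mul_right (N : ℕ) (g : ℤ → ℂ) (c : ℂ) : S1 N (fun m => g m * c) = S1 N g * c := by
  unfold S1
  rw [mul_assoc]
  congr 1
  rw [Finset.sum_mul]
  exact Finset.sum_congr rfl fun j _ => (Finset.sum_mul _ _ _).symm

theorem S1_mul_left (N : ℕ) (g : ℤ → ℂ) (c : ℂ) : S1 N (fun m => c * g m) = c * S1 N g := by
  simp_rw [mul_comm c]
  exact S1_mul_right N g c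

theorem S1_jc (N : ℕ) (f : ℤ → ℂ → ℂ → ℂ) (hf : ∀ i, JC (f i)) :
    JC (fun z w => S1 N (fun i => f i z w)) := by
  unfold S1
  exact continuous_const.mul
    (continuous_finsetSum _ fun j _ => continuous_finsetSum _ fun l _ => hf _)

/-- general expansion of an average against two Fejér-like kernels -/
theorem M2_fejer (N : ℕ) (f : ℂ → ℂ → ℂ) (hf : JC f) (θ₀ φ₀ s t : ℝ) :
    M2 (fun z w => ((Fk N (z.im - θ₀) : ℝ) : ℂ) * ((Fk N (w.im - φ₀) : ℝ) : ℂ) * f z w) 0 0 s t =
      S1 N (fun m => S1 N (fun n => cexp (m * θ₀ * I) * cexp (n * φ₀ * I) * M2 f m n s t)) := by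
  have e1 : (fun z w : ℂ => ((Fk N (z.im - θ₀) : ℝ) : ℂ) * ((Fk N (w.im - φ₀) : ℝ) : ℂ) * f z w) =
      fun z w => S1 N (fun m => S1 N (fun n => (cexp (m * θ₀ * I) * cexp (n * φ₀ * I)) *
        (cexp (-(m * z.im * I)) * cexp (-(n * w.im * I)) * f z w))) := by
    funext z w
    rw [Fk_eq, Fk_eq, mul_assoc, ← S1_mul_right, ← S1_mul_right]
    congr 1
    funext m
    rw [← S1_mul_left]
    congr 1
    funext n
    have x1 : cexp (-(m * ((z.im - θ₀ : ℝ) : ℂ) * I)) = cexp (m * θ₀ * I) * cexp (-(m * z.im * I)) := by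
      rw [← Complex.exp_add]; congr 1; push_cast; ring
    have x2 : cexp (-(n * ((w.im - φ₀ : ℝ) : ℂ) * I)) = cexp (n * φ₀ * I) * cexp (-(n * w.im * I)) := by
      rw [← Complex.exp_add]; congr 1; push_cast; ring
    rw [x1, x2]
    ring
  have hcont : ∀ m n : ℤ, JC (fun z w => (cexp (m * θ₀ * I) * cexp (n * φ₀ * I)) *
      (cexp (-(m * z.im * I)) * cexp (-(n * w.im * I)) * f z w)) := by
    intro m n
    have h0 : Continuous fun p : ℂ × ℂ => f p.1 p.2 := hf
    have h1 : Continuous fun p : ℂ × ℂ => cexp (-(m * p.1.im * I)) * cexp (-(n * p.2.im * I)) := by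
      have i1 : Continuous fun p : ℂ × ℂ => p.1.im := Complex.continuous_im.comp continuous_fst
      have i2 : Continuous fun p : ℂ × ℂ => p.2.im := Complex.continuous_im.comp continuous_snd
      fun_prop
    exact continuous_const.mul (h1.mul h0)
  rw [e1, M2_S1 N _ (fun m => S1_jc N _ (hcont m))]
  congr 1
  funext m
  rw [M2_S1 N _ (hcont m)]
  congr 1
  funext n
  rw [M2_smul, M2_char]

/-- expansion of an average against a Fejér kernel in the difference `θ - φ` -/
theorem M2_fejer_diff (N : ℕ) (f : ℂ → ℂ → ℂ) (hf : JC f) (s t : ℝ) :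
    M2 (fun z w => ((Fk N (z.im - w.im) : ℝ) : ℂ) * f z w) 0 0 s t =
      S1 N (fun m => M2 f m (-m) s t) := by
  have e1 : (fun z w : ℂ => ((Fk N (z.im - w.im) : ℝ) : ℂ) * f z w) =
      fun z w => S1 N (fun m => (cexp (-(m * z.im * I)) * cexp (-(((-m : ℤ) : ℂ) * w.im * I)) * f z w)) := by
    funext z w
    rw [Fk_eq, ← S1_mul_right]
    congr 1
    funext m
    rw [← Complex.exp_add]
    congr 2
    push_cast
    ring
  have hcont : ∀ m : ℤ, JC (fun z w => 
      (cexp (-(m * z.im * I)) * cexp (-(((-m : ℤ) : ℂ) * w.im * I)) * f z w)) := by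
    intro m
    have h0 : Continuous fun p : ℂ × ℂ => f p.1 p.2 := hf
    have h1 : Continuous fun p : ℂ × ℂ => cexp (-(m * p.1.im * I)) * cexp (-(((-m : ℤ) : ℂ) * p.2.im * I)) := by
      have i1 : Continuous fun p : ℂ × ℂ => p.1.im := Complex.continuous_im.comp continuous_fst
      have i2 : Continuous fun p : ℂ × ℂ => p.2.im := Complex.continuous_im.comp continuous_snd
      fun_prop
    exact h1.mul h0
  rw [e1, M2_S1 N _ hcont]
  congr 1
  funext m
  rw [M2_char]

/-- Cesàro sums of a finitely supported function converge to the sum -/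
theorem S1_single (m₀ : ℤ) {N : ℕ} (hN : 1 ≤ N) :
    ‖S1 N (fun m => if m = m₀ then 1 else 0) - 1‖ ≤ |(m₀ : ℝ)| / N := by
  have hN0 : (N : ℂ) ≠ 0 := by exact_mod_cast (by omega : N ≠ 0)
  have hNr : (0 : ℝ) < N := by exact_mod_cast (by omega : 0 < N)
  have h1 : ∀ j ∈ range N, (∑ l ∈ range N, (if ((l : ℤ) - j) = m₀ then (1 : ℂ) else 0)) =
      if (0 ≤ (j : ℤ) + m₀ ∧ (j : ℤ) + m₀ < N) then 1 else 0 := by
    intro j _
    split_ifs with h
    · rw [Finset.sum_eq_single ((j : ℤ) + m₀).toNat]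
      · rw [if_pos]
        rw [Int.toNat_of_nonneg h.1]; ring
      · intro l _ hl
        rw [if_neg]
        intro h2
        apply hl
        omega
      · intro h2
        exfalso
        apply h2
        rw [Finset.mem_range]
        omega
    · refine Finset.sum_eq_zero fun l hl => ?_
      rw [if_neg]
      intro h2
      apply h
      rw [Finset.mem_range] at hl
      omega
  unfold S1
  rw [Finset.sum_congr rfl h1, Finset.sum_boole]
  set A := (range N).filter (fun j : ℕ => 0 ≤ (j : ℤ) + m₀ ∧ (j : ℤ) + m₀ < N) with hA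
  have hc1 : A.card ≤ N := by
    have := Finset.card_filter_le (range N) (fun j : ℕ => 0 ≤ (j : ℤ) + m₀ ∧ (j : ℤ) + m₀ < N)
    rwa [Finset.card_range] at this
  have hc2 : N ≤ A.card + m₀.natAbs := by
    have hsub : range N ⊆ A ∪ ((range m₀.natAbs) ∪ (Finset.Ico (N - m₀.natAbs) N)).filter
        (fun j => j ∈ (if 0 ≤ m₀ then Finset.Ico (N - m₀.natAbs) N else range m₀.natAbs)) := by
      intro j hj
      rw [Finset.mem_range] at hj
      simp only [hA, Finset.mem_union, Finset.mem_filter, Finset.mem_range, Finset.mem_Ico]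
      by_cases hj2 : 0 ≤ (j : ℤ) + m₀ ∧ (j : ℤ) + m₀ < N
      · left; exact ⟨hj, hj2⟩
      · right
        split_ifs with h0
        · simp only [Finset.mem_Ico]; omega
        · simp only [Finset.mem_range]; omega
    have h3 := Finset.card_le_card hsub
    rw [Finset.card_range] at h3
    have h4 := Finset.card_union_le A (((range m₀.natAbs) ∪ (Finset.Ico (N - m₀.natAbs) N)).filter
        (fun j => j ∈ (if 0 ≤ m₀ then Finset.Ico (N - m₀.natAbs) N else range m₀.natAbs)))
    have h5 : (((range m₀.natAbs) ∪ (Finset.Ico (N - m₀.natAbs) N)).filter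
        (fun j => j ∈ (if 0 ≤ m₀ then Finset.Ico (N - m₀.natAbs) N else range m₀.natAbs))).card ≤
        m₀.natAbs := by
      have h6 : (((range m₀.natAbs) ∪ (Finset.Ico (N - m₀.natAbs) N)).filter
        (fun j => j ∈ (if 0 ≤ m₀ then Finset.Ico (N - m₀.natAbs) N else range m₀.natAbs))) ⊆
        (if 0 ≤ m₀ then Finset.Ico (N - m₀.natAbs) N else range m₀.natAbs) := by
        intro j hj
        rw [Finset.mem_filter] at hj
        exact hj.2
      refine (Finset.card_le_card h6).trans ?_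
      split_ifs
      · rw [Nat.card_Ico]; omega
      · rw [Finset.card_range]
    omega
  have e : (N : ℂ)⁻¹ * (A.card : ℂ) - 1 = ((((A.card : ℝ) - N) / N : ℝ) : ℂ) := by
    push_cast
    field_simp
  rw [e, Complex.norm_real, Real.norm_eq_abs, abs_div, abs_of_pos hNr]
  refine div_le_div_of_nonneg_right ?_ hNr.le
  rw [abs_of_nonpos (by
    have : (A.card : ℝ) ≤ N := by exact_mod_cast hc1
    linarith)]
  have : (N : ℝ) ≤ A.card + (m₀.natAbs : ℝ) := by exact_mod_cast hc2
  rw [Nat.cast_natAbs, Int.cast_abs] at this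
  linarith

theorem S1_single_tendsto (m₀ : ℤ) :
    Tendsto (fun N => S1 N (fun m => if m = m₀ then 1 else 0)) atTop (𝓝 1) := by
  rw [tendsto_iff_norm_sub_tendsto_zero]
  have h1 : Tendsto (fun N : ℕ => |(m₀ : ℝ)| / N) atTop (𝓝 0) :=
    tendsto_const_div_atTop_nhds_zero_nat _
  refine squeeze_zero' (Filter.Eventually.of_forall fun _ => norm_nonneg _) ?_ h1
  filter_upwards [eventually_ge_atTop 1] with N hN
  exact S1_single m₀ hN

theorem S1_sum {ι : Type*} (N : ℕ) (J : Finset ι) (G : ι → ℤ → ℂ) :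
    S1 N (fun m => ∑ i ∈ J, G i m) = ∑ i ∈ J, S1 N (G i) := by
  unfold S1
  rw [← Finset.mul_sum]
  congr 1
  have h1 : ∀ j ∈ range N, (∑ l ∈ range N, ∑ i ∈ J, G i ((l : ℤ) - j)) =
      ∑ i ∈ J, ∑ l ∈ range N, G i ((l : ℤ) - j) := fun j _ => Finset.sum_comm
  rw [Finset.sum_congr rfl h1]
  exact Finset.sum_comm

/-- reduction of the Cesàro sum to the support -/
theorem S1_support (N : ℕ) (J : Finset ℤ) (g : ℤ → ℂ) (hg : ∀ m, m ∉ J → g m = 0) :
    S1 N g = ∑ m₀ ∈ J, S1 N (fun m => if m = m₀ then 1 else 0) * g m₀ := by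
  have h1 : g = fun m => ∑ m₀ ∈ J, (if m = m₀ then 1 else 0) * g m₀ := by
    funext m
    by_cases hm : m ∈ J
    · rw [Finset.sum_eq_single m]
      · simp
      · intro b _ hb; rw [if_neg hb.symm]; simp
      · intro h; exact absurd hm h
    · rw [hg m hm, Finset.sum_eq_zero]
      intro b hb
      rw [if_neg (by rintro rfl; exact hm hb)]
      simp
  conv_lhs => rw [h1]
  rw [S1_sum]
  refine Finset.sum_congr rfl fun m₀ _ => ?_
  rw [S1_mul_right]

theorem S1_tendsto (J : Finset ℤ) (g : ℤ → ℂ) (hg : ∀ m, m ∉ J → g m = 0) :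
    Tendsto (fun N => S1 N g) atTop (𝓝 (∑ m ∈ J, g m)) := by
  have h1 : (fun N => S1 N g) = fun N => ∑ m₀ ∈ J, S1 N (fun m => if m = m₀ then 1 else 0) * g m₀ := by
    funext N; exact S1_support N J g hg
  rw [h1]
  refine tendsto_finsetSum _ fun m₀ _ => ?_
  have := (S1_single_tendsto m₀).mul_const (g m₀)
  simpa using this

theorem S2_tendsto (J : Finset ℤ) (g : ℤ → ℤ → ℂ) (hg : ∀ m n, m ∉ J ∨ n ∉ J → g m n = 0) :
    Tendsto (fun N => S1 N (fun m => S1 N (fun n => g m n))) atTop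
      (𝓝 (∑ m ∈ J, ∑ n ∈ J, g m n)) := by
  have h1 : (fun N => S1 N (fun m => S1 N (fun n => g m n))) =
      fun N => ∑ m₀ ∈ J, S1 N (fun m => if m = m₀ then 1 else 0) * S1 N (g m₀) := by
    funext N
    refine S1_support N J _ fun m hm => ?_
    have : (fun n => g m n) = fun _ => 0 := by funext n; exact hg m n (Or.inl hm)
    rw [this]
    simp [S1]
  rw [h1]
  refine tendsto_finsetSum _ fun m₀ _ => ?_
  have := (S1_single_tendsto m₀).mul (S1_tendsto J (g m₀) fun n hn => hg m₀ n (Or.inr hn))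
  simpa using this

end Crest.Agent.Quadric.Ana
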