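import Mathlib
import Crest.Agent.Quadric.Ana8
import Crest.Agent.Quadric.Ana9

/-!
S0396 analysis, part 10: from `LogData` to a normalised family; pointwise bounds.
-/

set_option autoImplicit false

namespace Crest.Agent.Quadric.Ana

open Complex MeasureTheory Set Filter Topology
open scoped ComplexConjugate ContDiff

theorem lap_bridge {f : ℂ → ℝ} (hf : ContDiff ℝ 2 f) (z : ℂ) :
    Crest.Agent.Quadric.lap f z = lap f z := by
  unfold Crest.Agent.Quadric.lap lap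
  have hf1 : ContDiff ℝ 1 f := hf.of_le (by norm_num)
  have h1 : deriv (fun t : ℝ => f (z + t)) = fun t : ℝ => dx f (t + z) := by
    funext t
    have := (hasDerivAt_dx hf1 t z).deriv
    rw [← this]
    congr 1
    funext t; rw [add_comm]
  have h2 : deriv (fun t : ℝ => f (z + t * I)) = fun t : ℝ => dy f (z + t * I) := by
    funext t
    exact (hasDerivAt_dy hf1 t z).deriv
  rw [h1, h2]
  have h3 := (hasDerivAt_dx (dx1 hf) 0 z).deriv
  have h4 := (hasDerivAt_dy (dy1 hf) 0 z).deriv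
  rw [h3, h4]
  simp

theorem Nf_contDiff {a b : ℂ → ℝ} {e s1 s2 : ℂ → ℂ} (ha : ContDiff ℝ 2 a) (hb : ContDiff ℝ 2 b)
    (he : ContDiff ℝ 2 e) (h1 : ContDiff ℝ 2 s1) (h2 : ContDiff ℝ 2 s2) :
    ContDiff ℝ 2 (fun z => Nf (a z) (e z) (b z) (s1 z) (s2 z)) := by
  unfold Nf
  have c2 : ContDiff ℝ 2 (fun z => conj (s2 z)) := Complex.conjCLE.contDiff.comp h2
  have c3 : ContDiff ℝ 2 (fun z => (s1 z * conj (s2 z) * e z).re) :=
    Complex.reCLM.contDiff.comp ((h1.mul c2).mul he)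
  exact (((h1.norm_sq ℝ).mul ha).add (contDiff_const.mul c3)).add ((h2.norm_sq ℝ).mul hb)

theorem lap_smul {f : ℂ → ℝ} (hf : ContDiff ℝ 2 f) (c : ℝ) (z : ℂ) :
    lap (fun z => c * f z) z = c * lap f z := by
  have := lap_clm hf (c • ContinuousLinearMap.id ℝ ℝ) z
  simpa using this

theorem Nf_smul (c a b : ℝ) (e α β : ℂ) : Nf (c * a) (c * e) (c * b) α β = c * Nf a e b α β := by
  unfold Nf
  have : (α * conj β * (c * e)).re = c * (α * conj β * e).re := by
    rw [show α * conj β * (c * e) = (c : ℂ) * (α * conj β * e) by ring, Complex.re_ofReal_mul]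
  rw [this]; ring

variable {K : ℕ}

/-- scaled system from `LogData` -/
noncomputable def toSys (D : LogData K) (c : ℝ) (hc : 0 < c) : Sys ((K : ℝ)⁻¹) where
  a := fun z w => c * D.a z w
  b := fun z w => c * D.b z w
  e := fun z w => c * D.e z w
  sa := contDiff_const.mul (D.smooth_a.of_le (by norm_cast))
  sb := contDiff_const.mul (D.smooth_b.of_le (by norm_cast))
  se := contDiff_const.mul (D.smooth_e.of_le (by norm_cast))
  a0 := fun z w => mul_nonneg hc.le (D.a_pos z w).le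
  b0 := fun z w => mul_nonneg hc.le (D.b_nonneg z w)
  cs := fun z w => by
    rw [norm_mul, Complex.norm_real, Real.norm_eq_abs, abs_of_pos hc, mul_pow]
    have := D.cs z w
    nlinarith [mul_le_mul_of_nonneg_left this (sq_nonneg c)]
  pa1 := fun z w => by rw [D.per_a1]
  pa2 := fun z w => by rw [D.per_a2]
  pb1 := fun z w => by rw [D.per_b1]
  pb2 := fun z w => by rw [D.per_b2]
  pe1 := fun z w => by rw [D.per_e1]
  pe2 := fun z w => by rw [D.per_e2]
  psh1 := fun s1 s2 h1 h2 Z W => by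
    have sa : J2 D.a := D.smooth_a.of_le (by norm_cast)
    have sb : J2 D.b := D.smooth_b.of_le (by norm_cast)
    have se : J2 D.e := D.smooth_e.of_le (by norm_cast)
    have hN := Nf_contDiff (sa.slice W) (sb.slice W) (se.slice W)
      ((h1.contDiff (n := 2)).restrict_scalars ℝ) ((h2.contDiff (n := 2)).restrict_scalars ℝ)
    simp only [Nf_smul]
    rw [lap_smul hN, ← lap_bridge hN]
    exact mul_nonneg hc.le (D.psh1 s1 s2 h1 h2 Z W)
  psh2 := fun s1 s2 h1 h2 Z W => by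
    have sa : J2 D.a := D.smooth_a.of_le (by norm_cast)
    have sb : J2 D.b := D.smooth_b.of_le (by norm_cast)
    have se : J2 D.e := D.smooth_e.of_le (by norm_cast)
    have hN := Nf_contDiff (sa.slice2 Z) (sb.slice2 Z) (se.slice2 Z)
      ((h1.contDiff (n := 2)).restrict_scalars ℝ) ((h2.contDiff (n := 2)).restrict_scalars ℝ)
    simp only [Nf_smul]
    rw [lap_smul hN, ← lap_bridge hN]
    exact mul_nonneg hc.le (D.psh2 s1 s2 h1 h2 Z W)
  a_bot1 := fun τ => by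
    obtain ⟨C, hC⟩ := D.a_bot1 τ
    exact ⟨c * C, fun Z W h1 h2 => mul_le_mul_of_nonneg_left (hC Z W h1 h2) hc.le⟩
  a_top1 := fun τ => by
    obtain ⟨C, hC⟩ := D.a_top1 τ
    refine ⟨c * C, fun Z W h1 h2 => ?_⟩
    have := mul_le_mul_of_nonneg_left (hC Z W h1 h2) hc.le
    rwa [← mul_assoc, div_eq_mul_inv] at this
  a_bot2 := fun τ => by
    obtain ⟨C, hC⟩ := D.a_bot2 τ
    exact ⟨c * C, fun Z W h1 h2 => mul_le_mul_of_nonneg_left (hC Z W h1 h2) hc.le⟩
  a_top2 := fun τ => by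
    obtain ⟨C, hC⟩ := D.a_top2 τ
    refine ⟨c * C, fun Z W h1 h2 => ?_⟩
    have := mul_le_mul_of_nonneg_left (hC Z W h1 h2) hc.le
    rwa [← mul_assoc, div_eq_mul_inv] at this
  b_bot1 := fun τ => by
    obtain ⟨C, hC⟩ := D.b_bot1 τ
    exact ⟨c * C, fun Z W h1 h2 => mul_le_mul_of_nonneg_left (hC Z W h1 h2) hc.le⟩
  b_top1 := fun τ => by
    obtain ⟨C, hC⟩ := D.b_top1 τ
    refine ⟨c * C, fun Z W h1 h2 => ?_⟩
    have := mul_le_mul_of_nonneg_left (hC Z W h1 h2) hc.le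
    rwa [← mul_assoc, div_eq_mul_inv] at this
  b_bot2 := fun τ => by
    obtain ⟨C, hC⟩ := D.b_bot2 τ
    exact ⟨c * C, fun Z W h1 h2 => mul_le_mul_of_nonneg_left (hC Z W h1 h2) hc.le⟩
  b_top2 := fun τ => by
    obtain ⟨C, hC⟩ := D.b_top2 τ
    refine ⟨c * C, fun Z W h1 h2 => ?_⟩
    have := mul_le_mul_of_nonneg_left (hC Z W h1 h2) hc.le
    rwa [← mul_assoc, div_eq_mul_inv] at this

/-- family together with `n = N(ω, ω)` -/
structure FamN extends Fam where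
  n : ℕ → ℂ → ℂ → ℝ
  n0 : ∀ k z w, 0 ≤ n k z w
  sn : ∀ k, J2 (n k)
  hn2 : ∀ k z w, 0 ≤ lap (fun w => n k z w) w
  rel : ∀ k z w, ‖gL z w‖ ^ 2 * n k z w = Nf ((S k).a z w) ((S k).e z w) ((S k).b z w) (-(hL z w)) 1
  nrm : ∀ k, A2 (S k).a 0 0 + A2 (S k).b 0 0 = 1

theorem A2_pos {f : ℂ → ℂ → ℝ} (hf : JC f) (h : ∀ z w, 0 < f z w) (s t : ℝ) : 0 < A2 f s t := by
  have h2 : (0 : ℝ) < 2 * Real.pi := by positivity
  refine intervalIntegral.intervalIntegral_pos_of_pos_on (A2_ii hf _ _ _ _) (fun φ _ => ?_) h2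
  exact intervalIntegral.intervalIntegral_pos_of_pos_on (mean_ii (hf.slice _) _ _ _)
    (fun θ _ => h _ _) h2

/-- the family built from the hypothesis of `no_logData` -/
theorem exists_famN (h : ∀ K : ℕ, 1 ≤ K → Nonempty (LogData K)) : Nonempty FamN := by
  have hD : ∀ k : ℕ, ∃ D : LogData (k + 1), True := fun k => by
    obtain ⟨D⟩ := h (k + 1) (by omega)
    exact ⟨D, trivial⟩
  choose D _ using hD
  have sa : ∀ k, J2 (D k).a := fun k => (D k).smooth_a.of_le (by norm_cast)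
  have sb : ∀ k, J2 (D k).b := fun k => (D k).smooth_b.of_le (by norm_cast)
  have sn : ∀ k, J2 (D k).n := fun k => (D k).smooth_n.of_le (by norm_cast)
  set r : ℕ → ℝ := fun k => A2 (D k).a 0 0 + A2 (D k).b 0 0 with hr
  have hrpos : ∀ k, 0 < r k := fun k =>
    add_pos_of_pos_of_nonneg (A2_pos (sa k).jc (D k).a_pos 0 0) (A2_nonneg (D k).b_nonneg 0 0)
  have hcpos : ∀ k, 0 < (r k)⁻¹ := fun k => inv_pos.2 (hrpos k)
  have hA : ∀ k, A2 (fun z w => (r k)⁻¹ * (D k).a z w) 0 0 = (r k)⁻¹ * A2 (D k).a 0 0 :=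
    fun k => A2_smul _ _ _ _
  have hB : ∀ k, A2 (fun z w => (r k)⁻¹ * (D k).b z w) 0 0 = (r k)⁻¹ * A2 (D k).b 0 0 :=
    fun k => A2_smul _ _ _ _
  have hsum : ∀ k, A2 (fun z w => (r k)⁻¹ * (D k).a z w) 0 0 +
      A2 (fun z w => (r k)⁻¹ * (D k).b z w) 0 0 = 1 := by
    intro k
    rw [hA, hB, ← mul_add]
    exact inv_mul_cancel₀ (hrpos k).ne'
  have hA0 : ∀ k, 0 ≤ A2 (fun z w => (r k)⁻¹ * (D k).a z w) 0 0 := fun k =>
    A2_nonneg (fun z w => mul_nonneg (hcpos k).le ((D k).a_pos z w).le) 0 0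
  have hB0 : ∀ k, 0 ≤ A2 (fun z w => (r k)⁻¹ * (D k).b z w) 0 0 := fun k =>
    A2_nonneg (fun z w => mul_nonneg (hcpos k).le ((D k).b_nonneg z w)) 0 0
  refine ⟨{
    κ := fun k => ((k + 1 : ℕ) : ℝ)⁻¹
    κ0 := fun k => by positivity
    κ1 := fun k => by
      rw [inv_le_one₀ (by positivity)]
      push_cast
      linarith [(Nat.cast_nonneg k : (0 : ℝ) ≤ k)]
    κl := by
      have := tendsto_one_div_add_atTop_nhds_zero_nat (𝕜 := ℝ)
      refine this.congr fun k => ?_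
      push_cast
      rw [one_div]
    S := fun k => toSys (D k) (r k)⁻¹ (hcpos k)
    na := fun k => by
      have h1 := hsum k
      have h2 := hB0 k
      change A2 (fun z w => (r k)⁻¹ * (D k).a z w) 0 0 ≤ 1
      linarith
    nb := fun k => by
      have h1 := hsum k
      have h2 := hA0 k
      change A2 (fun z w => (r k)⁻¹ * (D k).b z w) 0 0 ≤ 1
      linarith
    n := fun k z w => (r k)⁻¹ * (D k).n z w
    n0 := fun k z w => mul_nonneg (hcpos k).le ((D k).n_nonneg z w)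
    sn := fun k => contDiff_const.mul (sn k)
    hn2 := fun k z w => by
      rw [lap_smul ((sn k).slice2 z), ← lap_bridge ((sn k).slice2 z)]
      exact mul_nonneg (hcpos k).le ((D k).psh2_n z w)
    rel := fun k z w => by
      change _ = Nf ((r k)⁻¹ * (D k).a z w) ((((r k)⁻¹ : ℝ) : ℂ) * (D k).e z w)
        ((r k)⁻¹ * (D k).b z w) (-(hL z w)) 1
      rw [Nf_smul, ← (D k).rel]
      ring
    nrm := fun k => hsum k }⟩

/-! ## pointwise bounds -/

namespace Sys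

variable {κ : ℝ} (S : Sys κ)

theorem mean_b_mono (w : ℂ) : Monotone (mean (fun z => S.b z w)) := by
  obtain ⟨C, hC⟩ := S.b_bot1 w.re
  refine mono_of_midconvex (C := 2 * Real.pi * C) (S := 0)
    (fun s δ hδ => SD_nonneg (S.sb.slice w) (fun z => S.pb1 z w) (fun z => S.lapB0 z w) s hδ) ?_
  intro s hs
  have : mean (fun z => S.b z w) s ≤ ∫ θ in (0 : ℝ)..(2 * Real.pi), C := by
    refine intervalIntegral.integral_mono_on two_pi_nonneg (mean_ii (S.sb.slice w).continuous s _ _)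
      intervalIntegrable_const fun θ _ => ?_
    exact hC _ _ rfl (by simp; exact hs)
  simpa [mul_comm, mul_left_comm] using this

theorem mean_a_mono (w : ℂ) : Monotone (mean (fun z => S.a z w)) := by
  obtain ⟨C, hC⟩ := S.a_bot1 w.re
  refine mono_of_midconvex (C := 2 * Real.pi * C) (S := 0)
    (fun s δ hδ => SD_nonneg (S.sa.slice w) (fun z => S.pa1 z w) (fun z => S.lapA0 z w) s hδ) ?_
  intro s hs
  have : mean (fun z => S.a z w) s ≤ ∫ θ in (0 : ℝ)..(2 * Real.pi), C := by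
    refine intervalIntegral.integral_mono_on two_pi_nonneg (mean_ii (S.sa.slice w).continuous s _ _)
      intervalIntegrable_const fun θ _ => ?_
    exact hC _ _ rfl (by simp; exact hs)
  simpa [mul_comm, mul_left_comm] using this

theorem b_pt1 (z w : ℂ) : Real.pi ^ 3 * S.b z w ≤ 2 * Real.pi * mean (fun z => S.b z w) (z.re + Real.pi) :=
  le_mean_of_psh (S.sb.slice w) (fun z => S.lapB0 z w) (fun z => S.b0 z w) (fun z => S.pb1 z w)
    (S.mean_b_mono w) z

theorem a_pt1 (z w : ℂ) : Real.pi ^ 3 * S.a z w ≤ 2 * Real.pi * mean (fun z => S.a z w) (z.re + Real.pi) :=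
  le_mean_of_psh (S.sa.slice w) (fun z => S.lapA0 z w) (fun z => S.a0 z w) (fun z => S.pa1 z w)
    (S.mean_a_mono w) z

theorem a_pt (z w : ℂ) : S.a z w ≤ A2 S.a (z.re + Real.pi) (w.re + Real.pi) := by
  have h1 := S.a_pt1 z w
  have h2 : Real.pi ^ 3 * mean (fun z => S.a z w) (z.re + Real.pi) ≤
      2 * Real.pi * A2 S.a (z.re + Real.pi) (w.re + Real.pi) := by
    rw [← A2_swap S.sa.jc]
    unfold A2
    rw [← intervalIntegral.integral_const_mul]
    unfold mean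
    rw [← intervalIntegral.integral_const_mul]
    refine intervalIntegral.integral_mono_on two_pi_nonneg
      ((mean_ii (S.sa.slice w).continuous (z.re + Real.pi) _ _).const_mul _) ?_ fun θ _ => ?_
    · exact (A2_ii S.sa.jc.swap (w.re + Real.pi) (z.re + Real.pi) _ _).const_mul _
    · exact S.swap.b_pt1 w ((z.re + Real.pi : ℝ) + θ * I)
  have hpi : (3 : ℝ) < Real.pi := Real.pi_gt_three
  have hA := A2_nonneg S.a0 (z.re + Real.pi) (w.re + Real.pi)
  have h3 : Real.pi ^ 6 * S.a z w ≤ 4 * Real.pi ^ 2 * A2 S.a (z.re + Real.pi) (w.re + Real.pi) := by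
    have h4 := mul_le_mul_of_nonneg_left h1 (by positivity : 0 ≤ Real.pi ^ 3)
    have h5 := mul_le_mul_of_nonneg_left h2 (by positivity : 0 ≤ 2 * Real.pi)
    nlinarith
  have h6 : 4 * Real.pi ^ 2 ≤ Real.pi ^ 6 := by
    have h9 : (9 : ℝ) ≤ Real.pi ^ 2 := by nlinarith
    have h8 : (4 : ℝ) ≤ Real.pi ^ 4 := by nlinarith
    nlinarith [sq_nonneg Real.pi]
  have h7 : Real.pi ^ 6 * S.a z w ≤ Real.pi ^ 6 * A2 S.a (z.re + Real.pi) (w.re + Real.pi) := by
    nlinarith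
  exact le_of_mul_le_mul_left h7 (by positivity)

theorem b_pt (z w : ℂ) : S.b z w ≤ A2 S.b (z.re + Real.pi) (w.re + Real.pi) := by
  have h := S.swap.a_pt w z
  have e : A2 S.swap.a (w.re + Real.pi) (z.re + Real.pi) = A2 S.b (z.re + Real.pi) (w.re + Real.pi) :=
    A2_swap S.sb.jc _ _
  rw [e] at h
  exact h

theorem Nf_nonneg (z w α β : ℂ) : 0 ≤ Nf (S.a z w) (S.e z w) (S.b z w) α β := by
  have h := S.cs z w
  have ha := S.a0 z w
  have hb := S.b0 z w
  unfold Nf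
  have h1 : |(α * conj β * S.e z w).re| ≤ ‖α‖ * ‖β‖ * ‖S.e z w‖ := by
    refine (Complex.abs_re_le_norm _).trans ?_
    rw [norm_mul, norm_mul, RCLike.norm_conj]
  have h2 : (2 * (‖α‖ * ‖β‖ * ‖S.e z w‖)) ^ 2 ≤ (‖α‖ ^ 2 * S.a z w + ‖β‖ ^ 2 * S.b z w) ^ 2 := by
    have h3 : (‖α‖ * ‖β‖ * ‖S.e z w‖) ^ 2 ≤ (‖α‖ ^ 2 * ‖β‖ ^ 2) * (S.a z w * S.b z w) := by
      have : (‖α‖ * ‖β‖ * ‖S.e z w‖) ^ 2 = (‖α‖ ^ 2 * ‖β‖ ^ 2) * ‖S.e z w‖ ^ 2 := by ring
      rw [this]; gcongr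
    nlinarith [sq_nonneg (‖α‖ ^ 2 * S.a z w - ‖β‖ ^ 2 * S.b z w)]
  have h4 : 2 * (‖α‖ * ‖β‖ * ‖S.e z w‖) ≤ ‖α‖ ^ 2 * S.a z w + ‖β‖ ^ 2 * S.b z w :=
    abs_le_of_sq_le_sq' h2 (by positivity) |>.2
  have h5 := (abs_le.1 h1).1
  linarith

theorem Nf_par (a : ℝ) (e : ℂ) (b : ℝ) (α β α' β' : ℂ) :
    Nf a e b (α + α') (β + β') + Nf a e b (α - α') (β - β') = 2 * Nf a e b α β + 2 * Nf a e b α' β' := by
  unfold Nf
  have n1 : ∀ u v : ℂ, ‖u + v‖ ^ 2 + ‖u - v‖ ^ 2 = 2 * ‖u‖ ^ 2 + 2 * ‖v‖ ^ 2 := by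
    intro u v
    have := parallelogram_law_with_norm ℝ u v
    nlinarith
  have n2 : ((α + α') * conj (β + β') * e).re + ((α - α') * conj (β - β') * e).re =
      2 * (α * conj β * e).re + 2 * (α' * conj β' * e).re := by
    have e1 : (α + α') * conj (β + β') * e + (α - α') * conj (β - β') * e =
        2 * (α * conj β * e) + 2 * (α' * conj β' * e) := by
      rw [map_add, map_sub]; ring
    have e2 := congrArg Complex.re e1
    simpa using e2
  have h1 := n1 α α'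
  have h2 := n1 β β'
  linear_combination a * h1 + 2 * n2 + b * h2

theorem Nf_shift (z w h c : ℂ) : Nf (S.a z w) (S.e z w) (S.b z w) (-c) 1 ≤
    2 * Nf (S.a z w) (S.e z w) (S.b z w) (-h) 1 + 2 * (‖h - c‖ ^ 2 * S.a z w) := by
  have h1 := Nf_par (S.a z w) (S.e z w) (S.b z w) (-h) 1 (h - c) 0
  have h2 := S.Nf_nonneg z w (-h - (h - c)) (1 - 0)
  have e1 : -h + (h - c) = -c := by ring
  have e2 : (1 : ℂ) + 0 = 1 := by ring
  rw [e1, e2] at h1
  have e3 : Nf (S.a z w) (S.e z w) (S.b z w) (h - c) 0 = ‖h - c‖ ^ 2 * S.a z w := by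
    simp [Nf]
  rw [e3] at h1
  linarith

end Sys

end Crest.Agent.Quadric.Ana
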