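import Mathlib
import Crest.Agent.Quadric.Ana10

/-!
S0396 analysis, part 11: uniform bound of `n`, inequality near the graphs.
-/

set_option autoImplicit false

namespace Crest.Agent.Quadric.Ana

open Complex MeasureTheory Set Filter Topology
open scoped ComplexConjugate ContDiff

theorem gL_cd : ContDiff ℝ 1 (fun p : ℂ × ℂ => gL p.1 p.2) := by
  have h1 : ContDiff ℝ 1 (fun p : ℂ × ℂ => cexp p.1) := (Complex.contDiff_exp (𝕜 := ℝ)).comp contDiff_fst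
  have h2 : ContDiff ℝ 1 (fun p : ℂ × ℂ => cexp p.2) := (Complex.contDiff_exp (𝕜 := ℝ)).comp contDiff_snd
  unfold gL gamH0 rho sig
  fun_prop

theorem hL_cd : ContDiff ℝ 1 (fun p : ℂ × ℂ => hL p.1 p.2) := by
  have h1 : ContDiff ℝ 1 (fun p : ℂ × ℂ => cexp p.1) := (Complex.contDiff_exp (𝕜 := ℝ)).comp contDiff_fst
  have h2 : ContDiff ℝ 1 (fun p : ℂ × ℂ => cexp p.2) := (Complex.contDiff_exp (𝕜 := ℝ)).comp contDiff_snd
  unfold hL hH0
  fun_prop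

theorem rho_sig (x : ℂ) : (3 - 2 * ζ) * rho x - ζ * sig x = ζ := by
  unfold rho sig
  linear_combination (-6 : ℂ) * zeta_rel

theorem gL_ev (z₀ w₀ : ℂ) : ∀ᶠ w in 𝓝[≠] w₀, gL z₀ w ≠ 0 := by
  have h1 : ∀ᶠ w in 𝓝[≠] w₀, cexp w ≠ cexp z₀ :=
    (Complex.hasDerivAt_exp w₀).eventually_ne (Complex.exp_ne_zero _)
  have h2 : ∀ᶠ w in 𝓝[≠] w₀, cexp w ≠ ζ * cexp z₀ :=
    (Complex.hasDerivAt_exp w₀).eventually_ne (Complex.exp_ne_zero _)
  have h3 : ∀ᶠ w in 𝓝[≠] w₀, rho (cexp z₀) * cexp w ≠ sig (cexp z₀) := by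
    by_cases hr : rho (cexp z₀) = 0
    · refine Filter.Eventually.of_forall fun w => ?_
      rw [hr, zero_mul]
      intro hs
      have := rho_sig (cexp z₀)
      rw [hr, ← hs] at this
      simp at this
      exact zeta_ne_zero this.symm
    · exact ((Complex.hasDerivAt_exp w₀).const_mul (rho (cexp z₀))).eventually_ne
        (mul_ne_zero hr (Complex.exp_ne_zero _))
  filter_upwards [h1, h2, h3] with w e1 e2 e3
  unfold gL gamH0
  simp only [mul_one]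
  exact mul_ne_zero (mul_ne_zero (sub_ne_zero.2 e1) (sub_ne_zero.2 e2)) (sub_ne_zero.2 e3)

theorem gL_circle (z₀ w₀ : ℂ) : ∃ r : ℝ, 0 < r ∧ ∀ θ : ℝ, gL z₀ (w₀ + r * cexp (θ * I)) ≠ 0 := by
  have h := gL_ev z₀ w₀
  rw [eventually_nhdsWithin_iff, Metric.eventually_nhds_iff] at h
  obtain ⟨ε, hε, h⟩ := h
  refine ⟨ε / 2, by positivity, fun θ => ?_⟩
  have hn : ‖((ε / 2 : ℝ) : ℂ) * cexp (θ * I)‖ = ε / 2 := by
    rw [norm_mul, Complex.norm_exp_ofReal_mul_I, mul_one, Complex.norm_real, Real.norm_eq_abs,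
      abs_of_pos (by positivity)]
  refine h ?_ ?_
  · rw [dist_eq_norm, add_sub_cancel_left, hn]
    linarith
  · intro h2
    have h3 : ((ε / 2 : ℝ) : ℂ) * cexp (θ * I) = 0 := by
      have : w₀ + ((ε / 2 : ℝ) : ℂ) * cexp (θ * I) = w₀ := h2
      linear_combination this
    rw [h3, norm_zero] at hn
    linarith

theorem Sys.Nf_le {κ : ℝ} (S : Sys κ) (z w h : ℂ) :
    Nf (S.a z w) (S.e z w) (S.b z w) (-h) 1 ≤ 2 * (‖h‖ ^ 2 * S.a z w + S.b z w) := by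
  have h1 := Sys.Nf_par (S.a z w) (S.e z w) (S.b z w) (-h) 0 0 1
  have h2 := S.Nf_nonneg z w (-h - 0) (0 - 1)
  have e1 : -h + (0 : ℂ) = -h := by ring
  have e2 : (0 : ℂ) + 1 = 1 := by ring
  rw [e1, e2] at h1
  have e3 : Nf (S.a z w) (S.e z w) (S.b z w) (-h) 0 = ‖h‖ ^ 2 * S.a z w := by simp [Nf]
  have e4 : Nf (S.a z w) (S.e z w) (S.b z w) 0 1 = S.b z w := by simp [Nf]
  rw [e3, e4] at h1
  linarith

namespace FamN

variable (F : FamN)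

theorem a_ptb (k : ℕ) (z w : ℂ) :
    (F.S k).a z w ≤ Real.exp (14 * |z.re + Real.pi| + 14 * |w.re + Real.pi|) :=
  ((F.S k).a_pt z w).trans (F.A_bd' k _ _)

theorem b_ptb (k : ℕ) (z w : ℂ) :
    (F.S k).b z w ≤ Real.exp (14 * |z.re + Real.pi| + 14 * |w.re + Real.pi|) :=
  ((F.S k).b_pt z w).trans (F.B_bd' k _ _)

/-- explicit majorant of `n` where `gL ≠ 0` -/
noncomputable def Mj (z w : ℂ) : ℝ :=
  2 * ((‖hL z w‖ ^ 2 + 1) * Real.exp (14 * |z.re + Real.pi| + 14 * |w.re + Real.pi|)) / ‖gL z w‖ ^ 2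

theorem n_le_Mj (k : ℕ) (z w : ℂ) (h : gL z w ≠ 0) : F.n k z w ≤ Mj z w := by
  have h1 := F.rel k z w
  have h2 := (F.S k).Nf_le z w (hL z w)
  have ha := F.a_ptb k z w
  have hb := F.b_ptb k z w
  have hg : 0 < ‖gL z w‖ ^ 2 := by
    have := norm_pos_iff.2 h
    positivity
  unfold Mj
  rw [le_div_iff₀ hg, mul_comm, h1]
  refine h2.trans ?_
  have : ‖hL z w‖ ^ 2 * (F.S k).a z w ≤
      ‖hL z w‖ ^ 2 * Real.exp (14 * |z.re + Real.pi| + 14 * |w.re + Real.pi|) := by gcongr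
  nlinarith

theorem n_local (z₀ w₀ : ℂ) : ∃ C : ℝ, ∀ᶠ p : ℂ × ℂ in 𝓝 (z₀, w₀), ∀ k, F.n k p.1 p.2 ≤ C := by
  obtain ⟨r, hr, hg⟩ := gL_circle z₀ w₀
  have cg : Continuous (fun p : ℂ × ℂ => gL p.1 p.2) := gL_cd.continuous
  have ch : Continuous (fun p : ℂ × ℂ => hL p.1 p.2) := hL_cd.continuous
  have cmap : Continuous (fun q : (ℂ × ℂ) × ℝ => ((q.1.1, q.1.2 + r * cexp (q.2 * I)) : ℂ × ℂ)) := by
    fun_prop
  have cM : ∀ q : (ℂ × ℂ) × ℝ, gL q.1.1 (q.1.2 + r * cexp (q.2 * I)) ≠ 0 →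
      ContinuousAt (fun q : (ℂ × ℂ) × ℝ => Mj q.1.1 (q.1.2 + r * cexp (q.2 * I))) q := by
    intro q hq
    have h1 : Continuous (fun p : ℂ × ℂ =>
        2 * ((‖hL p.1 p.2‖ ^ 2 + 1) * Real.exp (14 * |p.1.re + Real.pi| + 14 * |p.2.re + Real.pi|))) := by
      have i1 : Continuous fun p : ℂ × ℂ => p.1.re := Complex.continuous_re.comp continuous_fst
      have i2 : Continuous fun p : ℂ × ℂ => p.2.re := Complex.continuous_re.comp continuous_snd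
      have e1 : Continuous fun p : ℂ × ℂ => 14 * |p.1.re + Real.pi| + 14 * |p.2.re + Real.pi| :=
        ((i1.add continuous_const).abs.const_mul 14).add ((i2.add continuous_const).abs.const_mul 14)
      have e2 := Real.continuous_exp.comp e1
      have e3 : Continuous fun p : ℂ × ℂ => (‖hL p.1 p.2‖ ^ 2 + 1) := (ch.norm.pow 2).add continuous_const
      exact (e3.mul e2).const_mul 2
    have h2 : Continuous (fun p : ℂ × ℂ => ‖gL p.1 p.2‖ ^ 2) := cg.norm.pow 2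
    have h3 := (h1.comp cmap).continuousAt (x := q)
    have h4 := (h2.comp cmap).continuousAt (x := q)
    exact h3.div h4 (by
      have : ‖gL q.1.1 (q.1.2 + r * cexp (q.2 * I))‖ ≠ 0 := norm_ne_zero_iff.2 hq
      exact pow_ne_zero 2 this)
  obtain ⟨C, hC⟩ := (isCompact_Icc (a := (0 : ℝ)) (b := 2 * Real.pi)).exists_bound_of_continuousOn
    (f := fun θ => Mj z₀ (w₀ + r * cexp (θ * I))) (by
      intro θ _
      have h1 := cM ((z₀, w₀), θ) (hg θ)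
      have h2 : ContinuousAt (fun θ : ℝ => (((z₀, w₀), θ) : (ℂ × ℂ) × ℝ)) θ := by fun_prop
      exact (ContinuousAt.comp (g := fun q : (ℂ × ℂ) × ℝ => Mj q.1.1 (q.1.2 + r * cexp (q.2 * I)))
        (f := fun θ : ℝ => (((z₀, w₀), θ) : (ℂ × ℂ) × ℝ)) h1 h2).continuousWithinAt)
  refine ⟨C + 1, ?_⟩
  have hev := (isCompact_Icc (a := (0 : ℝ)) (b := 2 * Real.pi)).eventually_forall_of_forall_eventually
    (x₀ := (z₀, w₀)) (P := fun (p : ℂ × ℂ) (θ : ℝ) => gL p.1 (p.2 + r * cexp (θ * I)) ≠ 0 ∧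
      Mj p.1 (p.2 + r * cexp (θ * I)) < C + 1) (by
      intro θ hθ
      have h1 : ∀ᶠ q : (ℂ × ℂ) × ℝ in 𝓝 ((z₀, w₀), θ), gL q.1.1 (q.1.2 + r * cexp (q.2 * I)) ≠ 0 :=
        (cg.comp cmap).continuousAt.eventually_ne (hg θ)
      have h2 : ∀ᶠ q : (ℂ × ℂ) × ℝ in 𝓝 ((z₀, w₀), θ), Mj q.1.1 (q.1.2 + r * cexp (q.2 * I)) < C + 1 := by
        have h3 := cM ((z₀, w₀), θ) (hg θ)
        refine h3.eventually_lt continuousAt_const ?_
        have := hC θ hθ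
        have h4 := (le_abs_self _).trans this
        simp only
        linarith
      exact h1.and h2)
  filter_upwards [hev] with p hp
  intro k
  have hsub := submean (f := fun w => F.n k p.1 w) ((F.sn k).slice2 p.1) (fun w => F.hn2 k p.1 w) p.2 hr
  have hle : ∫ θ in (0 : ℝ)..(2 * Real.pi), F.n k p.1 (p.2 + r * cexp (θ * I)) ≤
      ∫ θ in (0 : ℝ)..(2 * Real.pi), (C + 1) := by
    refine intervalIntegral.integral_mono_on two_pi_nonneg ?_ intervalIntegrable_const fun θ hθ => ?_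
    · have := ((F.sn k).slice2 p.1).continuous
      exact Continuous.intervalIntegrable (by fun_prop) _ _
    · exact (F.n_le_Mj k _ _ (hp θ hθ).1).trans (hp θ hθ).2.le
  rw [intervalIntegral.integral_const, smul_eq_mul, sub_zero] at hle
  have hpi := Real.pi_pos
  have h5 := hsub.trans hle
  exact le_of_mul_le_mul_left h5 (by positivity)

theorem n_compact {T : Set (ℂ × ℂ)} (hT : IsCompact T) :
    ∃ C : ℝ, 0 ≤ C ∧ ∀ p ∈ T, ∀ k, F.n k p.1 p.2 ≤ C := by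
  have : ∃ C : ℝ, ∀ p ∈ T, ∀ k, F.n k p.1 p.2 ≤ C := by
    refine hT.induction_on (p := fun T => ∃ C : ℝ, ∀ p ∈ T, ∀ k, F.n k p.1 p.2 ≤ C) ?_ ?_ ?_ ?_
    · exact ⟨0, by simp⟩
    · rintro s t hst ⟨C, hC⟩
      exact ⟨C, fun p hp => hC p (hst hp)⟩
    · rintro s t ⟨C, hC⟩ ⟨C', hC'⟩
      refine ⟨max C C', fun p hp k => ?_⟩
      rcases hp with hp | hp
      · exact (hC p hp k).trans (le_max_left _ _)
      · exact (hC' p hp k).trans (le_max_right _ _)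
    · rintro ⟨z, w⟩ _
      obtain ⟨C, hC⟩ := F.n_local z w
      exact ⟨_, mem_nhdsWithin_of_mem_nhds hC, C, fun p hp => hp⟩
  obtain ⟨C, hC⟩ := this
  exact ⟨max C 0, le_max_right _ _, fun p hp k => (hC p hp k).trans (le_max_left _ _)⟩

end FamN

/-- Lipschitz bound on balls -/
theorem lip_ball {P : ℂ × ℂ → ℂ} (hP : ContDiff ℝ 1 P) (R : ℝ) :
    ∃ L : ℝ, 0 ≤ L ∧ ∀ p ∈ Metric.closedBall (0 : ℂ × ℂ) R, ∀ q ∈ Metric.closedBall (0 : ℂ × ℂ) R,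
      ‖P p - P q‖ ^ 2 ≤ L * (‖p.1 - q.1‖ ^ 2 + ‖p.2 - q.2‖ ^ 2) := by
  obtain ⟨C, hC⟩ := (isCompact_closedBall (0 : ℂ × ℂ) R).exists_bound_of_continuousOn
    (f := fderiv ℝ P) (hP.continuous_fderiv (by norm_num)).continuousOn
  refine ⟨C ^ 2, sq_nonneg _, fun p hp q hq => ?_⟩
  have h := (convex_closedBall (0 : ℂ × ℂ) R).norm_image_sub_le_of_norm_fderiv_le (𝕜 := ℝ)
    (f := P) (C := C) (fun x _ => hP.differentiable (by norm_num) x) hC hq hp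
  have h1 : ‖p - q‖ ^ 2 ≤ ‖p.1 - q.1‖ ^ 2 + ‖p.2 - q.2‖ ^ 2 := by
    rw [Prod.norm_def]
    simp only [Prod.fst_sub, Prod.snd_sub]
    rcases max_choice ‖p.1 - q.1‖ ‖p.2 - q.2‖ with h2 | h2 <;> rw [h2] <;>
      nlinarith [sq_nonneg ‖p.1 - q.1‖, sq_nonneg ‖p.2 - q.2‖]
  calc ‖P p - P q‖ ^ 2 ≤ (C * ‖p - q‖) ^ 2 := by gcongr
    _ = C ^ 2 * ‖p - q‖ ^ 2 := by ring
    _ ≤ _ := by gcongr

theorem torus_compact (s t : ℝ) : IsCompact
    ((fun q : ℝ × ℝ => (((s : ℂ) + q.1 * I, (t : ℂ) + q.2 * I) : ℂ × ℂ)) ''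
      (Icc 0 (2 * Real.pi) ×ˢ Icc 0 (2 * Real.pi))) :=
  (isCompact_Icc.prod isCompact_Icc).image (by fun_prop)

theorem norm_exp_sub (s θ θ₀ : ℝ) :
    ‖cexp (s + θ * I) - cexp (s + θ₀ * I)‖ = Real.exp s * ‖1 - cexp (((θ - θ₀ : ℝ) : ℂ) * I)‖ := by
  have e1 : cexp (s + θ * I) - cexp (s + θ₀ * I) =
      -(cexp (s + θ₀ * I) * (1 - cexp (((θ - θ₀ : ℝ) : ℂ) * I))) := by
    rw [mul_sub, mul_one, ← Complex.exp_add]
    have : (s : ℂ) + θ₀ * I + ((θ - θ₀ : ℝ) : ℂ) * I = s + θ * I := by push_cast; ring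
    rw [this]; ring
  rw [e1, norm_neg, norm_mul, Complex.norm_exp]
  simp

namespace FamN

variable (F : FamN)

/-- inequality near a point of `Γ` -/
theorem gamma_ineq (s θ₀ t φ₀ : ℝ) (hg : gL (s + θ₀ * I) (t + φ₀ * I) = 0) :
    ∃ C : ℝ, 0 ≤ C ∧ ∀ k, ∀ θ ∈ Icc 0 (2 * Real.pi), ∀ φ ∈ Icc 0 (2 * Real.pi),
      Nf ((F.S k).a (s + θ * I) (t + φ * I)) ((F.S k).e (s + θ * I) (t + φ * I))
        ((F.S k).b (s + θ * I) (t + φ * I)) (-(hL (s + θ₀ * I) (t + φ₀ * I))) 1 ≤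
      C * (‖1 - cexp (((θ - θ₀ : ℝ) : ℂ) * I)‖ ^ 2 + ‖1 - cexp (((φ - φ₀ : ℝ) : ℂ) * I)‖ ^ 2) := by
  obtain ⟨Cn, hCn0, hCn⟩ := F.n_compact (torus_compact s t)
  -- Lipschitz for gamH0 and hH0
  have cdg : ContDiff ℝ 1 (fun p : ℂ × ℂ => gamH0 p.1 1 p.2) := by
    unfold gamH0 rho sig; fun_prop
  have cdh : ContDiff ℝ 1 (fun p : ℂ × ℂ => hH0 p.1 1 p.2) := by
    unfold hH0; fun_prop
  set R := max (Real.exp s) (Real.exp t) with hR
  obtain ⟨Lg, hLg0, hLg⟩ := lip_ball cdg R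
  obtain ⟨Lh, hLh0, hLh⟩ := lip_ball cdh R
  set A := Real.exp (14 * |s + Real.pi| + 14 * |t + Real.pi|) with hA
  set E := Real.exp s ^ 2 + Real.exp t ^ 2 with hE
  refine ⟨2 * (Lg * E * Cn) + 2 * (Lh * E * A), by positivity, fun k θ hθ φ hφ => ?_⟩
  set z : ℂ := s + θ * I with hz
  set w : ℂ := t + φ * I with hw
  set z₀ : ℂ := s + θ₀ * I with hz₀
  set w₀ : ℂ := t + φ₀ * I with hw₀
  set u := ‖1 - cexp (((θ - θ₀ : ℝ) : ℂ) * I)‖ with hu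
  set v := ‖1 - cexp (((φ - φ₀ : ℝ) : ℂ) * I)‖ with hv
  have hmem : ∀ a b : ℝ, ((cexp (s + a * I), cexp (t + b * I)) : ℂ × ℂ) ∈ Metric.closedBall (0 : ℂ × ℂ) R := by
    intro a b
    rw [mem_closedBall_zero_iff, Prod.norm_def]
    simp only [Complex.norm_exp]
    simp [hR]
  have hdist : ‖cexp z - cexp z₀‖ ^ 2 + ‖cexp w - cexp w₀‖ ^ 2 ≤ E * (u ^ 2 + v ^ 2) := by
    rw [hz, hz₀, hw, hw₀, norm_exp_sub, norm_exp_sub, mul_pow, mul_pow, ← hu, ← hv]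
    nlinarith [mul_nonneg (sq_nonneg (Real.exp s)) (sq_nonneg v),
      mul_nonneg (sq_nonneg (Real.exp t)) (sq_nonneg u)]
  have h1 := (F.S k).Nf_shift z w (hL z w) (hL z₀ w₀)
  have h2 : Nf ((F.S k).a z w) ((F.S k).e z w) ((F.S k).b z w) (-(hL z w)) 1 ≤
      Lg * E * Cn * (u ^ 2 + v ^ 2) := by
    rw [← F.rel]
    have hn : F.n k z w ≤ Cn := hCn (z, w) ⟨(θ, φ), ⟨hθ, hφ⟩, rfl⟩ k
    have hn0 := F.n0 k z w
    have hgl : ‖gL z w‖ ^ 2 ≤ Lg * (E * (u ^ 2 + v ^ 2)) := by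
      have h3 := hLg _ (hmem θ φ) _ (hmem θ₀ φ₀)
      have h4 : gamH0 (cexp z₀) 1 (cexp w₀) = 0 := hg
      simp only at h3
      rw [h4, sub_zero] at h3
      refine h3.trans ?_
      gcongr
    calc ‖gL z w‖ ^ 2 * F.n k z w ≤ (Lg * (E * (u ^ 2 + v ^ 2))) * Cn := by gcongr
      _ = _ := by ring
  have h3 : ‖hL z w - hL z₀ w₀‖ ^ 2 * (F.S k).a z w ≤ Lh * E * A * (u ^ 2 + v ^ 2) := by
    have ha : (F.S k).a z w ≤ A := by
      have := F.a_ptb k z w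
      have e1 : z.re = s := by simp [hz]
      have e2 : w.re = t := by simp [hw]
      rwa [e1, e2] at this
    have ha0 := (F.S k).a0 z w
    have hhl : ‖hL z w - hL z₀ w₀‖ ^ 2 ≤ Lh * (E * (u ^ 2 + v ^ 2)) := by
      have h3 := hLh _ (hmem θ φ) _ (hmem θ₀ φ₀)
      refine h3.trans ?_
      gcongr
    calc ‖hL z w - hL z₀ w₀‖ ^ 2 * (F.S k).a z w ≤ (Lh * (E * (u ^ 2 + v ^ 2))) * A := by gcongr
      _ = _ := by ring
  calc _ ≤ _ := h1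
    _ ≤ 2 * (Lg * E * Cn * (u ^ 2 + v ^ 2)) + 2 * (Lh * E * A * (u ^ 2 + v ^ 2)) := by linarith
    _ = _ := by ring

end FamN

end Crest.Agent.Quadric.Ana
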