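import Mathlib
import Crest.Agent.Quadric.Ana11

/-!
S0396 analysis, part 12: Fejér averages near a point of `Γ`, limits.
-/

set_option autoImplicit false

namespace Crest.Agent.Quadric.Ana

open Complex MeasureTheory Set Filter Topology
open scoped ComplexConjugate ContDiff

theorem mode_one (m : ℤ) (s : ℝ) :
    mode (fun _ => 1) m s = if m = 0 then (2 * Real.pi : ℂ) else 0 := by
  split_ifs with h
  · subst h; simp [mode]
  · have h1 := mode_dy (f := fun _ : ℂ => (1 : ℂ)) contDiff_const (fun _ => rfl) m s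
    have h2 : dy (fun _ : ℂ => (1 : ℂ)) = fun _ => 0 := by funext z; simp [dy]
    rw [h2] at h1
    have h3 : mode (fun _ => (0 : ℂ)) m s = 0 := by simp [mode]
    rw [h3] at h1
    have h4 : I * (m : ℂ) ≠ 0 := mul_ne_zero I_ne_zero (by exact_mod_cast h)
    exact (mul_eq_zero.1 h1.symm).resolve_left h4

theorem S1_delta {N : ℕ} (hN : 1 ≤ N) (g : ℤ → ℂ) (hg : ∀ m, m ≠ 0 → g m = 0) : S1 N g = g 0 := by
  have h1 := S1_single 0 hN
  simp only [Int.cast_zero, abs_zero, zero_div] at h1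
  have h2 : S1 N (fun m => if m = 0 then 1 else 0) = 1 := by
    have := norm_le_zero_iff.1 h1
    exact sub_eq_zero.1 this
  rw [S1_support N {0} g (fun m hm => hg m (by simpa using hm))]
  simp [h2]

theorem fejer_int {N : ℕ} (hN : 1 ≤ N) (θ₀ : ℝ) :
    ∫ θ in (0 : ℝ)..(2 * Real.pi), Fk N (θ - θ₀) = 2 * Real.pi := by
  have h : ((∫ θ in (0 : ℝ)..(2 * Real.pi), Fk N (θ - θ₀) : ℝ) : ℂ) = 2 * Real.pi := by
    rw [← intervalIntegral.integral_ofReal]
    have e1 : ∀ θ : ℝ, ((Fk N (θ - θ₀) : ℝ) : ℂ) =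
        (N : ℂ)⁻¹ * ∑ j ∈ Finset.range N, ∑ l ∈ Finset.range N,
          (cexp ((((l : ℤ) - j : ℤ) : ℂ) * θ₀ * I) * cexp (-((((l : ℤ) - j : ℤ) : ℂ) * θ * I))) := by
      intro θ
      rw [Fk_eq]
      unfold S1
      congr 1
      refine Finset.sum_congr rfl fun j _ => Finset.sum_congr rfl fun l _ => ?_
      rw [← Complex.exp_add]
      congr 1
      push_cast
      ring_nf
    simp_rw [e1]
    rw [intervalIntegral.integral_const_mul, intervalIntegral.integral_finsetSum]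
    · have e2 : ∀ j ∈ Finset.range N, (∫ θ in (0 : ℝ)..(2 * Real.pi), ∑ l ∈ Finset.range N,
          (cexp ((((l : ℤ) - j : ℤ) : ℂ) * θ₀ * I) * cexp (-((((l : ℤ) - j : ℤ) : ℂ) * θ * I)))) =
          ∑ l ∈ Finset.range N, (fun m : ℤ => cexp ((m : ℂ) * θ₀ * I) * mode (fun _ => 1) m 0) ((l : ℤ) - j) := by
        intro j _
        rw [intervalIntegral.integral_finsetSum]
        · refine Finset.sum_congr rfl fun l _ => ?_
          rw [intervalIntegral.integral_const_mul]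
          simp [mode]
        · intro l _
          exact Continuous.intervalIntegrable (by fun_prop) _ _
      rw [Finset.sum_congr rfl e2]
      have e3 := S1_delta hN (fun m : ℤ => cexp ((m : ℂ) * θ₀ * I) * mode (fun _ => 1) m 0) (by
        intro m hm
        rw [mode_one, if_neg hm, mul_zero])
      unfold S1 at e3
      rw [e3]
      simp [mode_one]
    · intro j _
      exact Continuous.intervalIntegrable (by fun_prop) _ _
  exact_mod_cast h

/-- product kernel -/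
noncomputable def wN (N : ℕ) (θ₀ φ₀ : ℝ) (z w : ℂ) : ℝ := Fk N (z.im - θ₀) * Fk N (w.im - φ₀)

theorem wN_nonneg (N : ℕ) (θ₀ φ₀ : ℝ) (z w : ℂ) : 0 ≤ wN N θ₀ φ₀ z w :=
  mul_nonneg (Fk_nonneg _ _) (Fk_nonneg _ _)

theorem Fk_jc1 (N : ℕ) (θ₀ : ℝ) : JC (fun z _ => Fk N (z.im - θ₀)) :=
  (Fk_cont N).comp ((Complex.continuous_im.comp continuous_fst).sub continuous_const)

theorem Fk_jc2 (N : ℕ) (φ₀ : ℝ) : JC (fun _ w => Fk N (w.im - φ₀)) :=
  (Fk_cont N).comp ((Complex.continuous_im.comp continuous_snd).sub continuous_const)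

theorem wN_jc (N : ℕ) (θ₀ φ₀ : ℝ) : JC (wN N θ₀ φ₀) := (Fk_jc1 N θ₀).mul (Fk_jc2 N φ₀)

theorem A2_Fk1 {N : ℕ} (hN : 1 ≤ N) (θ₀ s t : ℝ) :
    A2 (fun z _ => Fk N (z.im - θ₀)) s t = (2 * Real.pi) ^ 2 := by
  unfold A2 mean
  have e : ∀ θ : ℝ, ((s : ℂ) + θ * I).im = θ := by intro θ; simp
  simp only [e]
  rw [fejer_int hN]
  simp
  ring

theorem A2_Fk2 {N : ℕ} (hN : 1 ≤ N) (φ₀ s t : ℝ) :
    A2 (fun _ w => Fk N (w.im - φ₀)) s t = (2 * Real.pi) ^ 2 := by
  unfold A2 mean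
  have e : ∀ θ : ℝ, ((t : ℂ) + θ * I).im = θ := by intro θ; simp
  simp only [e, intervalIntegral.integral_const, smul_eq_mul, sub_zero]
  rw [intervalIntegral.integral_const_mul, fejer_int hN]
  ring

theorem A2_wN {N : ℕ} (hN : 1 ≤ N) (θ₀ φ₀ s t : ℝ) :
    A2 (wN N θ₀ φ₀) s t = (2 * Real.pi) ^ 2 := by
  unfold A2 mean wN
  have e : ∀ θ : ℝ, ((t : ℂ) + θ * I).im = θ := by intro θ; simp
  have e' : ∀ θ : ℝ, ((s : ℂ) + θ * I).im = θ := by intro θ; simp
  simp only [e, e']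
  simp_rw [intervalIntegral.integral_mul_const]
  rw [fejer_int hN, intervalIntegral.integral_const_mul, fejer_int hN]
  ring

/-- mean inequality with the inequality only on `[0,2π]²` -/
theorem A2_mono'' {f g : ℂ → ℂ → ℝ} (hf : JC f) (hg : JC g) (s t : ℝ)
    (h : ∀ θ ∈ Icc 0 (2 * Real.pi), ∀ φ ∈ Icc 0 (2 * Real.pi),
      f (s + θ * I) (t + φ * I) ≤ g (s + θ * I) (t + φ * I)) :
    A2 f s t ≤ A2 g s t :=
  intervalIntegral.integral_mono_on two_pi_nonneg (A2_ii hf _ _ _ _) (A2_ii hg _ _ _ _)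
    (fun φ hφ => intervalIntegral.integral_mono_on two_pi_nonneg (mean_ii (hf.slice _) s _ _)
      (mean_ii (hg.slice _) s _ _) (fun θ hθ => h θ hθ φ hφ))

theorem re_M2 {g : ℂ → ℂ → ℂ} (hg : JC g) (c : ℂ) (s t : ℝ) :
    (c * M2 g 0 0 s t).re = A2 (fun z w => (c * g z w).re) s t := by
  have hcg : JC (fun z w => c * g z w) := continuous_const.mul hg
  have hr : JC (fun z w => (c * g z w).re) := Complex.continuous_re.comp hcg
  have hi : JC (fun z w => (c * g z w).im) := Complex.continuous_im.comp hcg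
  have e1 : (fun z w => c * g z w) = fun z w =>
      ((((c * g z w).re : ℝ) : ℂ) + I * (((c * g z w).im : ℝ) : ℂ)) := by
    funext z w
    rw [mul_comm I]
    exact (Complex.re_add_im _).symm
  have e2 : c * M2 g 0 0 s t = M2 (fun z w => c * g z w) 0 0 s t := (M2_smul c g 0 0 s t).symm
  rw [e2, e1, M2_add (Complex.continuous_ofReal.comp hr)
    (continuous_const.mul (Complex.continuous_ofReal.comp hi)), M2_smul, M2_ofReal, M2_ofReal]
  simp

theorem A2_Nf {a b : ℂ → ℂ → ℝ} {e : ℂ → ℂ → ℂ} (ha : JC a) (hb : JC b) (he : JC e)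
    {W : ℂ → ℂ → ℝ} (hW : JC W) (α β : ℂ) (s t : ℝ) :
    A2 (fun z w => W z w * Nf (a z w) (e z w) (b z w) α β) s t =
      Nf (A2 (fun z w => W z w * a z w) s t) (M2 (fun z w => (W z w : ℂ) * e z w) 0 0 s t)
        (A2 (fun z w => W z w * b z w) s t) α β := by
  have hWc : JC (fun z w => ((W z w : ℝ) : ℂ)) := Complex.continuous_ofReal.comp hW
  have hWe : JC (fun z w => ((W z w : ℝ) : ℂ) * e z w) := hWc.mul he
  have j1 : JC (fun z w => ‖α‖ ^ 2 * (W z w * a z w)) := continuous_const.mul (hW.mul ha)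
  have j2 : JC (fun z w => (2 * (α * conj β) * (((W z w : ℝ) : ℂ) * e z w)).re) :=
    Complex.continuous_re.comp (continuous_const.mul hWe)
  have j3 : JC (fun z w => ‖β‖ ^ 2 * (W z w * b z w)) := continuous_const.mul (hW.mul hb)
  have e1 : (fun z w => W z w * Nf (a z w) (e z w) (b z w) α β) = fun z w =>
      (‖α‖ ^ 2 * (W z w * a z w) + (2 * (α * conj β) * (((W z w : ℝ) : ℂ) * e z w)).re) +
        ‖β‖ ^ 2 * (W z w * b z w) := by
    funext z w
    unfold Nf
    have : (2 * (α * conj β) * (((W z w : ℝ) : ℂ) * e z w)).re =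
        W z w * (2 * (α * conj β * e z w).re) := by
      rw [show 2 * (α * conj β) * (((W z w : ℝ) : ℂ) * e z w) =
        ((W z w * 2 : ℝ) : ℂ) * (α * conj β * e z w) by push_cast; ring, Complex.re_ofReal_mul]
      ring
    rw [this]
    ring
  rw [e1, A2_add (j1.add j2) j3, A2_add j1 j2, A2_smul, A2_smul, ← re_M2 hWe]
  unfold Nf
  have : (2 * (α * conj β) * M2 (fun z w => ((W z w : ℝ) : ℂ) * e z w) 0 0 s t).re =
      2 * (α * conj β * M2 (fun z w => ((W z w : ℝ) : ℂ) * e z w) 0 0 s t).re := by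
    rw [show 2 * (α * conj β) * M2 (fun z w => ((W z w : ℝ) : ℂ) * e z w) 0 0 s t =
      ((2 : ℝ) : ℂ) * (α * conj β * M2 (fun z w => ((W z w : ℝ) : ℂ) * e z w) 0 0 s t) by
        push_cast; ring, Complex.re_ofReal_mul]
  rw [this]

/-- change of basis in the Hermitian form -/
theorem Nf_basis (a : ℝ) (e : ℂ) (b : ℝ) (c l m : ℂ) :
    Nf a (e - conj c * a) (Nf a e b (-c) 1) l m = Nf a e b (l - m * c) m := by
  unfold Nf
  have h1 : ‖l - m * c‖ ^ 2 = ‖l‖ ^ 2 + ‖m‖ ^ 2 * ‖c‖ ^ 2 - 2 * (l * conj m * conj c).re := by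
    rw [← Complex.normSq_eq_norm_sq, ← Complex.normSq_eq_norm_sq, ← Complex.normSq_eq_norm_sq,
      ← Complex.normSq_eq_norm_sq, Complex.normSq_sub, Complex.normSq_mul, map_mul, ← mul_assoc]
  have h2 : ((l - m * c) * conj m * e).re = (l * conj m * e).re - ‖m‖ ^ 2 * (c * e).re := by
    have : (l - m * c) * conj m * e = l * conj m * e - ((‖m‖ ^ 2 : ℝ) : ℂ) * (c * e) := by
      have h3 : ((‖m‖ ^ 2 : ℝ) : ℂ) = m * conj m := by push_cast; exact (Complex.mul_conj' m).symm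
      rw [h3]; ring
    rw [this, Complex.sub_re, Complex.re_ofReal_mul]
  have h3 : (l * conj m * (e - conj c * a)).re = (l * conj m * e).re - a * (l * conj m * conj c).re := by
    have : l * conj m * (e - conj c * a) = l * conj m * e - (a : ℂ) * (l * conj m * conj c) := by ring
    rw [this, Complex.sub_re, Complex.re_ofReal_mul]
  have h4 : (-c * conj 1 * e).re = -(c * e).re := by
    rw [map_one, mul_one, neg_mul, Complex.neg_re]
  rw [h1, h2, h3, h4, norm_neg, norm_one]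
  ring

end Crest.Agent.Quadric.Ana
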