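import Mathlib
import Crest.Agent.Quadric.Ana12

/-!
S0396 analysis, part 13: the value of the limit polynomial at points of `Γ`.
-/

set_option autoImplicit false

namespace Crest.Agent.Quadric.Ana

open Complex MeasureTheory Set Filter Topology
open scoped ComplexConjugate ContDiff

/-- `S1` of a convergent family -/
theorem S1_lim (N : ℕ) (g : ℕ → ℤ → ℂ) (l : ℤ → ℂ) (h : ∀ m, Tendsto (fun k => g k m) UU (𝓝 (l m))) :
    Tendsto (fun k => S1 N (g k)) UU (𝓝 (S1 N l)) := by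
  unfold S1
  exact (tendsto_finsetSum _ fun j _ => tendsto_finsetSum _ fun i _ => h _).const_mul _

/-- the index range of the non-vanishing modes -/
noncomputable def JJ : Finset ℤ := Finset.Icc (-6) 6

namespace FamN

variable (F : FamN)

/-- value of the limit polynomial -/
noncomputable def KK (s θ₀ t φ₀ : ℝ) : ℂ :=
  ∑ m ∈ JJ, ∑ n ∈ JJ, cexp (m * θ₀ * I) * cexp (n * φ₀ * I) * F.h m n s t

/-- Fejér average of the limit of `a` -/
noncomputable def aR (N : ℕ) (s θ₀ : ℝ) : ℂ := S1 N (fun m => cexp (m * θ₀ * I) * F.α m 0 s 0)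

theorem main_ineq (s θ₀ t φ₀ : ℝ) (hg : gL (s + θ₀ * I) (t + φ₀ * I) = 0) :
    ∃ C : ℝ, 0 ≤ C ∧ ∀ N : ℕ, 1 ≤ N → ∀ τ : ℝ, 0 < τ → ∀ k,
      ‖M2 (fun z w => ((wN N θ₀ φ₀ z w : ℝ) : ℂ) * (F.S k).e z w) 0 0 s t -
        conj (hL (s + θ₀ * I) (t + φ₀ * I)) *
          ((A2 (fun z w => wN N θ₀ φ₀ z w * (F.S k).a z w) s t : ℝ) : ℂ)‖ ≤
      τ / 2 * C + 1 / (2 * τ) * (C / N) := by
  obtain ⟨C, hC0, hC⟩ := F.gamma_ineq s θ₀ t φ₀ hg
  set A := Real.exp (14 * |s + Real.pi| + 14 * |t + Real.pi|) with hA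
  have hApos : 0 < A := Real.exp_pos _
  set c := hL (s + θ₀ * I) (t + φ₀ * I) with hc
  refine ⟨(2 * Real.pi) ^ 2 * A + 8 * (2 * Real.pi) ^ 2 * C, by positivity, fun N hN τ hτ k => ?_⟩
  have hNr : (0 : ℝ) < N := by exact_mod_cast hN
  set W := wN N θ₀ φ₀ with hW
  have jW : JC W := wN_jc N θ₀ φ₀
  have ja := (F.S k).sa.jc
  have jb := (F.S k).sb.jc
  have je := (F.S k).se.jc
  set aK := A2 (fun z w => W z w * (F.S k).a z w) s t with haK
  set bK := A2 (fun z w => W z w * (F.S k).b z w) s t with hbK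
  set eK := M2 (fun z w => ((W z w : ℝ) : ℂ) * (F.S k).e z w) 0 0 s t with heK
  have jN : ∀ α β : ℂ, JC (fun z w => Nf ((F.S k).a z w) ((F.S k).e z w) ((F.S k).b z w) α β) := by
    intro α β
    unfold Nf
    exact ((continuous_const.mul ja).add (continuous_const.mul
      (Complex.continuous_re.comp (continuous_const.mul je)))).add (continuous_const.mul jb)
  have psd : ∀ α β : ℂ, 0 ≤ Nf aK eK bK α β := by
    intro α β
    rw [haK, hbK, heK, ← A2_Nf ja jb je jW]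
    exact A2_nonneg (fun z w => mul_nonneg (wN_nonneg _ _ _ _ _) ((F.S k).Nf_nonneg z w α β)) s t
  -- Q
  have hQ : Nf aK eK bK (-c) 1 ≤ 8 * (2 * Real.pi) ^ 2 * C / N := by
    rw [haK, hbK, heK, ← A2_Nf ja jb je jW]
    have h1 : A2 (fun z w => W z w * Nf ((F.S k).a z w) ((F.S k).e z w) ((F.S k).b z w) (-c) 1) s t ≤
        A2 (fun z w => (4 * C / N) * Fk N (z.im - θ₀) + (4 * C / N) * Fk N (w.im - φ₀)) s t := by
      refine A2_mono'' (jW.mul (jN _ _)) ((continuous_const.mul (Fk_jc1 N θ₀)).add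
        (continuous_const.mul (Fk_jc2 N φ₀))) s t fun θ hθ φ hφ => ?_
      have h2 := hC k θ hθ φ hφ
      have h3 := Fk_mul_le N (θ - θ₀)
      have h4 := Fk_mul_le N (φ - φ₀)
      have f1 := Fk_nonneg N (θ - θ₀)
      have f2 := Fk_nonneg N (φ - φ₀)
      have e1 : ((s : ℂ) + θ * I).im = θ := by simp
      have e2 : ((t : ℂ) + φ * I).im = φ := by simp
      simp only [hW, wN, e1, e2]
      calc Fk N (θ - θ₀) * Fk N (φ - φ₀) * Nf ((F.S k).a (s + θ * I) (t + φ * I))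
            ((F.S k).e (s + θ * I) (t + φ * I)) ((F.S k).b (s + θ * I) (t + φ * I)) (-c) 1
          ≤ Fk N (θ - θ₀) * Fk N (φ - φ₀) * (C * (‖1 - cexp (((θ - θ₀ : ℝ) : ℂ) * I)‖ ^ 2 +
              ‖1 - cexp (((φ - φ₀ : ℝ) : ℂ) * I)‖ ^ 2)) :=
            mul_le_mul_of_nonneg_left h2 (mul_nonneg f1 f2)
        _ = C * (Fk N (φ - φ₀) * (Fk N (θ - θ₀) * ‖1 - cexp (((θ - θ₀ : ℝ) : ℂ) * I)‖ ^ 2) +
            Fk N (θ - θ₀) * (Fk N (φ - φ₀) * ‖1 - cexp (((φ - φ₀ : ℝ) : ℂ) * I)‖ ^ 2)) := by ring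
        _ ≤ C * (Fk N (φ - φ₀) * (4 / N) + Fk N (θ - θ₀) * (4 / N)) := by gcongr
        _ = _ := by ring
    refine h1.trans (le_of_eq ?_)
    rw [A2_add (continuous_const.mul (Fk_jc1 N θ₀)) (continuous_const.mul (Fk_jc2 N φ₀)),
      A2_smul, A2_smul, A2_Fk1 hN, A2_Fk2 hN]
    ring
  have haKle : aK ≤ (2 * Real.pi) ^ 2 * A := by
    have h1 : aK ≤ A2 (fun z w => A * W z w) s t := by
      refine A2_mono'' (jW.mul ja) (continuous_const.mul jW) s t fun θ _ φ _ => ?_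
      have h2 := F.a_ptb k (s + θ * I) (t + φ * I)
      have e1 : ((s : ℂ) + θ * I).re = s := by simp
      have e2 : ((t : ℂ) + φ * I).re = t := by simp
      rw [e1, e2] at h2
      rw [mul_comm]
      exact mul_le_mul_of_nonneg_right h2 (wN_nonneg _ _ _ _ _)
    rw [A2_smul, hW, A2_wN hN] at h1
    linarith
  have key := psd_bound (a := aK) (b := Nf aK eK bK (-c) 1) (e := eK - conj c * aK)
    (fun l m => by rw [Nf_basis]; exact psd _ _) hτ
  refine key.trans ?_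
  have hq0 : 0 ≤ 8 * (2 * Real.pi) ^ 2 * C := by positivity
  have hp0 : 0 ≤ (2 * Real.pi) ^ 2 * A := by positivity
  have t1 : τ / 2 * aK ≤ τ / 2 * ((2 * Real.pi) ^ 2 * A + 8 * (2 * Real.pi) ^ 2 * C) := by
    gcongr
    linarith
  have t2 : 1 / (2 * τ) * Nf aK eK bK (-c) 1 ≤
      1 / (2 * τ) * (((2 * Real.pi) ^ 2 * A + 8 * (2 * Real.pi) ^ 2 * C) / N) := by
    gcongr
    refine hQ.trans ?_
    gcongr
    linarith
  linarith

theorem limit_ineq (s θ₀ t φ₀ : ℝ) (hg : gL (s + θ₀ * I) (t + φ₀ * I) = 0) :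
    ∃ C : ℝ, 0 ≤ C ∧ ∀ N : ℕ, 1 ≤ N → ∀ τ : ℝ, 0 < τ →
      ‖S1 N (fun m => S1 N (fun n => cexp (m * θ₀ * I) * cexp (n * φ₀ * I) * F.h m n s t)) -
        conj (hL (s + θ₀ * I) (t + φ₀ * I)) * F.aR N s θ₀‖ ≤
      τ / 2 * C + 1 / (2 * τ) * (C / N) := by
  obtain ⟨C, hC0, hC⟩ := F.main_ineq s θ₀ t φ₀ hg
  refine ⟨C, hC0, fun N hN τ hτ => ?_⟩
  have he : ∀ k, M2 (fun z w => ((wN N θ₀ φ₀ z w : ℝ) : ℂ) * (F.S k).e z w) 0 0 s t =
      S1 N (fun m => S1 N (fun n => cexp (m * θ₀ * I) * cexp (n * φ₀ * I) * M2 (F.S k).e m n s t)) := by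
    intro k
    rw [← M2_fejer N _ (F.S k).se.jc]
    congr 1
    funext z w
    unfold wN
    push_cast
    rfl
  have ha : ∀ k, ((A2 (fun z w => wN N θ₀ φ₀ z w * (F.S k).a z w) s t : ℝ) : ℂ) =
      S1 N (fun m => S1 N (fun n => cexp (m * θ₀ * I) * cexp (n * φ₀ * I) *
        M2 (fun z w => ((F.S k).a z w : ℂ)) m n s t)) := by
    intro k
    rw [← M2_fejer N _ (Complex.continuous_ofReal.comp (F.S k).sa.jc : JC (fun z w => ((F.S k).a z w : ℂ))),
      ← M2_ofReal]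
    congr 1
    funext z w
    unfold wN
    push_cast
    rfl
  have hel : Tendsto (fun k => M2 (fun z w => ((wN N θ₀ φ₀ z w : ℝ) : ℂ) * (F.S k).e z w) 0 0 s t) UU
      (𝓝 (S1 N (fun m => S1 N (fun n => cexp (m * θ₀ * I) * cexp (n * φ₀ * I) * F.h m n s t)))) := by
    simp only [he]
    exact S1_lim N _ _ fun m => S1_lim N _ _ fun n => (F.h_tendsto m n s t).const_mul _
  have hal : Tendsto (fun k => ((A2 (fun z w => wN N θ₀ φ₀ z w * (F.S k).a z w) s t : ℝ) : ℂ)) UU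
      (𝓝 (S1 N (fun m => S1 N (fun n => cexp (m * θ₀ * I) * cexp (n * φ₀ * I) * F.α m n s t)))) := by
    simp only [ha]
    exact S1_lim N _ _ fun m => S1_lim N _ _ fun n => (F.α_tendsto m n s t).const_mul _
  have haR : S1 N (fun m => S1 N (fun n => cexp (m * θ₀ * I) * cexp (n * φ₀ * I) * F.α m n s t)) =
      F.aR N s θ₀ := by
    unfold aR
    congr 1
    funext m
    rw [S1_delta hN _ (fun n hn => by rw [F.α_zero m n hn, mul_zero]), F.α_const m s t]
    simp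
  rw [haR] at hal
  exact le_of_tendsto (hel.sub (hal.const_mul _)).norm
    (Filter.Eventually.of_forall fun k => hC N hN τ hτ k)

/-- the Fejér averages of the limit of `a` converge to the polynomial at points of `Γ` -/
theorem limit_at (s θ₀ t φ₀ : ℝ) (hg : gL (s + θ₀ * I) (t + φ₀ * I) = 0) :
    Tendsto (fun N => conj (hL (s + θ₀ * I) (t + φ₀ * I)) * F.aR N s θ₀) atTop
      (𝓝 (F.KK s θ₀ t φ₀)) := by
  obtain ⟨C, hC0, hC⟩ := F.limit_ineq s θ₀ t φ₀ hg
  have h1 : Tendsto (fun N => S1 N (fun m => S1 N (fun n =>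
      cexp (m * θ₀ * I) * cexp (n * φ₀ * I) * F.h m n s t))) atTop (𝓝 (F.KK s θ₀ t φ₀)) := by
    unfold KK
    refine S2_tendsto JJ (fun m n => cexp (m * θ₀ * I) * cexp (n * φ₀ * I) * F.h m n s t) ?_
    intro m n h
    have : F.h m n s t = 0 := by
      rcases h with h | h
      · simp only [JJ, Finset.mem_Icc, not_and_or, not_le] at h
        rcases h with h | h
        · exact F.h_neg m n (by omega) s t
        · exact F.h_big m n h s t
      · simp only [JJ, Finset.mem_Icc, not_and_or, not_le] at h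
        rcases h with h | h
        · exact F.h_big2 m n h s t
        · exact F.h_pos2 m n (by omega) s t
    rw [this, mul_zero]
  have h2 : Tendsto (fun N => S1 N (fun m => S1 N (fun n =>
      cexp (m * θ₀ * I) * cexp (n * φ₀ * I) * F.h m n s t)) -
        conj (hL (s + θ₀ * I) (t + φ₀ * I)) * F.aR N s θ₀) atTop (𝓝 0) := by
    rw [tendsto_zero_iff_norm_tendsto_zero]
    have h3 : Tendsto (fun N : ℕ => C * (Real.sqrt N)⁻¹) atTop (𝓝 0) := by
      have : Tendsto (fun N : ℕ => (Real.sqrt N)⁻¹) atTop (𝓝 0) :=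
        tendsto_inv_atTop_zero.comp (Real.tendsto_sqrt_atTop.comp tendsto_natCast_atTop_atTop)
      simpa using this.const_mul C
    refine squeeze_zero' (Filter.Eventually.of_forall fun _ => norm_nonneg _) ?_ h3
    filter_upwards [eventually_ge_atTop 1] with N hN
    have hNr : (0 : ℝ) < N := by exact_mod_cast hN
    have hs : 0 < Real.sqrt N := Real.sqrt_pos.2 hNr
    refine (hC N hN (Real.sqrt N)⁻¹ (inv_pos.2 hs)).trans (le_of_eq ?_)
    have hss : (N : ℝ) = Real.sqrt N * Real.sqrt N := (Real.mul_self_sqrt hNr.le).symm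
    rw [show C / (N : ℝ) = C / (Real.sqrt N * Real.sqrt N) by rw [← hss]]
    field_simp
    ring
  have h3 := h1.sub h2
  simpa using h3

end FamN

end Crest.Agent.Quadric.Ana
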