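import Mathlib
import Crest.Agent.Quadric.Ana13

/-!
S0396 analysis, final part: the limit polynomial vanishes, contradiction.
-/

set_option autoImplicit false

namespace Crest.Agent.Quadric.Ana

open Complex MeasureTheory Set Filter Topology
open scoped ComplexConjugate ContDiff

theorem coef_zero (n : ℕ) (d : ℕ → ℂ) (h : ∀ u : ℂ, ∑ m ∈ Finset.range n, d m * u ^ m = 0) :
    ∀ m < n, d m = 0 := by
  set p : Polynomial ℂ := ∑ m ∈ Finset.range n, Polynomial.C (d m) * Polynomial.X ^ m with hp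
  have h1 : p = 0 := by
    apply Polynomial.funext
    intro u
    rw [hp, Polynomial.eval_finsetSum]
    simpa using h u
  intro m hm
  have h2 : p.coeff m = d m := by
    rw [hp, Polynomial.finsetSum_coeff]
    simp only [Polynomial.coeff_C_mul, Polynomial.coeff_X_pow]
    rw [Finset.sum_eq_single m]
    · simp
    · intro b _ hb; rw [if_neg hb.symm, mul_zero]
    · intro h3; exact absurd (Finset.mem_range.2 hm) h3
  rw [← h2, h1, Polynomial.coeff_zero]

theorem real_to_complex {f : ℂ → ℂ} (hf : Differentiable ℂ f) (h : ∀ s : ℝ, f s = 0) (z : ℂ) :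
    f z = 0 := by
  have h1 : AnalyticOnNhd ℂ f univ := fun z _ => hf.analyticAt z
  have h2 : AnalyticOnNhd ℂ (fun _ : ℂ => (0 : ℂ)) univ := fun z _ => analyticAt_const
  have h3 : ∃ᶠ z in 𝓝[≠] (0 : ℂ), f z = (fun _ => 0) z := by
    have ht : Tendsto (fun n : ℕ => (((1 : ℝ) / (n + 1) : ℝ) : ℂ)) atTop (𝓝[≠] 0) := by
      rw [tendsto_nhdsWithin_iff]
      constructor
      · have := (Complex.continuous_ofReal.tendsto 0).comp
          (tendsto_one_div_add_atTop_nhds_zero_nat (𝕜 := ℝ))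
        simpa [Function.comp_def] using this
      · refine Filter.Eventually.of_forall fun n => ?_
        simp only [mem_compl_iff, mem_singleton_iff, Complex.ofReal_eq_zero]
        positivity
    refine ht.frequently ?_
    exact (Filter.Eventually.of_forall fun n => h _).frequently
  exact congrFun (h1.eq_of_frequently_eq h2 h3) z

/-- a polynomial in `x, x̄` vanishing on `ℂ` vanishes as a function of two variables -/
theorem polarize {P : ℂ → ℂ → ℂ} (h1 : ∀ A B C D : ℂ, Differentiable ℂ fun s => P (A * s + B) (C * s + D))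
    (h : ∀ x : ℂ, P x (conj x) = 0) (u v : ℂ) : P u v = 0 := by
  have step1 : ∀ (t : ℝ) (s : ℂ), P (s + t * I) (s - t * I) = 0 := by
    intro t
    refine real_to_complex (f := fun s => P (s + t * I) (s - t * I)) ?_ ?_
    · have := h1 1 (t * I) 1 (-(t * I))
      simpa [sub_eq_add_neg] using this
    · intro s
      have := h (s + t * I)
      have e : conj ((s : ℂ) + t * I) = s - t * I := by simp [sub_eq_add_neg]
      rwa [e] at this
  have step2 : ∀ (s t : ℂ), P (s + t * I) (s - t * I) = 0 := by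
    intro s
    refine real_to_complex (f := fun t => P (s + t * I) (s - t * I)) ?_ (fun t => step1 t s)
    have e : (fun t => P (s + t * I) (s - t * I)) = fun t => P (I * t + s) (-I * t + s) := by
      funext t
      congr 1 <;> ring
    rw [e]
    exact h1 I s (-I) s
  have := step2 ((u + v) / 2) ((u - v) / (2 * I))
  have e1 : (u + v) / 2 + (u - v) / (2 * I) * I = u := by
    field_simp; ring
  have e2 : (u + v) / 2 - (u - v) / (2 * I) * I = v := by
    field_simp; ring
  rwa [e1, e2] at this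

/-- final algebra for one row -/
theorem row_zero {d : ℕ → ℂ}
    (h2 : ∀ v : ℂ, ∑ l ∈ Finset.range 7, d l * (((1 - ζ) * v) ^ l) = ∑ l ∈ Finset.range 7, d l * v ^ l)
    (h3 : ∀ v : ℂ, ∑ l ∈ Finset.range 7, d l * ((6 + (3 - 2 * (1 - ζ)) * v) ^ l *
      ((3 * (1 - ζ) - 2) + (1 - ζ) * v) ^ (6 - l)) = ∑ l ∈ Finset.range 7, d l * v ^ l) :
    ∀ l < 7, d l = 0 := by
  have hz : ∀ l < 7, d l * ((1 - ζ) ^ l - 1) = 0 := by
    apply coef_zero 7
    intro u
    have := h2 u
    rw [← sub_eq_zero, ← Finset.sum_sub_distrib] at this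
    rw [← this]
    refine Finset.sum_congr rfl fun l _ => ?_
    rw [mul_pow]; ring
  have r := zeta_rel
  have hz0 := zeta_ne_zero
  have hz1 := zeta_ne_one
  have h1' : (1 - ζ) ≠ 0 := sub_ne_zero.2 hz1.symm
  have d1 : d 1 = 0 := by
    have := hz 1 (by norm_num)
    rcases mul_eq_zero.1 this with h | h
    · exact h
    · exfalso; apply hz0; linear_combination -h
  have d2 : d 2 = 0 := by
    have := hz 2 (by norm_num)
    rcases mul_eq_zero.1 this with h | h
    · exact h
    · exfalso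
      -- (1-ζ)^2 = 1 - 2ζ + ζ² = -ζ ; so -ζ - 1 = 0
      have h4 : ζ = -1 := by linear_combination -h + r
      rw [h4] at r; norm_num at r
  have d3 : d 3 = 0 := by
    have := hz 3 (by norm_num)
    rcases mul_eq_zero.1 this with h | h
    · exact h
    · exfalso
      have h4 : (2 : ℂ) = 0 := by linear_combination -h + (2 - ζ) * r
      norm_num at h4
  have d4 : d 4 = 0 := by
    have := hz 4 (by norm_num)
    rcases mul_eq_zero.1 this with h | h
    · exact h
    · exfalso
      have h4 : ζ = 2 := by linear_combination h - (ζ ^ 2 - 3 * ζ + 2) * r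
      rw [h4] at r; norm_num at r
  have d5 : d 5 = 0 := by
    have := hz 5 (by norm_num)
    rcases mul_eq_zero.1 this with h | h
    · exact h
    · exfalso
      have h4 : ζ = 1 := by linear_combination h + (ζ ^ 3 - 4 * ζ ^ 2 + 5 * ζ - 1) * r
      exact hz1 h4
  -- the third relation
  set A : ℂ := 3 * (1 - ζ) - 2 with hA
  set B : ℂ := 3 - 2 * (1 - ζ) with hB
  set Z : ℂ := 1 - ζ with hZ
  have hAB : A * B - 6 * Z = Z := by
    rw [hA, hB, hZ]; linear_combination (-6 : ℂ) * r
  have key : ∀ l < 7, (fun j : ℕ => d 0 * ((Nat.choose 6 j : ℂ) * A ^ (6 - j) * Z ^ j) +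
      d 6 * ((Nat.choose 6 j : ℂ) * 6 ^ (6 - j) * B ^ j) -
      (if j = 0 then d 0 else 0) - (if j = 6 then d 6 else 0)) l = 0 := by
    apply coef_zero 7
    intro v
    have := h3 v
    simp only [Finset.sum_range_succ, Finset.sum_range_zero, d1, d2, d3, d4, d5] at this ⊢
    norm_num [Nat.choose] at this ⊢
    linear_combination this
  have k1 := key 1 (by norm_num)
  have k2 := key 2 (by norm_num)
  simp only [Nat.choose] at k1 k2
  norm_num at k1 k2
  have hZne : Z ≠ 0 := h1'
  have hABne : A * B = 7 * Z := by linear_combination hAB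
  have hAne : A ≠ 0 := by
    intro h; rw [h, zero_mul] at hABne
    exact hZne (by linear_combination (-1/7 : ℂ) * hABne)
  have hBne : B ≠ 0 := by
    intro h; rw [h, mul_zero] at hABne
    exact hZne (by linear_combination (-1/7 : ℂ) * hABne)
  have d0 : d 0 = 0 := by
    have e : d 0 * (A ^ 4 * Z * Z) = 0 := by
      have e1 : d 0 * (A ^ 4 * Z * (A * B - 6 * Z)) = 0 := by
        linear_combination (B / 6) * k1 - (6 / 15) * k2
      rwa [hAB] at e1
    rcases mul_eq_zero.1 e with h | h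
    · exact h
    · exfalso
      exact mul_ne_zero (mul_ne_zero (pow_ne_zero 4 hAne) hZne) hZne h
  have d6 : d 6 = 0 := by
    rw [d0] at k1
    have : d 6 * B = 0 := by linear_combination (1 / 46656) * k1
    exact (mul_eq_zero.1 this).resolve_right hBne
  intro l hl
  interval_cases l <;> assumption

namespace FamN

variable (F : FamN)

noncomputable def cc (m l : ℕ) : ℂ := F.h m (-l) 0 0

/-- two-variable polynomial -/
noncomputable def PP (u v : ℂ) : ℂ :=
  ∑ m ∈ Finset.range 7, ∑ l ∈ Finset.range 7, F.cc m l * u ^ m * v ^ l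

theorem sum_JJ_nonneg (f : ℤ → ℂ) (hf : ∀ m < 0, f m = 0) :
    ∑ m ∈ JJ, f m = ∑ m ∈ Finset.range 7, f m := by
  have h1 : (Finset.range 7).image (fun m : ℕ => (m : ℤ)) ⊆ JJ := by
    intro m hm
    simp only [Finset.mem_image, Finset.mem_range] at hm
    obtain ⟨a, ha, rfl⟩ := hm
    simp only [JJ, Finset.mem_Icc]
    omega
  rw [← Finset.sum_subset h1]
  · rw [Finset.sum_image (by intro a _ b _ h; simpa using h)]
  · intro m hm hm'
    apply hf
    by_contra hneg
    apply hm'
    simp only [JJ, Finset.mem_Icc] at hm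
    simp only [Finset.mem_image, Finset.mem_range]
    exact ⟨m.toNat, by omega, by omega⟩

theorem sum_JJ_nonpos (f : ℤ → ℂ) (hf : ∀ m, 0 < m → f m = 0) :
    ∑ m ∈ JJ, f m = ∑ m ∈ Finset.range 7, f (-m) := by
  have h1 : (Finset.range 7).image (fun m : ℕ => (-(m : ℤ))) ⊆ JJ := by
    intro m hm
    simp only [Finset.mem_image, Finset.mem_range] at hm
    obtain ⟨a, ha, rfl⟩ := hm
    simp only [JJ, Finset.mem_Icc]
    omega
  rw [← Finset.sum_subset h1]
  · rw [Finset.sum_image (by intro a _ b _ h; simpa using h)]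
  · intro m hm hm'
    apply hf
    by_contra hneg
    apply hm'
    simp only [JJ, Finset.mem_Icc] at hm
    simp only [Finset.mem_image, Finset.mem_range]
    exact ⟨(-m).toNat, by omega, by omega⟩

theorem KK_eq (s θ₀ t φ₀ : ℝ) :
    F.KK s θ₀ t φ₀ = F.PP (cexp (s + θ₀ * I)) (conj (cexp (t + φ₀ * I))) := by
  unfold KK PP
  rw [sum_JJ_nonneg]
  · refine Finset.sum_congr rfl fun m _ => ?_
    rw [sum_JJ_nonpos]
    · refine Finset.sum_congr rfl fun l _ => ?_
      rw [F.h_formula, ← Complex.exp_conj, ← Complex.exp_nat_mul, ← Complex.exp_nat_mul]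
      unfold cc
      have e : cexp (((m : ℕ) : ℤ) * θ₀ * I) * cexp (((-(l : ℤ) : ℤ) : ℂ) * φ₀ * I) *
          ((Real.exp (((m : ℕ) : ℤ) * s) : ℂ) * (Real.exp (-(((-(l : ℤ) : ℤ) : ℝ) * t)) : ℂ)) =
          cexp (m * (s + θ₀ * I)) * cexp (l * conj (t + φ₀ * I)) := by
        rw [Complex.ofReal_exp, Complex.ofReal_exp, ← Complex.exp_add, ← Complex.exp_add,
          ← Complex.exp_add, ← Complex.exp_add]
        congr 1
        simp
        ring
      linear_combination F.h m (-l) 0 0 * e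
    · intro n hn
      rw [F.h_pos2 _ n hn, mul_zero]
  · intro m hm
    refine Finset.sum_eq_zero fun n _ => ?_
    rw [F.h_neg m n hm, mul_zero]

theorem exp_re_im (z : ℂ) : ((z.re : ℂ) + (z.im : ℂ) * I) = z := Complex.re_add_im z

/-- relation at a point of `Γ`, complex notation -/
theorem limit_at' (z w : ℂ) (hg : gL z w = 0) :
    Tendsto (fun N => conj (hL z w) * F.aR N z.re z.im) atTop (𝓝 (F.PP (cexp z) (conj (cexp w)))) := by
  have h := F.limit_at z.re z.im w.re w.im (by rw [exp_re_im, exp_re_im]; exact hg)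
  rw [exp_re_im, exp_re_im, F.KK_eq, exp_re_im, exp_re_im] at h
  exact h

theorem aR_lim (z : ℂ) : Tendsto (fun N => F.aR N z.re z.im) atTop (𝓝 (F.PP (cexp z) (conj (cexp z)))) := by
  have h := F.limit_at' z z (by unfold gL gamH0; ring)
  have e : hL z z = 1 := hH0_v1 _
  rw [e] at h
  simpa using h

theorem rel2 (x : ℂ) (hx : x ≠ 0) : F.PP x (conj (ζ * x)) = F.PP x (conj x) := by
  set z := Complex.log x with hz
  have hez : cexp z = x := Complex.exp_log hx
  set w := z + Real.pi / 3 * I with hw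
  have hew : cexp w = ζ * x := by
    rw [hw, Complex.exp_add, hez, ← zeta_eq_exp]; ring
  have h := F.limit_at' z w (by
    unfold gL gamH0
    rw [hez, hew]; ring)
  have e : hL z w = 1 := by
    unfold hL
    rw [hez, hew]
    exact hH0_v2 x
  rw [e] at h
  have h2 := F.aR_lim z
  simp only [map_one, one_mul] at h
  rw [hez, hew] at h
  rw [hez] at h2
  exact tendsto_nhds_unique h h2

theorem PP_smul (x r s : ℂ) (hr : r ≠ 0) :
    r ^ 6 * F.PP x (s / r) = ∑ m ∈ Finset.range 7, ∑ l ∈ Finset.range 7,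
      F.cc m l * x ^ m * (s ^ l * r ^ (6 - l)) := by
  unfold PP
  rw [Finset.mul_sum]
  refine Finset.sum_congr rfl fun m _ => ?_
  rw [Finset.mul_sum]
  refine Finset.sum_congr rfl fun l hl => ?_
  have hl' : l ≤ 6 := by
    rw [Finset.mem_range] at hl; omega
  have e : r ^ 6 = r ^ l * r ^ (6 - l) := by rw [← pow_add]; congr 1; omega
  rw [e, div_pow]
  field_simp

theorem rel3 (x : ℂ) (hx : x ≠ 0) (hr : rho x ≠ 0) (hs : sig x ≠ 0) :
    ∑ m ∈ Finset.range 7, ∑ l ∈ Finset.range 7,
      F.cc m l * x ^ m * (conj (sig x) ^ l * conj (rho x) ^ (6 - l)) = F.PP x (conj x) := by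
  set z := Complex.log x with hz
  have hez : cexp z = x := Complex.exp_log hx
  have hy : sig x / rho x ≠ 0 := div_ne_zero hs hr
  set w := Complex.log (sig x / rho x) with hw
  have hew : cexp w = sig x / rho x := Complex.exp_log hy
  have h := F.limit_at' z w (by
    unfold gL gamH0
    rw [hez, hew]
    have : rho x * (sig x / rho x) = sig x := by field_simp
    rw [this]; ring)
  have e : rho x ^ 6 * hL z w = 1 := by
    unfold hL
    rw [hez, hew, ← hH0_smul]
    have : rho x * (sig x / rho x) = sig x := by field_simp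
    rw [this, mul_one]
    exact hH0_v3 x
  have h2 := F.aR_lim z
  rw [hez] at h2
  rw [hez, hew] at h
  have h3 := h.const_mul (conj (rho x) ^ 6)
  have e2 : ∀ N, conj (rho x) ^ 6 * (conj (hL z w) * F.aR N z.re z.im) = F.aR N z.re z.im := by
    intro N
    have : conj (rho x) ^ 6 * conj (hL z w) = 1 := by
      rw [← map_pow, ← map_mul, e, map_one]
    rw [← mul_assoc, this, one_mul]
  simp only [e2] at h3
  have h4 := tendsto_nhds_unique h2 h3
  rw [h4, map_div₀]
  rw [PP_smul F x _ _ ((map_ne_zero _).2 hr)]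

theorem conj_rho (x : ℂ) : conj (rho x) = (3 * (1 - ζ) - 2) + (1 - ζ) * conj x := by
  unfold rho
  rw [map_add, map_sub, map_mul, map_mul, zeta_conj]
  simp [map_ofNat]

theorem conj_sig (x : ℂ) : conj (sig x) = 6 + (3 - 2 * (1 - ζ)) * conj x := by
  unfold sig
  rw [map_add, map_mul, map_sub, map_mul, zeta_conj]
  simp [map_ofNat]

theorem cc_zero (m l : ℕ) (hm : m < 7) (hl : l < 7) : F.cc m l = 0 := by
  -- relation 2 for all x
  have hd0 : Dense ({0}ᶜ : Set ℂ) := dense_compl_singleton 0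
  have r2 : ∀ x : ℂ, F.PP x ((1 - ζ) * conj x) = F.PP x (conj x) := by
    have c1 : Continuous fun x => F.PP x ((1 - ζ) * conj x) := by
      unfold PP
      have := Complex.continuous_conj
      fun_prop
    have c2 : Continuous fun x => F.PP x (conj x) := by
      unfold PP
      have := Complex.continuous_conj
      fun_prop
    have := Continuous.ext_on hd0 c1 c2 (fun x hx => by
      have h := F.rel2 x (by simpa using hx)
      rw [map_mul, zeta_conj] at h
      exact h)
    exact fun x => congrFun this x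
  have r3 : ∀ x : ℂ, ∑ m ∈ Finset.range 7, ∑ l ∈ Finset.range 7,
      F.cc m l * x ^ m * ((6 + (3 - 2 * (1 - ζ)) * conj x) ^ l *
        ((3 * (1 - ζ) - 2) + (1 - ζ) * conj x) ^ (6 - l)) = F.PP x (conj x) := by
    have hfin : ({0, -(3 * ζ - 2) / ζ, -6 / (3 - 2 * ζ)} : Set ℂ).Countable :=
      (Set.toFinite _).countable
    have hd := hfin.dense_compl ℂ
    have c1 : Continuous fun x => ∑ m ∈ Finset.range 7, ∑ l ∈ Finset.range 7,
      F.cc m l * x ^ m * ((6 + (3 - 2 * (1 - ζ)) * conj x) ^ l *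
        ((3 * (1 - ζ) - 2) + (1 - ζ) * conj x) ^ (6 - l)) := by
      have := Complex.continuous_conj
      fun_prop
    have c2 : Continuous fun x => F.PP x (conj x) := by
      unfold PP
      have := Complex.continuous_conj
      fun_prop
    have hB : (3 - 2 * ζ) ≠ 0 := by
      intro h
      have h1 : ζ = 3 / 2 := by linear_combination (-1 / 2 : ℂ) * h
      have r := zeta_rel
      rw [h1] at r; norm_num at r
    have := Continuous.ext_on hd c1 c2 (fun x hx => by
      simp only [mem_compl_iff, mem_insert_iff, mem_singleton_iff, not_or] at hx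
      have h := F.rel3 x hx.1 (by
        intro h
        apply hx.2.1
        rw [eq_div_iff zeta_ne_zero]
        unfold rho at h
        linear_combination h) (by
        intro h
        apply hx.2.2
        rw [eq_div_iff hB]
        unfold sig at h
        linear_combination h)
      rw [conj_rho, conj_sig] at h
      exact h)
    exact fun x => congrFun this x
  -- polarize
  have p2 : ∀ u v : ℂ, F.PP u ((1 - ζ) * v) - F.PP u v = 0 := by
    refine polarize (P := fun u v => F.PP u ((1 - ζ) * v) - F.PP u v) ?_ ?_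
    · intro A B C D
      unfold PP
      fun_prop
    · intro x; exact sub_eq_zero.2 (r2 x)
  have p3 : ∀ u v : ℂ, (∑ m ∈ Finset.range 7, ∑ l ∈ Finset.range 7,
      F.cc m l * u ^ m * ((6 + (3 - 2 * (1 - ζ)) * v) ^ l *
        ((3 * (1 - ζ) - 2) + (1 - ζ) * v) ^ (6 - l))) - F.PP u v = 0 := by
    refine polarize (P := fun u v => (∑ m ∈ Finset.range 7, ∑ l ∈ Finset.range 7,
      F.cc m l * u ^ m * ((6 + (3 - 2 * (1 - ζ)) * v) ^ l *
        ((3 * (1 - ζ) - 2) + (1 - ζ) * v) ^ (6 - l))) - F.PP u v) ?_ ?_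
    · intro A B C D
      unfold PP
      fun_prop
    · intro x; exact sub_eq_zero.2 (r3 x)
  refine row_zero (d := fun l => F.cc m l) ?_ ?_ l hl
  · intro v
    have h := coef_zero 7 (fun m => ∑ l ∈ Finset.range 7, F.cc m l * ((1 - ζ) * v) ^ l -
      ∑ l ∈ Finset.range 7, F.cc m l * v ^ l) (by
      intro u
      have := p2 u v
      unfold PP at this
      rw [← Finset.sum_sub_distrib] at this
      rw [← this]
      refine Finset.sum_congr rfl fun m _ => ?_
      rw [sub_mul, Finset.sum_mul, Finset.sum_mul]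
      congr 1 <;> exact Finset.sum_congr rfl fun l _ => by ring) m hm
    exact sub_eq_zero.1 h
  · intro v
    have h := coef_zero 7 (fun m => ∑ l ∈ Finset.range 7, F.cc m l *
        ((6 + (3 - 2 * (1 - ζ)) * v) ^ l * ((3 * (1 - ζ) - 2) + (1 - ζ) * v) ^ (6 - l)) -
      ∑ l ∈ Finset.range 7, F.cc m l * v ^ l) (by
      intro u
      have := p3 u v
      unfold PP at this
      rw [← Finset.sum_sub_distrib] at this
      rw [← this]
      refine Finset.sum_congr rfl fun m _ => ?_
      rw [sub_mul, Finset.sum_mul, Finset.sum_mul]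
      congr 1 <;> exact Finset.sum_congr rfl fun l _ => by ring) m hm
    exact sub_eq_zero.1 h

theorem h_zero (m n : ℤ) : F.h m n 0 0 = 0 := by
  by_cases hm : m < 0
  · exact F.h_neg m n hm 0 0
  by_cases hm2 : 6 < m
  · exact F.h_big m n hm2 0 0
  by_cases hn : 0 < n
  · exact F.h_pos2 m n hn 0 0
  by_cases hn2 : n < -6
  · exact F.h_big2 m n hn2 0 0
  have h := F.cc_zero m.toNat (-n).toNat (by omega) (by omega)
  unfold cc at h
  have e1 : ((m.toNat : ℕ) : ℤ) = m := by omega
  have e2 : (-(((-n).toNat : ℕ) : ℤ)) = n := by omega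
  rwa [e1, e2] at h

/-- inequality near the diagonal, uniform on the unit torus -/
theorem diag_ineq : ∃ C : ℝ, 0 ≤ C ∧ ∀ k, ∀ θ ∈ Icc 0 (2 * Real.pi), ∀ φ ∈ Icc 0 (2 * Real.pi),
      Nf ((F.S k).a ((0 : ℝ) + θ * I) ((0 : ℝ) + φ * I)) ((F.S k).e ((0 : ℝ) + θ * I) ((0 : ℝ) + φ * I))
        ((F.S k).b ((0 : ℝ) + θ * I) ((0 : ℝ) + φ * I)) (-1) 1 ≤
      C * ‖1 - cexp (((θ - φ : ℝ) : ℂ) * I)‖ ^ 2 := by
  obtain ⟨Cn, hCn0, hCn⟩ := F.n_compact (torus_compact 0 0)
  -- cofactors
  set G : ℂ × ℂ → ℂ := fun p => (cexp p.2 - ζ * cexp p.1) * (rho (cexp p.1) * cexp p.2 - sig (cexp p.1)) with hG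
  set H : ℂ × ℂ → ℂ := fun p => (cexp p.2 - ζ * cexp p.1) *
    ((-1 + 10 * ζ) + (3 + 4 * ζ) * cexp p.1 + cexp p.1 ^ 2) * ((1 - 3 * ζ) - cexp p.2) ^ 4 with hH
  have cG : Continuous G := by rw [hG]; unfold rho sig; fun_prop
  have cH : Continuous H := by rw [hH]; fun_prop
  obtain ⟨CG, hCG⟩ := (torus_compact 0 0).exists_bound_of_continuousOn cG.continuousOn
  obtain ⟨CH, hCH⟩ := (torus_compact 0 0).exists_bound_of_continuousOn cH.continuousOn
  set A := Real.exp (14 * |(0 : ℝ) + Real.pi| + 14 * |(0 : ℝ) + Real.pi|) with hA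
  refine ⟨2 * (CG ^ 2 * Cn) + 2 * (CH ^ 2 * A), by positivity, fun k θ hθ φ hφ => ?_⟩
  set z : ℂ := (0 : ℝ) + θ * I with hz
  set w : ℂ := (0 : ℝ) + φ * I with hw
  set u := ‖1 - cexp (((θ - φ : ℝ) : ℂ) * I)‖ with hu
  have hmem : ((z, w) : ℂ × ℂ) ∈ ((fun q : ℝ × ℝ => (((((0 : ℝ) : ℂ) + q.1 * I), (((0 : ℝ) : ℂ) + q.2 * I)) : ℂ × ℂ)) ''
      (Icc 0 (2 * Real.pi) ×ˢ Icc 0 (2 * Real.pi))) := ⟨(θ, φ), ⟨hθ, hφ⟩, rfl⟩
  have hd : ‖cexp w - cexp z‖ = u := by
    rw [norm_sub_rev, hz, hw, norm_exp_sub, Real.exp_zero, one_mul]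
  have hg : ‖gL z w‖ ^ 2 ≤ CG ^ 2 * u ^ 2 := by
    have e : gL z w = (cexp w - cexp z) * G (z, w) := by
      simp only [hG]; unfold gL gamH0; ring
    rw [e, norm_mul, hd, mul_pow, mul_comm]
    have := hCG (z, w) hmem
    gcongr
  have hh : ‖hL z w - 1‖ ^ 2 ≤ CH ^ 2 * u ^ 2 := by
    have e : hL z w - 1 = (cexp w - cexp z) * H (z, w) := by
      simp only [hH]; unfold hL hH0; ring
    rw [e, norm_mul, hd, mul_pow, mul_comm]
    have := hCH (z, w) hmem
    gcongr
  have h1 := (F.S k).Nf_shift z w (hL z w) 1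
  have h2 : Nf ((F.S k).a z w) ((F.S k).e z w) ((F.S k).b z w) (-(hL z w)) 1 ≤ CG ^ 2 * u ^ 2 * Cn := by
    rw [← F.rel]
    have hn : F.n k z w ≤ Cn := hCn (z, w) hmem k
    have hn0 := F.n0 k z w
    gcongr
  have h3 : ‖hL z w - 1‖ ^ 2 * (F.S k).a z w ≤ CH ^ 2 * u ^ 2 * A := by
    have ha : (F.S k).a z w ≤ A := by
      have := F.a_ptb k z w
      have e1 : z.re = 0 := by simp [hz]
      have e2 : w.re = 0 := by simp [hw]
      rwa [e1, e2] at this
    have ha0 := (F.S k).a0 z w
    gcongr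
  calc _ ≤ _ := h1
    _ ≤ 2 * (CG ^ 2 * u ^ 2 * Cn) + 2 * (CH ^ 2 * u ^ 2 * A) := by linarith
    _ = _ := by ring

theorem diag_avg : ∃ C : ℝ, ∀ N : ℕ, 1 ≤ N → ∀ k,
    A2 (fun z w => Fk N (z.im - w.im) * (F.S k).a z w) 0 0 +
    A2 (fun z w => Fk N (z.im - w.im) * (F.S k).b z w) 0 0 -
    2 * (M2 (fun z w => ((Fk N (z.im - w.im) : ℝ) : ℂ) * (F.S k).e z w) 0 0 0 0).re ≤ C / N := by
  obtain ⟨C, hC0, hC⟩ := F.diag_ineq
  refine ⟨(2 * Real.pi) ^ 2 * (4 * C), fun N hN k => ?_⟩
  have jW : JC (fun z w : ℂ => Fk N (z.im - w.im)) :=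
    (Fk_cont N).comp ((Complex.continuous_im.comp continuous_fst).sub
      (Complex.continuous_im.comp continuous_snd))
  have ja := (F.S k).sa.jc
  have jb := (F.S k).sb.jc
  have je := (F.S k).se.jc
  have jN : JC (fun z w => Nf ((F.S k).a z w) ((F.S k).e z w) ((F.S k).b z w) (-1) 1) := by
    unfold Nf
    exact ((continuous_const.mul ja).add (continuous_const.mul
      (Complex.continuous_re.comp (continuous_const.mul je)))).add (continuous_const.mul jb)
  have h1 := A2_Nf ja jb je jW (-1) 1 0 0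
  have h2 : A2 (fun z w => Fk N (z.im - w.im) *
      Nf ((F.S k).a z w) ((F.S k).e z w) ((F.S k).b z w) (-1) 1) 0 0 ≤ A2 (fun _ _ => 4 * C / N) 0 0 := by
    refine A2_mono'' (jW.mul jN) continuous_const 0 0 fun θ hθ φ hφ => ?_
    have h3 := hC k θ hθ φ hφ
    have h4 := Fk_mul_le N (θ - φ)
    have f1 := Fk_nonneg N (θ - φ)
    have e1 : (((0 : ℝ) : ℂ) + θ * I).im = θ := by simp
    have e2 : (((0 : ℝ) : ℂ) + φ * I).im = φ := by simp
    simp only [e1, e2]
    calc _ ≤ Fk N (θ - φ) * (C * ‖1 - cexp (((θ - φ : ℝ) : ℂ) * I)‖ ^ 2) :=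
          mul_le_mul_of_nonneg_left h3 f1
      _ = C * (Fk N (θ - φ) * ‖1 - cexp (((θ - φ : ℝ) : ℂ) * I)‖ ^ 2) := by ring
      _ ≤ C * (4 / N) := by gcongr
      _ = _ := by ring
  rw [h1, A2_const] at h2
  unfold Nf at h2
  have e3 : (-1 * conj (1 : ℂ) * M2 (fun z w => ((Fk N (z.im - w.im) : ℝ) : ℂ) * (F.S k).e z w) 0 0 0 0).re =
      -(M2 (fun z w => ((Fk N (z.im - w.im) : ℝ) : ℂ) * (F.S k).e z w) 0 0 0 0).re := by
    rw [map_one, mul_one, neg_one_mul, Complex.neg_re]
  have e4 : (2 * Real.pi) ^ 2 * (4 * C) / N = (2 * Real.pi) ^ 2 * (4 * C / N) := by ring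
  have n1 : ‖(-1 : ℂ)‖ ^ 2 = 1 := by norm_num
  have n2 : ‖(1 : ℂ)‖ ^ 2 = 1 := by norm_num
  rw [e3, n1, n2] at h2
  rw [e4]
  linarith

include F in
theorem false_of : False := by
  obtain ⟨C, hC⟩ := F.diag_avg
  have h00 : F.α 0 0 0 0 + F.β 0 0 0 0 = 1 := by
    have h1 := (F.α_tendsto 0 0 0 0).add (F.β_tendsto 0 0 0 0)
    have h2 : ∀ k, M2 (fun z w => ((F.S k).a z w : ℂ)) 0 0 0 0 + M2 (fun z w => ((F.S k).b z w : ℂ)) 0 0 0 0 = 1 := by
      intro k
      rw [M2_ofReal, M2_ofReal, ← Complex.ofReal_add, F.nrm k, Complex.ofReal_one]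
    simp only [h2] at h1
    exact (tendsto_nhds_unique h1 tendsto_const_nhds)
  have hkey : ∀ N : ℕ, 1 ≤ N → (1 : ℝ) ≤ C / N := by
    intro N hN
    have ha : Tendsto (fun k => ((A2 (fun z w => Fk N (z.im - w.im) * (F.S k).a z w) 0 0 : ℝ) : ℂ)) UU
        (𝓝 (F.α 0 0 0 0)) := by
      have e : ∀ k, ((A2 (fun z w => Fk N (z.im - w.im) * (F.S k).a z w) 0 0 : ℝ) : ℂ) =
          S1 N (fun m => M2 (fun z w => ((F.S k).a z w : ℂ)) m (-m) 0 0) := by
        intro k
        rw [← M2_fejer_diff N _ (Complex.continuous_ofReal.comp (F.S k).sa.jc : JC (fun z w => ((F.S k).a z w : ℂ))),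
          ← M2_ofReal]
        congr 1
        funext z w
        push_cast
        rfl
      simp only [e]
      have h1 := S1_lim N _ _ (fun m => F.α_tendsto m (-m) 0 0)
      rwa [S1_delta hN _ (fun m hm => F.α_zero m (-m) (by omega) 0 0)] at h1
    have hb : Tendsto (fun k => ((A2 (fun z w => Fk N (z.im - w.im) * (F.S k).b z w) 0 0 : ℝ) : ℂ)) UU
        (𝓝 (F.β 0 0 0 0)) := by
      have e : ∀ k, ((A2 (fun z w => Fk N (z.im - w.im) * (F.S k).b z w) 0 0 : ℝ) : ℂ) =
          S1 N (fun m => M2 (fun z w => ((F.S k).b z w : ℂ)) m (-m) 0 0) := by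
        intro k
        rw [← M2_fejer_diff N _ (Complex.continuous_ofReal.comp (F.S k).sb.jc : JC (fun z w => ((F.S k).b z w : ℂ))),
          ← M2_ofReal]
        congr 1
        funext z w
        push_cast
        rfl
      simp only [e]
      have h1 := S1_lim N _ _ (fun m => F.β_tendsto m (-m) 0 0)
      rwa [S1_delta hN _ (fun m hm => F.β_zero m (-m) hm 0 0)] at h1
    have he : Tendsto (fun k => M2 (fun z w => ((Fk N (z.im - w.im) : ℝ) : ℂ) * (F.S k).e z w) 0 0 0 0) UU
        (𝓝 0) := by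
      have e : ∀ k, M2 (fun z w => ((Fk N (z.im - w.im) : ℝ) : ℂ) * (F.S k).e z w) 0 0 0 0 =
          S1 N (fun m => M2 (F.S k).e m (-m) 0 0) := fun k => M2_fejer_diff N _ (F.S k).se.jc 0 0
      simp only [e]
      have h1 := S1_lim N _ _ (fun m => F.h_tendsto m (-m) 0 0)
      simp only [F.h_zero] at h1
      simpa [S1] using h1
    have hlim := ((ha.add hb).sub (he.const_mul 2))
    rw [h00, mul_zero, sub_zero] at hlim
    have hre := (Complex.continuous_re.tendsto _).comp hlim
    refine le_of_tendsto hre (Filter.Eventually.of_forall fun k => ?_)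
    have := hC N hN k
    simp only [Function.comp_def, Complex.sub_re, Complex.add_re, Complex.ofReal_re, Complex.mul_re,
      Complex.re_ofNat, Complex.im_ofNat, zero_mul, sub_zero]
    linarith
  obtain ⟨N, hN⟩ := exists_nat_gt (max C 0)
  have hN0 : (0 : ℝ) < N := lt_of_le_of_lt (le_max_right _ _) hN
  have hN1 : 1 ≤ N := by exact_mod_cast hN0
  have h1 := hkey N hN1
  rw [le_div_iff₀ hN0, one_mul] at h1
  have := lt_of_le_of_lt (le_max_left C 0) hN
  linarith

end FamN

end Crest.Agent.Quadric.Ana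

namespace Crest.Agent.Quadric

/-- **Target (C)**: the averaged dual metrics cannot exist for all `K`. -/
theorem no_logData (h : ∀ K : ℕ, 1 ≤ K → Nonempty (LogData K)) : False := by
  obtain ⟨F⟩ := Ana.exists_famN h
  exact F.false_of

end Crest.Agent.Quadric
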