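import Crest.Agent.Quadric.BridgeG

/-!
# S0396, bridge: a Griffiths positive metric on `f_K^* E ⊗ O(1,1)` gives `LogData K`
-/

set_option autoImplicit false
set_option linter.unusedSimpArgs false

noncomputable section

namespace Crest.Agent.Quadric.Bridge

open scoped ComplexConjugate ComplexOrder Topology ContDiff Matrix
open Complex Crest.AlgGeometry.QuadricBundle Crest.Agent.Quadric

theorem per1 {K : ℕ} {E : Type*} [AddCommMonoid E] (hK : 1 ≤ K) (g : (Fin 2 → ℂ) → E) (Z W : ℂ) :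
    ∑ q ∈ idx K, g (P K q (Z + 2 * Real.pi * I) W) = ∑ q ∈ idx K, g (P K q Z W) := by
  unfold idx
  rw [Finset.sum_product, Finset.sum_product]
  exact sum_shift (fun x => ∑ n ∈ Finset.range K,
    g ![x, Complex.exp ((W + 2 * Real.pi * I * n) / K)]) hK Z

theorem per2 {K : ℕ} {E : Type*} [AddCommMonoid E] (hK : 1 ≤ K) (g : (Fin 2 → ℂ) → E) (Z W : ℂ) :
    ∑ q ∈ idx K, g (P K q Z (W + 2 * Real.pi * I)) = ∑ q ∈ idx K, g (P K q Z W) := by
  unfold idx
  rw [Finset.sum_product, Finset.sum_product]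
  refine Finset.sum_congr rfl fun m _ => ?_
  exact sum_shift (fun x => g ![Complex.exp ((Z + 2 * Real.pi * I * m) / K), x]) hK W

theorem hL_per1 (Z W : ℂ) : hL (Z + 2 * Real.pi * I) W = hL Z W := by
  unfold hL; rw [Complex.exp_periodic]
theorem hL_per2 (Z W : ℂ) : hL Z (W + 2 * Real.pi * I) = hL Z W := by
  unfold hL; rw [Complex.exp_periodic]
theorem gL_per1 (Z W : ℂ) : gL (Z + 2 * Real.pi * I) W = gL Z W := by
  unfold gL; rw [Complex.exp_periodic]
theorem gL_per2 (Z W : ℂ) : gL Z (W + 2 * Real.pi * I) = gL Z W := by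
  unfold gL; rw [Complex.exp_periodic]

theorem hL_smooth : ContDiff ℝ (⊤ : ℕ∞) (fun p : ℂ × ℂ => hL p.1 p.2) := by
  unfold hL hH0; fun_prop

theorem gL_smooth : ContDiff ℝ (⊤ : ℕ∞) (fun p : ℂ × ℂ => gL p.1 p.2) := by
  unfold gL gamH0 rho sig; fun_prop

theorem hL_diff1 (W : ℂ) : Differentiable ℂ (fun z => hL z W) := by
  unfold hL hH0; fun_prop
theorem hL_diff2 (Z : ℂ) : Differentiable ℂ (fun w => hL Z w) := by
  unfold hL hH0; fun_prop
theorem gL_diff1 (W : ℂ) : Differentiable ℂ (fun z => gL z W) := by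
  unfold gL gamH0 rho sig; fun_prop
theorem gL_diff2 (Z : ℂ) : Differentiable ℂ (fun w => gL Z w) := by
  unfold gL gamH0 rho sig; fun_prop

theorem sum_bound {K : ℕ} {f : ℕ × ℕ → ℝ} {B : ℝ} (h : ∀ q, f q ≤ B) :
    ∑ q ∈ idx K, f q ≤ (idx K).card * B := by
  have := Finset.sum_le_card_nsmul (idx K) f B (fun q _ => h q)
  simpa using this

theorem Nf_nonneg_cs {a b : ℝ} {e : ℂ} (ha : 0 < a) (h : ∀ s1 s2 : ℂ, 0 ≤ Nf a e b s1 s2) :
    ‖e‖ ^ 2 ≤ a * b := by
  have h1 := h (-conj e) a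
  unfold Nf at h1
  rw [← normSq_eq_norm_sq, ← normSq_eq_norm_sq] at h1
  rw [← normSq_eq_norm_sq]
  simp only [normSq_neg, normSq_conj, normSq_ofReal, mul_re, neg_re, conj_re, conj_im, neg_im,
    ofReal_re, ofReal_im, mul_im] at h1
  rw [normSq_apply] at h1 ⊢
  have h2 : 0 ≤ a * (a * b - (e.re * e.re + e.im * e.im)) := by nlinarith
  have := (mul_nonneg_iff_of_pos_left ha).mp h2
  linarith

section

variable {K : ℕ} {H : MetricData 2}

theorem cont_nrm (hsm : ∀ α (i j : Fin 2), ContDiff ℝ (⊤ : ℕ∞) (fun p => H α p i j))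
    (hpd : ∀ α p, (H α p).PosDef) (α : Chart) {v : (Fin 2 → ℂ) → V2}
    (hv : ∀ i, Continuous (fun p => v p i)) :
    Continuous (fun p => nrm (dualM (H α p)) (v p)) := by
  unfold nrm
  refine Complex.continuous_re.comp ?_
  refine continuous_finset_sum _ fun i _ => continuous_finset_sum _ fun j _ => ?_
  exact (((smooth_dual hsm hpd α i j).continuous).mul (hv i)).mul
    (Complex.continuous_conj.comp (hv j))

theorem smooth_term (hsm : ∀ α (i j : Fin 2), ContDiff ℝ (⊤ : ℕ∞) (fun p => H α p i j))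
    (hpd : ∀ α p, (H α p).PosDef) (q : ℕ × ℕ) {v : ℂ × ℂ → V2}
    (hv : ∀ i, ContDiff ℝ (⊤ : ℕ∞) (fun p => v p i)) :
    ContDiff ℝ (⊤ : ℕ∞) (fun p : ℂ × ℂ => nrm (dualM (H (0, 0) (P K q p.1 p.2))) (v p)) :=
  smooth_nrm (fun i j => (smooth_dual hsm hpd (0, 0) i j).comp (smooth_P K q)) hv

theorem smooth_terme (hsm : ∀ α (i j : Fin 2), ContDiff ℝ (⊤ : ℕ∞) (fun p => H α p i j))
    (hpd : ∀ α p, (H α p).PosDef) (q : ℕ × ℕ) {u v : ℂ × ℂ → V2}
    (hu : ∀ i, ContDiff ℝ (⊤ : ℕ∞) (fun p => u p i))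
    (hv : ∀ i, ContDiff ℝ (⊤ : ℕ∞) (fun p => v p i)) :
    ContDiff ℝ (⊤ : ℕ∞) (fun p : ℂ × ℂ => ses (dualM (H (0, 0) (P K q p.1 p.2))) (u p) (v p)) :=
  smooth_ses (fun i j => (smooth_dual hsm hpd (0, 0) i j).comp (smooth_P K q)) hu hv

theorem hgvec_smooth (i : Fin 2) :
    ContDiff ℝ (⊤ : ℕ∞) (fun p : ℂ × ℂ => (![hL p.1 p.2, gL p.1 p.2] : V2) i) := by
  fin_cases i
  · exact hL_smooth
  · exact gL_smooth

theorem cvec_smooth (c : V2) (i : Fin 2) : ContDiff ℝ (⊤ : ℕ∞) (fun _ : ℂ × ℂ => c i) :=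
  contDiff_const

theorem Nf_terms (hpd : ∀ α p, (H α p).PosDef) (Z W s1 s2 : ℂ) :
    Nf (∑ q ∈ idx K, nrm (dualM (H (0, 0) (P K q Z W))) ![1, 0])
      (∑ q ∈ idx K, ses (dualM (H (0, 0) (P K q Z W))) ![1, 0] ![hL Z W, gL Z W])
      (∑ q ∈ idx K, nrm (dualM (H (0, 0) (P K q Z W))) ![hL Z W, gL Z W]) s1 s2 =
    ∑ q ∈ idx K, nrm (dualM (H (0, 0) (P K q Z W))) ![s1 + s2 * hL Z W, s2 * gL Z W] := by
  rw [Nf_sum]
  exact Finset.sum_congr rfl fun q _ => Nf_eq (hpd _ _) _ _ _ _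

theorem smul_vec (c x y : ℂ) : (![c * x, c * y] : V2) = fun i => c * (![x, y] : V2) i := by
  funext i; fin_cases i <;> simp

/-- **Bridge theorem.** -/
theorem logData_of_griffiths' (hK : 1 ≤ K) (hH : IsHermitianMetric (gK K) H)
    (hG : IsGriffithsPositive H) : Nonempty (LogData K) := by
  have hsm := hH.smooth
  have hpd := hH.posDef
  have hK0 : (0:ℝ) < K := by exact_mod_cast hK
  have hne := idx_nonempty hK
  have hcard : (0:ℝ) ≤ ((idx K).card : ℝ) := by positivity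
  have cv : ∀ (c : V2) (i : Fin 2), Continuous (fun _ : Fin 2 → ℂ => c i) :=
    fun c i => continuous_const
  -- continuous functions used for the growth bounds
  have cA := cont_nrm hsm hpd (0, 0) (cv ![1, 0])
  have cB := cont_nrm hsm hpd (0, 0)
    (v := fun p => ![hH0 (p 0 ^ K) 1 (p 1 ^ K), gamH0 (p 0 ^ K) 1 (p 1 ^ K)]) (by
      intro i; fin_cases i
      · simp only [Fin.zero_eta, Matrix.cons_val_zero]; unfold hH0; fun_prop
      · simp only [Fin.mk_one, Matrix.cons_val_one, Matrix.cons_val_fin_one]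
        unfold gamH0 rho sig; fun_prop)
  have cA10 := cont_nrm hsm hpd (1, 0) (cv ![1, 0])
  have cB10 := cont_nrm hsm hpd (1, 0)
    (v := fun p => ![hH1 (p 0 ^ K) 1 (p 1 ^ K), gamH1 (p 0 ^ K) 1 (p 1 ^ K)]) (by
      intro i; fin_cases i
      · simp only [Fin.zero_eta, Matrix.cons_val_zero]; unfold hH1; fun_prop
      · simp only [Fin.mk_one, Matrix.cons_val_one, Matrix.cons_val_fin_one]
        unfold gamH1 rho1 sig1; fun_prop)
  have cA01 := cont_nrm hsm hpd (0, 1) (cv ![1, 0])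
  have cB01 := cont_nrm hsm hpd (0, 1)
    (v := fun p => ![hH0 (p 0 ^ K) (p 1 ^ K) 1, gamH0 (p 0 ^ K) (p 1 ^ K) 1]) (by
      intro i; fin_cases i
      · simp only [Fin.zero_eta, Matrix.cons_val_zero]; unfold hH0; fun_prop
      · simp only [Fin.mk_one, Matrix.cons_val_one, Matrix.cons_val_fin_one]
        unfold gamH0 rho sig; fun_prop)
  have eL : ∀ q Z W, (![hL Z W, gL Z W] : V2) = ![hH0 ((P K q Z W) 0 ^ K) 1 ((P K q Z W) 1 ^ K),
      gamH0 ((P K q Z W) 0 ^ K) 1 ((P K q Z W) 1 ^ K)] := by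
    intro q Z W; rw [P_pow0 hK, P_pow1 hK]; rfl
  -- transition formulas
  have tA1 : ∀ q Z W, nrm (dualM (H (0, 0) (P K q Z W))) ![1, 0] =
      Real.exp ((12 + 2 / K) * Z.re) * nrm (dualM (H (1, 0) ![((P K q Z W) 0)⁻¹, (P K q Z W) 1]))
        ![1, 0] := by
    intro q Z W
    rw [change10 hK hH (P_ne0 K q Z W), P_pow0 hK]
    have e1 : (![Complex.exp Z ^ 6 * (![1, 0] : V2) 0 + tauH (Complex.exp Z) 1
        ((P K q Z W) 1 ^ K) * (![1, 0] : V2) 1, (Complex.exp Z ^ 3)⁻¹ * (![1, 0] : V2) 1] : V2) =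
        fun i => Complex.exp Z ^ 6 * (![1, 0] : V2) i := by
      funext i; fin_cases i <;> simp
    rw [e1, nrm_smul_right, P_norm0, norm_pow, Complex.norm_exp, ← mul_assoc, ← Real.exp_nat_mul,
      ← Real.exp_nat_mul, ← Real.exp_nat_mul, ← Real.exp_add]
    congr 2
    push_cast
    ring
  have tB1 : ∀ q Z W, nrm (dualM (H (0, 0) (P K q Z W))) ![hL Z W, gL Z W] =
      Real.exp ((2 / K) * Z.re) * nrm (dualM (H (1, 0) ![((P K q Z W) 0)⁻¹, (P K q Z W) 1]))
        ![hH1 ((![((P K q Z W) 0)⁻¹, (P K q Z W) 1] : V2) 0 ^ K) 1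
            ((![((P K q Z W) 0)⁻¹, (P K q Z W) 1] : V2) 1 ^ K),
          gamH1 ((![((P K q Z W) 0)⁻¹, (P K q Z W) 1] : V2) 0 ^ K) 1
            ((![((P K q Z W) 0)⁻¹, (P K q Z W) 1] : V2) 1 ^ K)] := by
    intro q Z W
    rw [change10 hK hH (P_ne0 K q Z W), eL q Z W]
    have hX0 : (P K q Z W) 0 ^ K ≠ 0 := pow_ne_zero _ (P_ne0 K q Z W)
    simp only [Matrix.cons_val_zero, Matrix.cons_val_one, Matrix.cons_val_fin_one]
    rw [inv_pow, tau_rel _ _ _ hX0, gam_rel _ _ _ hX0, P_norm0, ← Real.exp_nat_mul]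
    congr 2
    push_cast
    ring
  have tA2 : ∀ q Z W, nrm (dualM (H (0, 0) (P K q Z W))) ![1, 0] =
      Real.exp ((2 / K) * W.re) * nrm (dualM (H (0, 1) ![(P K q Z W) 0, ((P K q Z W) 1)⁻¹]))
        ![1, 0] := by
    intro q Z W
    rw [change01 hH (P_ne1 K q Z W)]
    simp only [Matrix.cons_val_zero, Matrix.cons_val_one, Matrix.cons_val_fin_one, mul_zero]
    rw [P_norm1, ← Real.exp_nat_mul]
    congr 2
    push_cast
    ring
  have tB2 : ∀ q Z W, nrm (dualM (H (0, 0) (P K q Z W))) ![hL Z W, gL Z W] =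
      Real.exp ((12 + 2 / K) * W.re) * nrm (dualM (H (0, 1) ![(P K q Z W) 0, ((P K q Z W) 1)⁻¹]))
        ![hH0 ((![(P K q Z W) 0, ((P K q Z W) 1)⁻¹] : V2) 0 ^ K)
            ((![(P K q Z W) 0, ((P K q Z W) 1)⁻¹] : V2) 1 ^ K) 1,
          gamH0 ((![(P K q Z W) 0, ((P K q Z W) 1)⁻¹] : V2) 0 ^ K)
            ((![(P K q Z W) 0, ((P K q Z W) 1)⁻¹] : V2) 1 ^ K) 1] := by
    intro q Z W
    rw [change01 hH (P_ne1 K q Z W), eL q Z W]
    have hY0 : (P K q Z W) 1 ^ K ≠ 0 := pow_ne_zero _ (P_ne1 K q Z W)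
    simp only [Matrix.cons_val_zero, Matrix.cons_val_one, Matrix.cons_val_fin_one]
    rw [inv_pow]
    set X := (P K q Z W) 0 ^ K with hX
    set Y := (P K q Z W) 1 ^ K with hY
    have e1 : hH0 X 1 Y = Y ^ 6 * hH0 X Y⁻¹ 1 := by
      rw [← hH0_smul, mul_inv_cancel₀ hY0, mul_one]
    have e2 : Y ^ 3 * gamH0 X 1 Y = Y ^ 6 * gamH0 X Y⁻¹ 1 := by
      have : gamH0 X 1 Y = Y ^ 3 * gamH0 X Y⁻¹ 1 := by
        rw [← gamH0_smul, mul_inv_cancel₀ hY0, mul_one]
      rw [this]; ring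
    rw [e1, e2, smul_vec, nrm_smul_right, P_norm1, norm_pow, hY, P_pow1 hK, Complex.norm_exp,
      ← mul_assoc, ← Real.exp_nat_mul, ← Real.exp_nat_mul, ← Real.exp_nat_mul, ← Real.exp_add]
    congr 2
    push_cast
    ring
  have nle : ∀ {s : ℝ}, s ≤ 0 → Real.exp (s / K) ≤ 1 := by
    intro s hs
    rw [Real.exp_le_one_iff]
    exact div_nonpos_of_nonpos_of_nonneg hs hK0.le
  have nge : ∀ {s : ℝ}, 0 ≤ s → (Real.exp (s / K))⁻¹ ≤ 1 := by
    intro s hs
    rw [← Real.exp_neg, Real.exp_le_one_iff]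
    have := div_nonneg hs hK0.le
    linarith
  refine ⟨{
    a := fun Z W => ∑ q ∈ idx K, nrm (dualM (H (0, 0) (P K q Z W))) ![1, 0]
    b := fun Z W => ∑ q ∈ idx K, nrm (dualM (H (0, 0) (P K q Z W))) ![hL Z W, gL Z W]
    n := fun Z W => ∑ q ∈ idx K, nrm (dualM (H (0, 0) (P K q Z W))) ![0, 1]
    e := fun Z W => ∑ q ∈ idx K, ses (dualM (H (0, 0) (P K q Z W))) ![1, 0] ![hL Z W, gL Z W]
    smooth_a := ContDiff.sum fun q _ => smooth_term hsm hpd q (cvec_smooth _)
    smooth_b := ContDiff.sum fun q _ => smooth_term hsm hpd q hgvec_smooth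
    smooth_n := ContDiff.sum fun q _ => smooth_term hsm hpd q (cvec_smooth _)
    smooth_e := ContDiff.sum fun q _ => smooth_terme hsm hpd q (cvec_smooth _) hgvec_smooth
    a_pos := ?_, b_nonneg := ?_, n_nonneg := ?_, cs := ?_
    per_a1 := fun Z W => per1 hK (fun p => nrm (dualM (H (0, 0) p)) ![1, 0]) Z W
    per_a2 := fun Z W => per2 hK (fun p => nrm (dualM (H (0, 0) p)) ![1, 0]) Z W
    per_b1 := ?_, per_b2 := ?_
    per_n1 := fun Z W => per1 hK (fun p => nrm (dualM (H (0, 0) p)) ![0, 1]) Z W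
    per_n2 := fun Z W => per2 hK (fun p => nrm (dualM (H (0, 0) p)) ![0, 1]) Z W
    per_e1 := ?_, per_e2 := ?_, psh1 := ?_, psh2 := ?_, psh1_n := ?_, psh2_n := ?_, rel := ?_
    a_bot1 := ?_, a_top1 := ?_, a_bot2 := ?_, a_top2 := ?_
    b_bot1 := ?_, b_top1 := ?_, b_bot2 := ?_, b_top2 := ?_ }⟩
  · intro Z W
    refine Finset.sum_pos (fun q _ => nrm_dual_pos (hpd _ _) ?_) hne
    intro h; have := congrFun h 0; simp at this
  · intro Z W
    exact Finset.sum_nonneg fun q _ => nrm_dual_nonneg (hpd _ _) _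
  · intro Z W
    exact Finset.sum_nonneg fun q _ => nrm_dual_nonneg (hpd _ _) _
  · intro Z W
    refine Nf_nonneg_cs ?_ ?_
    · refine Finset.sum_pos (fun q _ => nrm_dual_pos (hpd _ _) ?_) hne
      intro h; have := congrFun h 0; simp at this
    · intro s1 s2
      rw [Nf_terms hpd]
      exact Finset.sum_nonneg fun q _ => nrm_dual_nonneg (hpd _ _) _
  · intro Z W
    rw [hL_per1, gL_per1]
    exact per1 hK (fun p => nrm (dualM (H (0, 0) p)) ![hL Z W, gL Z W]) Z W
  · intro Z W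
    rw [hL_per2, gL_per2]
    exact per2 hK (fun p => nrm (dualM (H (0, 0) p)) ![hL Z W, gL Z W]) Z W
  · intro Z W
    rw [hL_per1, gL_per1]
    exact per1 hK (fun p => ses (dualM (H (0, 0) p)) ![1, 0] ![hL Z W, gL Z W]) Z W
  · intro Z W
    rw [hL_per2, gL_per2]
    exact per2 hK (fun p => ses (dualM (H (0, 0) p)) ![1, 0] ![hL Z W, gL Z W]) Z W
  · -- psh1
    intro s1 s2 hs1 hs2 Z W
    rw [lap_eq_lapl]
    simp_rw [Nf_terms hpd]
    have hw : ∀ i, AnalyticAt ℂ (fun z => (![s1 (Z + z) + s2 (Z + z) * hL (Z + z) W,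
        s2 (Z + z) * gL (Z + z) W] : V2) i) 0 := by
      have h1 := hL_diff1 W
      have h2 := gL_diff1 W
      intro i; fin_cases i
      · have : Differentiable ℂ (fun z => s1 (Z + z) + s2 (Z + z) * hL (Z + z) W) := by
          have h3 : Differentiable ℂ (fun z => hL (Z + z) W) := h1.comp (by fun_prop : Differentiable ℂ (fun z : ℂ => Z + z))
          fun_prop
        exact this.analyticAt 0
      · have : Differentiable ℂ (fun z => s2 (Z + z) * gL (Z + z) W) := by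
          have h3 : Differentiable ℂ (fun z => gL (Z + z) W) := h2.comp (by fun_prop : Differentiable ℂ (fun z : ℂ => Z + z))
          fun_prop
        exact this.analyticAt 0
    rw [lapl_sum]
    · exact Finset.sum_nonneg fun q _ => psh_term1 hK hsm hpd hG q Z W hw
    · intro q _
      exact cd_term1 hsm hpd q Z W hw
  · -- psh2
    intro s1 s2 hs1 hs2 Z W
    rw [lap_eq_lapl]
    simp_rw [Nf_terms hpd]
    have hw : ∀ i, AnalyticAt ℂ (fun z => (![s1 (W + z) + s2 (W + z) * hL Z (W + z),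
        s2 (W + z) * gL Z (W + z)] : V2) i) 0 := by
      have h1 := hL_diff2 Z
      have h2 := gL_diff2 Z
      intro i; fin_cases i
      · have : Differentiable ℂ (fun z => s1 (W + z) + s2 (W + z) * hL Z (W + z)) := by
          have h3 : Differentiable ℂ (fun z => hL Z (W + z)) := h1.comp (by fun_prop : Differentiable ℂ (fun z : ℂ => W + z))
          fun_prop
        exact this.analyticAt 0
      · have : Differentiable ℂ (fun z => s2 (W + z) * gL Z (W + z)) := by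
          have h3 : Differentiable ℂ (fun z => gL Z (W + z)) := h2.comp (by fun_prop : Differentiable ℂ (fun z : ℂ => W + z))
          fun_prop
        exact this.analyticAt 0
    rw [lapl_sum]
    · exact Finset.sum_nonneg fun q _ => psh_term2 hK hsm hpd hG q Z W hw
    · intro q _
      exact cd_term2 hsm hpd q Z W hw
  · -- psh1_n
    intro Z W
    rw [lap_eq_lapl]
    have hw : ∀ i, AnalyticAt ℂ (fun _ : ℂ => (![0, 1] : V2) i) 0 := fun i => analyticAt_const
    rw [lapl_sum]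
    · exact Finset.sum_nonneg fun q _ => psh_term1 hK hsm hpd hG q Z W hw
    · intro q _
      exact cd_term1 hsm hpd q Z W hw
  · -- psh2_n
    intro Z W
    rw [lap_eq_lapl]
    have hw : ∀ i, AnalyticAt ℂ (fun _ : ℂ => (![0, 1] : V2) i) 0 := fun i => analyticAt_const
    rw [lapl_sum]
    · exact Finset.sum_nonneg fun q _ => psh_term2 hK hsm hpd hG q Z W hw
    · intro q _
      exact cd_term2 hsm hpd q Z W hw
  · -- rel
    intro Z W
    rw [Nf_terms hpd, Finset.mul_sum]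
    refine Finset.sum_congr rfl fun q _ => ?_
    rw [← nrm_smul_right]
    congr 1
    funext i
    fin_cases i <;> simp
  · -- a_bot1
    intro τ
    obtain ⟨C, hC0, hC⟩ := bound_compact cA (max 1 (Real.exp (τ / K))) (by positivity)
    refine ⟨(idx K).card * C, fun Z W hW hZ => sum_bound fun q => hC _ ?_ ?_⟩
    · rw [P_norm0]; exact (nle hZ).trans (le_max_left _ _)
    · rw [P_norm1, hW]; exact le_max_right _ _
  · -- a_top1
    intro τ
    obtain ⟨C, hC0, hC⟩ := bound_compact cA10 (max 1 (Real.exp (τ / K))) (by positivity)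
    refine ⟨(idx K).card * C, fun Z W hW hZ => ?_⟩
    rw [mul_assoc]
    refine sum_bound fun q => ?_
    rw [tA1, mul_comm]
    refine mul_le_mul_of_nonneg_right (hC _ ?_ ?_) (Real.exp_pos _).le
    · simp only [Matrix.cons_val_zero]
      rw [norm_inv, P_norm0]; exact (nge hZ).trans (le_max_left _ _)
    · simp only [Matrix.cons_val_one, Matrix.cons_val_fin_one]
      rw [P_norm1, hW]; exact le_max_right _ _
  · -- a_bot2
    intro τ
    obtain ⟨C, hC0, hC⟩ := bound_compact cA (max 1 (Real.exp (τ / K))) (by positivity)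
    refine ⟨(idx K).card * C, fun Z W hZ hW => sum_bound fun q => hC _ ?_ ?_⟩
    · rw [P_norm0, hZ]; exact le_max_right _ _
    · rw [P_norm1]; exact (nle hW).trans (le_max_left _ _)
  · -- a_top2
    intro τ
    obtain ⟨C, hC0, hC⟩ := bound_compact cA01 (max 1 (Real.exp (τ / K))) (by positivity)
    refine ⟨(idx K).card * C, fun Z W hZ hW => ?_⟩
    rw [mul_assoc]
    refine sum_bound fun q => ?_
    rw [tA2, mul_comm]
    refine mul_le_mul_of_nonneg_right (hC _ ?_ ?_) (Real.exp_pos _).le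
    · simp only [Matrix.cons_val_zero]
      rw [P_norm0, hZ]; exact le_max_right _ _
    · simp only [Matrix.cons_val_one, Matrix.cons_val_fin_one]
      rw [norm_inv, P_norm1]; exact (nge hW).trans (le_max_left _ _)
  · -- b_bot1
    intro τ
    obtain ⟨C, hC0, hC⟩ := bound_compact cB (max 1 (Real.exp (τ / K))) (by positivity)
    refine ⟨(idx K).card * C, fun Z W hW hZ => sum_bound fun q => ?_⟩
    rw [eL q Z W]
    refine hC _ ?_ ?_
    · rw [P_norm0]; exact (nle hZ).trans (le_max_left _ _)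
    · rw [P_norm1, hW]; exact le_max_right _ _
  · -- b_top1
    intro τ
    obtain ⟨C, hC0, hC⟩ := bound_compact cB10 (max 1 (Real.exp (τ / K))) (by positivity)
    refine ⟨(idx K).card * C, fun Z W hW hZ => ?_⟩
    rw [mul_assoc]
    refine sum_bound fun q => ?_
    rw [tB1, mul_comm]
    refine mul_le_mul_of_nonneg_right (hC _ ?_ ?_) (Real.exp_pos _).le
    · simp only [Matrix.cons_val_zero]
      rw [norm_inv, P_norm0]; exact (nge hZ).trans (le_max_left _ _)
    · simp only [Matrix.cons_val_one, Matrix.cons_val_fin_one]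
      rw [P_norm1, hW]; exact le_max_right _ _
  · -- b_bot2
    intro τ
    obtain ⟨C, hC0, hC⟩ := bound_compact cB (max 1 (Real.exp (τ / K))) (by positivity)
    refine ⟨(idx K).card * C, fun Z W hZ hW => sum_bound fun q => ?_⟩
    rw [eL q Z W]
    refine hC _ ?_ ?_
    · rw [P_norm0, hZ]; exact le_max_right _ _
    · rw [P_norm1]; exact (nle hW).trans (le_max_left _ _)
  · -- b_top2
    intro τ
    obtain ⟨C, hC0, hC⟩ := bound_compact cB01 (max 1 (Real.exp (τ / K))) (by positivity)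
    refine ⟨(idx K).card * C, fun Z W hZ hW => ?_⟩
    rw [mul_assoc]
    refine sum_bound fun q => ?_
    rw [tB2, mul_comm]
    refine mul_le_mul_of_nonneg_right (hC _ ?_ ?_) (Real.exp_pos _).le
    · simp only [Matrix.cons_val_zero]
      rw [P_norm0, hZ]; exact le_max_right _ _
    · simp only [Matrix.cons_val_one, Matrix.cons_val_fin_one]
      rw [norm_inv, P_norm1]; exact (nge hW).trans (le_max_left _ _)

end

end Crest.Agent.Quadric.Bridge

namespace Crest.Agent.Quadric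

open Crest.AlgGeometry.QuadricBundle

/-- (B) a Griffiths positive metric on `f_K^* E ⊗ O(1,1)` gives `LogData K`. -/
theorem logData_of_griffiths (K : ℕ) (hK : 1 ≤ K) (H : MetricData 2)
    (hH : IsHermitianMetric (gK K) H) (hG : IsGriffithsPositive H) : Nonempty (LogData K) :=
  Bridge.logData_of_griffiths' hK hH hG

end Crest.Agent.Quadric
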