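import Crest.Prelude.Def_QuadricBundle

/-!
# S0396, bridge part A: one-variable calculus

Second derivatives of logarithms, second-derivative test, and the Levi form of `log |h|²`.
-/

set_option autoImplicit false

noncomputable section

namespace Crest.Agent.Quadric.Bridge

open scoped ComplexConjugate ComplexOrder Topology ContDiff
open Complex

/-- second derivative at `0`. -/
def d2 (f : ℝ → ℝ) : ℝ := deriv (deriv f) 0

/-- four times `∂∂̄` at `0`, as a sum of two real second derivatives. -/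
def lapl (f : ℂ → ℝ) : ℝ := d2 (fun t : ℝ => f (t : ℂ)) + d2 (fun t : ℝ => f ((t : ℂ) * I))

theorem d2_congr {f g : ℝ → ℝ} (h : f =ᶠ[𝓝 0] g) : d2 f = d2 g := by
  unfold d2
  exact Filter.EventuallyEq.deriv_eq h.deriv

theorem d2_nonneg_of_isLocalMin {f : ℝ → ℝ} (h : IsLocalMin f 0) (hc : ContinuousAt f 0) :
    0 ≤ d2 f := by
  by_contra hneg
  push Not at hneg
  unfold d2 at hneg
  have hmax : IsLocalMax f 0 := isLocalMax_of_deriv_deriv_neg hneg h.deriv_eq_zero hc
  have heq : f =ᶠ[𝓝 0] fun _ => f 0 := by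
    filter_upwards [h, hmax] with x hx1 hx2
    exact le_antisymm hx2 hx1
  have h1 : d2 f = d2 (fun _ => f 0) := d2_congr heq
  unfold d2 at h1
  have h2 : deriv (fun _ : ℝ => f 0) = fun _ => 0 := by
    funext x; simp
  rw [h2] at h1
  simp only [deriv_const'] at h1
  linarith

theorem cd_deriv {f : ℝ → ℝ} (hf : ContDiffAt ℝ 2 f 0) : DifferentiableAt ℝ (deriv f) 0 := by
  have h3 : ContDiffAt ℝ 1 (deriv f) 0 := ContDiffAt.derivWithin hf (by norm_num)
  exact h3.differentiableAt (by norm_num)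

theorem cd_ev {f : ℝ → ℝ} (hf : ContDiffAt ℝ 2 f 0) :
    ∀ᶠ t in 𝓝 (0 : ℝ), DifferentiableAt ℝ f t := by
  have := hf.eventually (by simp)
  filter_upwards [this] with t ht
  exact ht.differentiableAt (by norm_num)

theorem d2_add {f g : ℝ → ℝ} (hf : ContDiffAt ℝ 2 f 0) (hg : ContDiffAt ℝ 2 g 0) :
    d2 (fun t => f t + g t) = d2 f + d2 g := by
  unfold d2
  have h1 : deriv (fun t => f t + g t) =ᶠ[𝓝 0] fun t => deriv f t + deriv g t := by
    filter_upwards [cd_ev hf, cd_ev hg] with t h1 h2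
    exact deriv_fun_add h1 h2
  rw [h1.deriv_eq, deriv_fun_add (cd_deriv hf) (cd_deriv hg)]

theorem d2_sub {f g : ℝ → ℝ} (hf : ContDiffAt ℝ 2 f 0) (hg : ContDiffAt ℝ 2 g 0) :
    d2 (fun t => f t - g t) = d2 f - d2 g := by
  unfold d2
  have h1 : deriv (fun t => f t - g t) =ᶠ[𝓝 0] fun t => deriv f t - deriv g t := by
    filter_upwards [cd_ev hf, cd_ev hg] with t h1 h2
    exact deriv_fun_sub h1 h2
  rw [h1.deriv_eq, deriv_fun_sub (cd_deriv hf) (cd_deriv hg)]

theorem d2_log {f : ℝ → ℝ} (hf : ContDiffAt ℝ 2 f 0) (hpos : 0 < f 0) :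
    d2 (fun t => Real.log (f t)) = d2 f / f 0 - (deriv f 0 / f 0) ^ 2 := by
  have hev : ∀ᶠ t in 𝓝 (0 : ℝ), 0 < f t :=
    hf.continuousAt.eventually (lt_mem_nhds hpos)
  have h1 : deriv (fun t => Real.log (f t)) =ᶠ[𝓝 0] fun t => deriv f t / f t := by
    filter_upwards [hev, cd_ev hf] with t ht1 ht2
    exact deriv.log ht2 ht1.ne'
  unfold d2
  rw [h1.deriv_eq]
  have hd0 : DifferentiableAt ℝ f 0 := hf.differentiableAt (by norm_num)
  rw [deriv_fun_div (cd_deriv hf) hd0 hpos.ne']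
  field_simp

/-- second derivative of the real part of a holomorphic function along the line `t ↦ t c`. -/
theorem d2_re_comp {ℓ : ℂ → ℂ} (h : AnalyticAt ℂ ℓ 0) (c : ℂ) :
    d2 (fun t : ℝ => (ℓ ((t : ℂ) * c)).re) = (c ^ 2 * deriv (deriv ℓ) 0).re := by
  unfold d2
  have hev : ∀ᶠ z in 𝓝 (0 : ℂ), AnalyticAt ℂ ℓ z := h.eventually_analyticAt
  have hcont : Filter.Tendsto (fun t : ℝ => (t : ℂ) * c) (𝓝 0) (𝓝 0) := by
    have : Continuous (fun t : ℝ => (t : ℂ) * c) := by fun_prop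
    simpa using this.tendsto 0
  have hev2 := hcont.eventually hev
  have key : ∀ (g : ℂ → ℂ) (t : ℝ), DifferentiableAt ℂ g ((t : ℂ) * c) →
      HasDerivAt (fun t : ℝ => (g ((t : ℂ) * c)).re) ((c * deriv g ((t : ℂ) * c)).re) t := by
    intro g t hg
    have h1 : HasDerivAt (fun z : ℂ => g (z * c)) (deriv g ((t : ℂ) * c) * c) (t : ℂ) := by
      have h2 : HasDerivAt (fun z : ℂ => z * c) c (t : ℂ) := by
        simpa using (hasDerivAt_id (t : ℂ)).mul_const c
      exact hg.hasDerivAt.comp (t : ℂ) h2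
    have h3 := h1.real_of_complex
    simpa [mul_comm] using h3
  have h1 : deriv (fun t : ℝ => (ℓ ((t : ℂ) * c)).re) =ᶠ[𝓝 0]
      fun t : ℝ => (c * deriv ℓ ((t : ℂ) * c)).re := by
    filter_upwards [hev2] with t ht
    exact (key ℓ t ht.differentiableAt).deriv
  rw [h1.deriv_eq]
  have h2 : DifferentiableAt ℂ (fun z => c * deriv ℓ z) ((((0:ℝ) : ℂ)) * c) := by
    have : DifferentiableAt ℂ (deriv ℓ) 0 := h.deriv.differentiableAt
    simpa using this.const_mul c
  have h3 := (key (fun z => c * deriv ℓ z) 0 h2).deriv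
  rw [h3]
  congr 1
  simp only [ofReal_zero, zero_mul]
  rw [deriv_const_mul _ (h.deriv.differentiableAt)]
  ring

/-- `log |h|²` is harmonic. -/
theorem lapl_log_normSq {h : ℂ → ℂ} (hh : AnalyticAt ℂ h 0) (h0 : h 0 ≠ 0) :
    lapl (fun z => Real.log (Complex.normSq (h z))) = 0 := by
  set ℓ : ℂ → ℂ := fun z => 2 * Complex.log (h z / h 0) with hℓ
  have hq : AnalyticAt ℂ (fun z => h z / h 0) 0 := hh.div analyticAt_const h0
  have hℓa : AnalyticAt ℂ ℓ 0 := by
    refine analyticAt_const.mul (hq.clog ?_)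
    simp [div_self h0]
  have hne : ∀ᶠ z in 𝓝 (0 : ℂ), h z ≠ 0 := hh.continuousAt.eventually_ne h0
  have heq : ∀ᶠ z in 𝓝 (0 : ℂ), Real.log (Complex.normSq (h z)) =
      Real.log (Complex.normSq (h 0)) + (ℓ z).re := by
    filter_upwards [hne] with z hz
    have h1 : (ℓ z).re = 2 * Real.log (‖h z / h 0‖) := by
      simp [hℓ, Complex.log_re]
    rw [h1, Complex.normSq_eq_norm_sq, Complex.normSq_eq_norm_sq, norm_div,
      Real.log_div (by simpa using hz) (by simpa using h0), Real.log_pow, Real.log_pow]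
    push_cast
    ring
  have key : ∀ c : ℂ, d2 (fun t : ℝ => Real.log (Complex.normSq (h ((t:ℂ) * c)))) =
      (c ^ 2 * deriv (deriv ℓ) 0).re := by
    intro c
    have hcont : Filter.Tendsto (fun t : ℝ => (t : ℂ) * c) (𝓝 0) (𝓝 0) := by
      have : Continuous (fun t : ℝ => (t : ℂ) * c) := by fun_prop
      simpa using this.tendsto 0
    have e1 := hcont.eventually heq
    have e2 : (fun t : ℝ => Real.log (Complex.normSq (h ((t:ℂ) * c)))) =ᶠ[𝓝 0]
        fun t : ℝ => Real.log (Complex.normSq (h 0)) + (ℓ ((t:ℂ) * c)).re := e1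
    rw [d2_congr e2, ← d2_re_comp hℓa c]
    unfold d2
    congr 1
    funext t
    simp
  unfold lapl
  have k1 := key 1
  have k2 := key I
  simp only [mul_one] at k1
  rw [k1, k2]
  simp [sq]

end Crest.Agent.Quadric.Bridge
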