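import Crest.Agent.Quadric.BridgeA

/-!
# S0396, bridge part B: the dual metric and its Levi form along holomorphic discs
-/

set_option autoImplicit false

noncomputable section

namespace Crest.Agent.Quadric.Bridge

open scoped ComplexConjugate ComplexOrder Topology ContDiff
open Complex

abbrev M2 := Matrix (Fin 2) (Fin 2) ℂ
abbrev V2 := Fin 2 → ℂ

/-- squared norm, same formula as `hNormSq`. -/
def nrm (M : M2) (v : V2) : ℝ := (∑ i, ∑ j, M i j * v i * conj (v j)).re

/-- The dual metric `(M⁻¹)ᵀ`. -/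
def dualM (M : M2) : M2 := (M.det)⁻¹ • !![M 1 1, -M 1 0; -M 0 1, M 0 0]

theorem dualM_eq (M : M2) : dualM M = (M⁻¹).transpose := by
  unfold dualM
  rw [Matrix.inv_def, Matrix.adjugate_fin_two]
  ext i j
  fin_cases i <;> fin_cases j <;> simp [Matrix.transpose_apply]

/-- Basic facts on a positive definite 2x2 matrix. -/
theorem pd_facts {M : M2} (h : M.PosDef) :
    ∃ (a d D : ℝ) (b : ℂ), 0 < a ∧ 0 < d ∧ 0 < D ∧ M 0 0 = a ∧ M 1 1 = d ∧ M 0 1 = b ∧
      M 1 0 = conj b ∧ D = a * d - Complex.normSq b ∧ M.det = (D : ℂ) := by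
  have hH := h.isHermitian
  have h00 : 0 < M 0 0 := h.diag_pos
  have h11 : 0 < M 1 1 := h.diag_pos
  have hdet := h.det_pos
  have e10 : M 1 0 = conj (M 0 1) := by
    have := hH.apply 1 0
    simpa using this.symm
  obtain ⟨a0, a1⟩ := Complex.pos_iff.mp h00
  obtain ⟨d0, d1⟩ := Complex.pos_iff.mp h11
  have ea : M 0 0 = ((M 0 0).re : ℂ) := by
    apply Complex.ext <;> simp [← a1]
  have ed : M 1 1 = ((M 1 1).re : ℂ) := by
    apply Complex.ext <;> simp [← d1]
  have edet : M.det = (((M 0 0).re * (M 1 1).re - Complex.normSq (M 0 1) : ℝ) : ℂ) := by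
    rw [Matrix.det_fin_two, e10]
    push_cast
    rw [← ea, ← ed, Complex.mul_conj]
  refine ⟨(M 0 0).re, (M 1 1).re, (M 0 0).re * (M 1 1).re - Complex.normSq (M 0 1), M 0 1,
    a0, d0, ?_, ea, ed, rfl, e10, rfl, edet⟩
  rw [edet] at hdet
  exact_mod_cast hdet

theorem nrm_expand {M : M2} {a d : ℝ} {b : ℂ} (ha : M 0 0 = a) (hd : M 1 1 = d) (hb : M 0 1 = b)
    (hb' : M 1 0 = conj b) (v : V2) :
    nrm M v = a * normSq (v 0) + d * normSq (v 1) + 2 * (b * v 0 * conj (v 1)).re := by
  unfold nrm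
  simp only [Fin.sum_univ_two, ha, hd, hb, hb']
  simp only [add_re, mul_re, ofReal_re, ofReal_im, conj_re, conj_im, mul_im, normSq_apply]
  ring

theorem nrm_dual_expand {M : M2} {a d D : ℝ} {b : ℂ} (ha : M 0 0 = a) (hd : M 1 1 = d)
    (hb : M 0 1 = b) (hb' : M 1 0 = conj b) (hD : M.det = (D : ℂ)) (v : V2) :
    nrm (dualM M) v =
      (d * normSq (v 0) + a * normSq (v 1) - 2 * (conj b * v 0 * conj (v 1)).re) / D := by
  unfold nrm dualM
  rw [hD, ← ofReal_inv]
  simp only [Fin.sum_univ_two, Matrix.smul_apply, Matrix.of_apply, Matrix.cons_val', Matrix.cons_val_zero,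
    Matrix.cons_val_one, Matrix.cons_val_fin_one, ha, hd, hb, hb', smul_eq_mul]
  simp only [add_re, mul_re, ofReal_re, ofReal_im, conj_re, conj_im, mul_im, normSq_apply, neg_re,
    neg_im]
  ring

theorem nrm_pos {M : M2} (h : M.PosDef) {v : V2} (hv : v ≠ 0) : 0 < nrm M v := by
  obtain ⟨a, d, D, b, ha0, hd0, hD0, ha, hd, hb, hb', hDe, hD⟩ := pd_facts h
  rw [nrm_expand ha hd hb hb']
  have key : a * (a * normSq (v 0) + d * normSq (v 1) + 2 * (b * v 0 * conj (v 1)).re) =
      normSq (a * v 0 + conj b * v 1) + D * normSq (v 1) := by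
    rw [hDe]
    simp only [add_re, mul_re, ofReal_re, ofReal_im, conj_re, conj_im, mul_im, normSq_apply, add_im]
    ring
  have hpos : 0 < normSq (a * v 0 + conj b * v 1) + D * normSq (v 1) := by
    by_cases h1 : v 1 = 0
    · have h0 : v 0 ≠ 0 := by
        intro h0; apply hv; funext i; fin_cases i <;> simp [h0, h1]
      have : a * v 0 + conj b * v 1 ≠ 0 := by
        rw [h1]; simp; exact ⟨ha0.ne', h0⟩
      have := normSq_pos.mpr this
      have h2 := normSq_nonneg (v 1)
      positivity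
    · have := normSq_pos.mpr h1
      have h2 := normSq_nonneg (a * v 0 + conj b * v 1)
      positivity
  rw [← key] at hpos
  exact (mul_pos_iff_of_pos_left ha0).mp hpos

theorem nrm_dual_pos {M : M2} (h : M.PosDef) {v : V2} (hv : v ≠ 0) : 0 < nrm (dualM M) v := by
  obtain ⟨a, d, D, b, ha0, hd0, hD0, ha, hd, hb, hb', hDe, hD⟩ := pd_facts h
  rw [nrm_dual_expand ha hd hb hb' hD]
  apply div_pos _ hD0
  have key : a * (d * normSq (v 0) + a * normSq (v 1) - 2 * (conj b * v 0 * conj (v 1)).re) =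
      normSq (a * v 1 - conj b * v 0) + D * normSq (v 0) := by
    rw [hDe]
    simp only [sub_re, mul_re, ofReal_re, ofReal_im, conj_re, conj_im, mul_im, normSq_apply, sub_im]
    ring
  have hpos : 0 < normSq (a * v 1 - conj b * v 0) + D * normSq (v 0) := by
    by_cases h0 : v 0 = 0
    · have h1 : v 1 ≠ 0 := by
        intro h1; apply hv; funext i; fin_cases i <;> simp [h0, h1]
      have : a * v 1 - conj b * v 0 ≠ 0 := by
        rw [h0]; simp; exact ⟨ha0.ne', h1⟩
      have := normSq_pos.mpr this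
      have h2 := normSq_nonneg (v 0)
      positivity
    · have := normSq_pos.mpr h0
      have h2 := normSq_nonneg (a * v 1 - conj b * v 0)
      positivity
  rw [← key] at hpos
  exact (mul_pos_iff_of_pos_left ha0).mp hpos

theorem nrm_nonneg {M : M2} (h : M.PosDef) (v : V2) : 0 ≤ nrm M v := by
  by_cases hv : v = 0
  · subst hv; simp [nrm]
  · exact (nrm_pos h hv).le

theorem nrm_dual_nonneg {M : M2} (h : M.PosDef) (v : V2) : 0 ≤ nrm (dualM M) v := by
  by_cases hv : v = 0
  · subst hv; simp [nrm]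
  · exact (nrm_dual_pos h hv).le

/-- the pairing. -/
def pair (s w : V2) : ℂ := s 0 * w 0 + s 1 * w 1

theorem cauchy_schwarz {M : M2} (h : M.PosDef) (s w : V2) :
    normSq (pair s w) ≤ nrm M s * nrm (dualM M) w := by
  obtain ⟨a, d, D, b, ha0, hd0, hD0, ha, hd, hb, hb', hDe, hD⟩ := pd_facts h
  rw [nrm_expand ha hd hb hb', nrm_dual_expand ha hd hb hb' hD]
  have hd' : d = (D + normSq b) / a := by
    field_simp
    linarith
  have key : (a * normSq (s 0) + d * normSq (s 1) + 2 * (b * s 0 * conj (s 1)).re) *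
      ((d * normSq (w 0) + a * normSq (w 1) - 2 * (conj b * w 0 * conj (w 1)).re) / D)
      - normSq (pair s w) =
      normSq ((a * s 0 + conj b * s 1) * conj (a * w 1 - conj b * w 0) - D * s 1 * conj (w 0)) /
        (a ^ 2 * D) := by
    rw [hd']
    unfold pair
    simp only [add_re, sub_re, mul_re, ofReal_re, ofReal_im, conj_re, conj_im, mul_im, normSq_apply,
      sub_im, add_im]
    field_simp
    ring
  have : 0 ≤ normSq ((a * s 0 + conj b * s 1) * conj (a * w 1 - conj b * w 0)
      - D * s 1 * conj (w 0)) / (a ^ 2 * D) := by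
    have := normSq_nonneg ((a * s 0 + conj b * s 1) * conj (a * w 1 - conj b * w 0)
      - D * s 1 * conj (w 0))
    positivity
  linarith

/-- The dual vector. -/
def dvec (M : M2) (w : V2) : V2 := fun i => ∑ j, dualM M i j * conj (w j)

theorem nrm_dvec {M : M2} (h : M.PosDef) (w : V2) : nrm M (dvec M w) = nrm (dualM M) w := by
  obtain ⟨a, d, D, b, ha0, hd0, hD0, ha, hd, hb, hb', hDe, hD⟩ := pd_facts h
  rw [nrm_expand ha hd hb hb', nrm_dual_expand ha hd hb hb' hD]
  unfold dvec dualM
  rw [hD, ← ofReal_inv]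
  simp only [Fin.sum_univ_two, Matrix.smul_apply, Matrix.of_apply, Matrix.cons_val', Matrix.cons_val_zero,
    Matrix.cons_val_one, Matrix.cons_val_fin_one, ha, hd, hb, hb', smul_eq_mul]
  have hd' : d = (D + normSq b) / a := by
    field_simp
    linarith
  rw [hd']
  simp only [add_re, sub_re, mul_re, ofReal_re, ofReal_im, conj_re, conj_im, mul_im, normSq_apply,
      sub_im, add_im, neg_re, neg_im]
  field_simp
  ring

theorem pair_dvec {M : M2} (h : M.PosDef) (w : V2) :
    pair (dvec M w) w = (nrm (dualM M) w : ℂ) := by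
  obtain ⟨a, d, D, b, ha0, hd0, hD0, ha, hd, hb, hb', hDe, hD⟩ := pd_facts h
  rw [nrm_dual_expand ha hd hb hb' hD]
  unfold pair dvec dualM
  rw [hD, ← ofReal_inv]
  simp only [Fin.sum_univ_two, Matrix.smul_apply, Matrix.of_apply, Matrix.cons_val', Matrix.cons_val_zero,
    Matrix.cons_val_one, Matrix.cons_val_fin_one, ha, hd, hb, hb', smul_eq_mul]
  apply Complex.ext
  · simp only [add_re, sub_re, mul_re, ofReal_re, ofReal_im, conj_re, conj_im, mul_im, normSq_apply,
      sub_im, add_im, neg_re, neg_im]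
    ring
  · simp only [add_re, sub_re, mul_re, ofReal_re, ofReal_im, conj_re, conj_im, mul_im, normSq_apply,
      sub_im, add_im, neg_re, neg_im]
    ring

end Crest.Agent.Quadric.Bridge
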