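import Crest.Agent.Quadric.BridgeB

/-!
# S0396, bridge part C: Levi form of the dual metric along holomorphic discs
-/

set_option autoImplicit false

noncomputable section

namespace Crest.Agent.Quadric.Bridge

open scoped ComplexConjugate ComplexOrder Topology ContDiff
open Complex

theorem cd_line (c : ℂ) : ContDiffAt ℝ 2 (fun t : ℝ => (t : ℂ) * c) 0 := by
  have : ContDiff ℝ 2 (fun t : ℝ => (t : ℂ) * c) := by
    exact (Complex.ofRealCLM.contDiff).mul contDiff_const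
  exact this.contDiffAt

theorem cd_comp_line {E : Type*} [NormedAddCommGroup E] [NormedSpace ℝ E] {f : ℂ → E}
    (hf : ContDiffAt ℝ 2 f 0) (c : ℂ) : ContDiffAt ℝ 2 (fun t : ℝ => f ((t : ℂ) * c)) 0 := by
  have h1 : ContDiffAt ℝ 2 f ((fun t : ℝ => (t : ℂ) * c) 0) := by simpa using hf
  exact ContDiffAt.comp (0 : ℝ) h1 (cd_line c)

theorem cd_normSq {f : ℂ → ℂ} (hf : ContDiffAt ℝ 2 f 0) :
    ContDiffAt ℝ 2 (fun z => normSq (f z)) 0 := by
  have h1 : ContDiffAt ℝ 2 (fun z => (f z).re) 0 := Complex.reCLM.contDiff.contDiffAt.comp 0 hf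
  have h2 : ContDiffAt ℝ 2 (fun z => (f z).im) 0 := Complex.imCLM.contDiff.contDiffAt.comp 0 hf
  have : (fun z => normSq (f z)) = fun z => (f z).re * (f z).re + (f z).im * (f z).im := by
    funext z; rw [normSq_apply]
  rw [this]
  exact (h1.mul h1).add (h2.mul h2)

theorem cd_nrm {Hm : ℂ → M2} (hH : ∀ i j, ContDiffAt ℝ 2 (fun z => Hm z i j) 0)
    {s : ℂ → V2} (hs : ∀ i, ContDiffAt ℝ 2 (fun z => s z i) 0) :
    ContDiffAt ℝ 2 (fun z => nrm (Hm z) (s z)) 0 := by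
  have h1 : ContDiffAt ℝ 2 (fun z => ∑ i, ∑ j, Hm z i j * s z i * conj (s z j)) 0 := by
    refine ContDiffAt.sum fun i _ => ContDiffAt.sum fun j _ => ?_
    refine ((hH i j).mul (hs i)).mul ?_
    exact Complex.conjCLE.contDiff.contDiffAt.comp (0:ℂ) (hs j)
  exact Complex.reCLM.contDiff.contDiffAt.comp (0:ℂ) h1

theorem cd_dualM {Hm : ℂ → M2} (hH : ∀ i j, ContDiffAt ℝ 2 (fun z => Hm z i j) 0)
    (hpd : (Hm 0).PosDef) (i j : Fin 2) : ContDiffAt ℝ 2 (fun z => dualM (Hm z) i j) 0 := by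
  have hdet : ContDiffAt ℝ 2 (fun z => (Hm z).det) 0 := by
    simp only [Matrix.det_fin_two]
    exact ((hH 0 0).mul (hH 1 1)).sub ((hH 0 1).mul (hH 1 0))
  have hdet0 : (Hm 0).det ≠ 0 := hpd.det_pos.ne'
  have hinv : ContDiffAt ℝ 2 (fun z => ((Hm z).det)⁻¹) 0 := hdet.inv hdet0
  unfold dualM
  fin_cases i <;> fin_cases j
  · simpa using hinv.mul (hH 1 1)
  · simpa using (hinv.mul (hH 1 0)).neg
  · simpa using (hinv.mul (hH 0 1)).neg
  · simpa using hinv.mul (hH 0 0)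

theorem lapl_eq (f : ℂ → ℝ) :
    lapl f = d2 (fun t : ℝ => f ((t : ℂ) * 1)) + d2 (fun t : ℝ => f ((t : ℂ) * I)) := by
  unfold lapl; simp

theorem lapl_nonneg_of_isLocalMin {f : ℂ → ℝ} (h : IsLocalMin f 0) (hc : ContinuousAt f 0) :
    0 ≤ lapl f := by
  rw [lapl_eq]
  have key : ∀ c : ℂ, 0 ≤ d2 (fun t : ℝ => f ((t : ℂ) * c)) := by
    intro c
    have hcont : Filter.Tendsto (fun t : ℝ => (t : ℂ) * c) (𝓝 0) (𝓝 0) := by
      have : Continuous (fun t : ℝ => (t : ℂ) * c) := by fun_prop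
      simpa using this.tendsto 0
    apply d2_nonneg_of_isLocalMin
    · have := hcont.eventually h
      filter_upwards [this] with t ht
      simpa using ht
    · have h1 : ContinuousAt f ((fun t : ℝ => (t : ℂ) * c) 0) := by simpa using hc
      exact ContinuousAt.comp (f := fun t : ℝ => (t : ℂ) * c) (x := (0:ℝ)) h1
        (by fun_prop)
  have := key 1
  have := key I
  linarith

/-- **Key lemma.** If the `H`-norm of a holomorphic section through the `H`-dual vector of `w 0`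
has negative Laplacian at `0`, then the dual norm of the holomorphic section `w` has positive
Laplacian at `0`. -/
theorem lapl_dual_pos {Hm : ℂ → M2} (hH : ∀ i j, ContDiffAt ℝ 2 (fun z => Hm z i j) 0)
    (hpd : ∀ z, (Hm z).PosDef) {s w : ℂ → V2} (hs : ∀ i, AnalyticAt ℂ (fun z => s z i) 0)
    (hw : ∀ i, AnalyticAt ℂ (fun z => w z i) 0) (hw0 : w 0 ≠ 0)
    (hsv : s 0 = dvec (Hm 0) (w 0)) (hneg : lapl (fun z => nrm (Hm z) (s z)) < 0) :
    0 < lapl (fun z => nrm (dualM (Hm z)) (w z)) := by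
  have hs' : ∀ i, ContDiffAt ℝ 2 (fun z => s z i) 0 := fun i =>
    (hs i).contDiffAt.restrict_scalars ℝ
  have hw' : ∀ i, ContDiffAt ℝ 2 (fun z => w z i) 0 := fun i =>
    (hw i).contDiffAt.restrict_scalars ℝ
  set A : ℂ → ℝ := fun z => nrm (Hm z) (s z) with hA
  set B : ℂ → ℝ := fun z => nrm (dualM (Hm z)) (w z) with hB
  set h : ℂ → ℂ := fun z => pair (s z) (w z) with hh
  have hAc : ContDiffAt ℝ 2 A 0 := cd_nrm hH hs'
  have hBc : ContDiffAt ℝ 2 B 0 := cd_nrm (cd_dualM hH (hpd 0)) hw'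
  have hha : AnalyticAt ℂ h 0 := ((hs 0).mul (hw 0)).add ((hs 1).mul (hw 1))
  have hhc : ContDiffAt ℝ 2 h 0 := hha.contDiffAt.restrict_scalars ℝ
  have hB0 : 0 < B 0 := nrm_dual_pos (hpd 0) hw0
  have hA0 : A 0 = B 0 := by
    simp only [hA, hB, hsv]; exact nrm_dvec (hpd 0) (w 0)
  have hh0 : h 0 = (B 0 : ℂ) := by
    simp only [hh, hB, hsv]; exact pair_dvec (hpd 0) (w 0)
  have hh0' : h 0 ≠ 0 := by rw [hh0]; exact_mod_cast hB0.ne'
  have hCc : ContDiffAt ℝ 2 (fun z => normSq (h z)) 0 := cd_normSq hhc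
  have hC0 : normSq (h 0) = B 0 * B 0 := by rw [hh0, normSq_ofReal]
  have key : ∀ c : ℂ, 0 ≤ d2 (fun t : ℝ => Real.log (A ((t:ℂ) * c))) +
      d2 (fun t : ℝ => Real.log (B ((t:ℂ) * c))) -
      d2 (fun t : ℝ => Real.log (normSq (h ((t:ℂ) * c)))) := by
    intro c
    have c1 := cd_comp_line hAc c
    have c2 := cd_comp_line hBc c
    have c3 := cd_comp_line hCc c
    have p1 : 0 < A (((0:ℝ):ℂ) * c) := by simp [hA0, hB0]
    have p2 : 0 < B (((0:ℝ):ℂ) * c) := by simp [hB0]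
    have p3 : 0 < normSq (h (((0:ℝ):ℂ) * c)) := by simp [hC0, hB0]; 
    have l1 : ContDiffAt ℝ 2 (fun t : ℝ => Real.log (A ((t:ℂ) * c))) 0 := c1.log p1.ne'
    have l2 : ContDiffAt ℝ 2 (fun t : ℝ => Real.log (B ((t:ℂ) * c))) 0 := c2.log p2.ne'
    have l3 : ContDiffAt ℝ 2 (fun t : ℝ => Real.log (normSq (h ((t:ℂ) * c)))) 0 := c3.log p3.ne'
    rw [← d2_add l1 l2, ← d2_sub (l1.add l2) l3]
    apply d2_nonneg_of_isLocalMin
    · have e1 : ∀ᶠ t : ℝ in 𝓝 (0:ℝ), 0 < normSq (h ((t:ℂ) * c)) :=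
        c3.continuousAt.eventually (lt_mem_nhds p3)
      filter_upwards [e1, c1.continuousAt.eventually (lt_mem_nhds p1),
        c2.continuousAt.eventually (lt_mem_nhds p2)] with t ht1 ht2 ht3
      have hcs : normSq (h ((t:ℂ) * c)) ≤ A ((t:ℂ) * c) * B ((t:ℂ) * c) :=
        cauchy_schwarz (hpd _) _ _
      have hlog := Real.log_le_log ht1 hcs
      rw [Real.log_mul ht2.ne' ht3.ne'] at hlog
      have e0 : Real.log (A (((0:ℝ):ℂ) * c)) + Real.log (B (((0:ℝ):ℂ) * c)) -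
          Real.log (normSq (h (((0:ℝ):ℂ) * c))) = 0 := by
        simp only [ofReal_zero, zero_mul]
        rw [hA0, hC0, Real.log_mul hB0.ne' hB0.ne']
        ring
      rw [e0]
      linarith
    · exact ((l1.add l2).sub l3).continuousAt
  have k1 := key 1
  have k2 := key I
  have k3 := lapl_log_normSq hha hh0'
  rw [lapl_eq] at k3
  have dA : ∀ c : ℂ, d2 (fun t : ℝ => Real.log (A ((t:ℂ) * c))) ≤
      d2 (fun t : ℝ => A ((t:ℂ) * c)) / B 0 := by
    intro c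
    have c1 := cd_comp_line hAc c
    have p1 : 0 < A (((0:ℝ):ℂ) * c) := by simp [hA0, hB0]
    rw [d2_log c1 p1]
    have : A (((0:ℝ):ℂ) * c) = B 0 := by simp [hA0]
    rw [this]
    have := sq_nonneg (deriv (fun t : ℝ => A ((t:ℂ) * c)) 0 / B 0)
    linarith
  have dB : ∀ c : ℂ, d2 (fun t : ℝ => Real.log (B ((t:ℂ) * c))) ≤
      d2 (fun t : ℝ => B ((t:ℂ) * c)) / B 0 := by
    intro c
    have c1 := cd_comp_line hBc c
    have p1 : 0 < B (((0:ℝ):ℂ) * c) := by simp [hB0]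
    rw [d2_log c1 p1]
    have : B (((0:ℝ):ℂ) * c) = B 0 := by simp
    rw [this]
    have := sq_nonneg (deriv (fun t : ℝ => B ((t:ℂ) * c)) 0 / B 0)
    linarith
  rw [lapl_eq] at hneg ⊢
  have hn : d2 (fun t : ℝ => A ((t:ℂ) * 1)) / B 0 + d2 (fun t : ℝ => A ((t:ℂ) * I)) / B 0 < 0 := by
    rw [← add_div]
    exact div_neg_of_neg_of_pos hneg hB0
  have hp : 0 < d2 (fun t : ℝ => B ((t:ℂ) * 1)) / B 0 + d2 (fun t : ℝ => B ((t:ℂ) * I)) / B 0 := by
    have := dA 1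
    have := dA I
    have := dB 1
    have := dB I
    linarith
  rw [← add_div] at hp
  exact (div_pos_iff_of_pos_right hB0).mp hp

/-- first derivative of `f ∘ γ`. -/
theorem deriv_comp_curve {f : ℂ → ℝ} (hf : ContDiffAt ℝ 2 f 0) {γ : ℝ → ℂ}
    (hγ : ContDiffAt ℝ 2 γ 0) (h0 : γ 0 = 0) :
    d2 (fun t => f (γ t)) =
      (fderiv ℝ (fderiv ℝ f) 0 (deriv γ 0)) (deriv γ 0) + fderiv ℝ f 0 (deriv (deriv γ) 0) := by
  unfold d2
  have hcont : Filter.Tendsto γ (𝓝 0) (𝓝 0) := by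
    have := hγ.continuousAt
    rwa [ContinuousAt, h0] at this
  have ev1 : ∀ᶠ t in 𝓝 (0:ℝ), DifferentiableAt ℝ f (γ t) := by
    have := hcont.eventually (hf.eventually (by simp))
    filter_upwards [this] with t ht
    exact ht.differentiableAt (by norm_num)
  have ev2 : ∀ᶠ t in 𝓝 (0:ℝ), DifferentiableAt ℝ γ t := by
    filter_upwards [hγ.eventually (by simp)] with t ht
    exact ht.differentiableAt (by norm_num)
  have e1 : deriv (fun t => f (γ t)) =ᶠ[𝓝 0] fun t => fderiv ℝ f (γ t) (deriv γ t) := by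
    filter_upwards [ev1, ev2] with t h1 h2
    exact (h1.hasFDerivAt.comp_hasDerivAt t h2.hasDerivAt).deriv
  rw [e1.deriv_eq]
  have h1 : HasFDerivAt (fderiv ℝ f) (fderiv ℝ (fderiv ℝ f) 0) (γ 0) := by
    rw [h0]
    have : ContDiffAt ℝ 1 (fderiv ℝ f) 0 := hf.fderiv_right (by norm_num)
    exact (this.differentiableAt (by norm_num)).hasFDerivAt
  have hγd : HasDerivAt γ (deriv γ 0) 0 := (hγ.differentiableAt (by norm_num)).hasDerivAt
  have h2 : HasDerivAt (fun t => fderiv ℝ f (γ t)) (fderiv ℝ (fderiv ℝ f) 0 (deriv γ 0)) 0 :=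
    h1.comp_hasDerivAt 0 hγd
  have h3 : HasDerivAt (deriv γ) (deriv (deriv γ) 0) 0 := by
    have : ContDiffAt ℝ 1 (deriv γ) 0 := ContDiffAt.derivWithin hγ (by norm_num)
    exact (this.differentiableAt (by norm_num)).hasDerivAt
  have h4 := h2.clm_apply h3
  rw [h4.deriv, h0]

/-- Conformal invariance of the Laplacian at `0` (normalised derivative). -/
theorem lapl_comp {f : ℂ → ℝ} (hf : ContDiffAt ℝ 2 f 0) {φ : ℂ → ℂ} (hφ : AnalyticAt ℂ φ 0)
    (h0 : φ 0 = 0) (h1 : deriv φ 0 = 1) : lapl (fun z => f (φ z)) = lapl f := by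
  have hφc : ContDiffAt ℝ 2 φ 0 := hφ.contDiffAt.restrict_scalars ℝ
  have hev : ∀ᶠ z in 𝓝 (0 : ℂ), AnalyticAt ℂ φ z := hφ.eventually_analyticAt
  have key : ∀ c : ℂ, d2 (fun t : ℝ => f (φ ((t:ℂ) * c))) =
      (fderiv ℝ (fderiv ℝ f) 0 c) c + fderiv ℝ f 0 (c ^ 2 * deriv (deriv φ) 0) := by
    intro c
    have hcont : Filter.Tendsto (fun t : ℝ => (t : ℂ) * c) (𝓝 0) (𝓝 0) := by
      have : Continuous (fun t : ℝ => (t : ℂ) * c) := by fun_prop
      simpa using this.tendsto 0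
    have hev2 := hcont.eventually hev
    have key0 : ∀ (g : ℂ → ℂ) (t : ℝ), DifferentiableAt ℂ g ((t : ℂ) * c) →
        HasDerivAt (fun t : ℝ => g ((t : ℂ) * c)) (c * deriv g ((t : ℂ) * c)) t := by
      intro g t hg
      have h1 : HasDerivAt (fun z : ℂ => g (z * c)) (deriv g ((t : ℂ) * c) * c) (t : ℂ) := by
        have h2 : HasDerivAt (fun z : ℂ => z * c) c (t : ℂ) := by
          simpa using (hasDerivAt_id (t : ℂ)).mul_const c
        exact hg.hasDerivAt.comp (t : ℂ) h2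
      have h3 := h1.comp_ofReal
      simpa [mul_comm] using h3
    have g1 : deriv (fun t : ℝ => φ ((t:ℂ) * c)) =ᶠ[𝓝 0] fun t : ℝ => c * deriv φ ((t:ℂ) * c) := by
      filter_upwards [hev2] with t ht
      exact (key0 φ t ht.differentiableAt).deriv
    have g2 : deriv (fun t : ℝ => φ ((t:ℂ) * c)) 0 = c := by
      rw [g1.eq_of_nhds]; simp [h1]
    have g3 : deriv (deriv (fun t : ℝ => φ ((t:ℂ) * c))) 0 = c ^ 2 * deriv (deriv φ) 0 := by
      rw [g1.deriv_eq]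
      have h2 : DifferentiableAt ℂ (fun z => c * deriv φ z) ((((0:ℝ) : ℂ)) * c) := by
        have : DifferentiableAt ℂ (deriv φ) 0 := hφ.deriv.differentiableAt
        simpa using this.const_mul c
      have h3 := (key0 (fun z => c * deriv φ z) 0 h2).deriv
      rw [h3]
      simp only [ofReal_zero, zero_mul]
      rw [deriv_const_mul _ (hφ.deriv.differentiableAt)]
      ring
    have hγ : ContDiffAt ℝ 2 (fun t : ℝ => φ ((t:ℂ) * c)) 0 := cd_comp_line hφc c
    rw [deriv_comp_curve hf hγ (by simp [h0]), g2, g3]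
  have key' : ∀ c : ℂ, d2 (fun t : ℝ => f ((t:ℂ) * c)) = (fderiv ℝ (fderiv ℝ f) 0 c) c := by
    intro c
    rw [deriv_comp_curve hf (cd_line c) (by simp)]
    have d1 : deriv (fun t : ℝ => (t:ℂ) * c) = fun _ => c := by
      funext t
      have : HasDerivAt (fun t : ℝ => (t:ℂ) * c) (1 * c) t :=
        (Complex.ofRealCLM.hasDerivAt).mul_const c
      simpa using this.deriv
    rw [d1]
    simp
  rw [lapl_eq, lapl_eq, key 1, key I, key' 1, key' I]
  have : fderiv ℝ f 0 (1 ^ 2 * deriv (deriv φ) 0) + fderiv ℝ f 0 (I ^ 2 * deriv (deriv φ) 0) = 0 := by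
    rw [← map_add]; simp [I_sq]
  linarith

end Crest.Agent.Quadric.Bridge
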