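import Crest.Agent.Quadric.BridgeC

/-!
# S0396, bridge part D: the dual metric of a Griffiths positive metric is plurisubharmonic
-/

set_option autoImplicit false

noncomputable section

namespace Crest.Agent.Quadric.Bridge

open scoped ComplexConjugate ComplexOrder Topology ContDiff
open Complex Crest.AlgGeometry.QuadricBundle

theorem hNormSq_eq (H : MetricData 2) (α : Chart) (p : Fin 2 → ℂ) (v : V2) :
    hNormSq H α p v = nrm (H α p) v := rfl

theorem leviAlong_eq (F : (Fin 2 → ℂ) → ℝ) (p ξ : Fin 2 → ℂ) :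
    leviAlong F p ξ = lapl (fun z => F (p + z • ξ)) := by
  unfold leviAlong secondDerivAlong lapl d2
  simp only [smul_smul]

theorem cd_affine (p ξ : Fin 2 → ℂ) {φ : ℂ → ℂ} (hφ : ContDiffAt ℝ 2 φ 0) :
    ContDiffAt ℝ 2 (fun z => p + φ z • ξ) 0 :=
  contDiffAt_const.add (hφ.smul contDiffAt_const)

theorem analytic_line {U : Set (Fin 2 → ℂ)} {s : (Fin 2 → ℂ) → V2} (hU : IsOpen U)
    {p : Fin 2 → ℂ} (hp : p ∈ U) (hs : DifferentiableOn ℂ s U) (ξ : Fin 2 → ℂ) (i : Fin 2) :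
    AnalyticAt ℂ (fun z : ℂ => s (p + z • ξ) i) 0 := by
  have hc : Continuous (fun z : ℂ => p + z • ξ) := by fun_prop
  have hV : IsOpen ((fun z : ℂ => p + z • ξ) ⁻¹' U) := hU.preimage hc
  have h0 : (0:ℂ) ∈ ((fun z : ℂ => p + z • ξ) ⁻¹' U) := by simpa using hp
  have hd : DifferentiableOn ℂ (fun z : ℂ => s (p + z • ξ)) ((fun z : ℂ => p + z • ξ) ⁻¹' U) := by
    refine hs.comp (Differentiable.differentiableOn (by fun_prop)) ?_
    intro z hz; exact hz
  have hd' : DifferentiableOn ℂ (fun z : ℂ => s (p + z • ξ) i)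
      ((fun z : ℂ => p + z • ξ) ⁻¹' U) := by
    intro z hz
    exact (differentiableWithinAt_pi.mp (hd z hz)) i
  exact hd'.analyticAt (hV.mem_nhds h0)

theorem two_le_infty : (2 : WithTop ℕ∞) ≤ ((⊤ : ℕ∞) : WithTop ℕ∞) := by
  have h : ((2 : ℕ∞) : WithTop ℕ∞) ≤ ((⊤ : ℕ∞) : WithTop ℕ∞) := WithTop.coe_le_coe.mpr le_top
  exact h

theorem levi_dual_nonneg {H : MetricData 2}
    (hsm : ∀ α (i j : Fin 2), ContDiff ℝ (⊤ : ℕ∞) (fun p => H α p i j))
    (hpd : ∀ α p, (H α p).PosDef) (hG : IsGriffithsPositive H) (α : Chart)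
    (p ξ : Fin 2 → ℂ) (hξ : ξ ≠ 0) {φ : ℂ → ℂ} (hφ : AnalyticAt ℂ φ 0) (h0 : φ 0 = 0)
    (h1 : deriv φ 0 = 1) {w : ℂ → V2} (hw : ∀ i, AnalyticAt ℂ (fun z => w z i) 0) :
    0 ≤ lapl (fun z => nrm (dualM (H α (p + φ z • ξ))) (w z)) := by
  have hφc : ContDiffAt ℝ 2 φ 0 := hφ.contDiffAt.restrict_scalars ℝ
  have hHc : ∀ i j, ContDiffAt ℝ 2 (fun z : ℂ => H α (p + φ z • ξ) i j) 0 := by
    intro i j
    have e1 : ContDiffAt ℝ 2 (fun q => H α q i j) (p + φ 0 • ξ) :=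
      ((hsm α i j).of_le two_le_infty).contDiffAt
    exact ContDiffAt.comp (f := fun z : ℂ => p + φ z • ξ) (0:ℂ) e1 (cd_affine p ξ hφc)
  have hw' : ∀ i, ContDiffAt ℝ 2 (fun z => w z i) 0 := fun i =>
    (hw i).contDiffAt.restrict_scalars ℝ
  have hBc : ContDiffAt ℝ 2 (fun z => nrm (dualM (H α (p + φ z • ξ))) (w z)) 0 :=
    cd_nrm (cd_dualM hHc (hpd _ _)) hw'
  by_cases hw0 : w 0 = 0
  · apply lapl_nonneg_of_isLocalMin
    · refine Filter.Eventually.of_forall fun z => ?_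
      have : nrm (dualM (H α (p + φ 0 • ξ))) (w 0) = 0 := by rw [hw0]; simp [nrm]
      show nrm (dualM (H α (p + φ 0 • ξ))) (w 0) ≤ _
      rw [this]
      exact nrm_dual_nonneg (hpd _ _) _
    · exact hBc.continuousAt
  · apply le_of_lt
    have hv : dvec (H α p) (w 0) ≠ 0 := by
      intro hv
      have e1 := nrm_dvec (hpd α p) (w 0)
      rw [hv] at e1
      have e2 := nrm_dual_pos (hpd α p) hw0
      rw [← e1] at e2
      simp [nrm] at e2
    obtain ⟨U, s, hU, hpU, hs, hsv, hlev⟩ := hG α p ξ _ hξ hv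
    rw [leviAlong_eq] at hlev
    have hsa : ∀ i, AnalyticAt ℂ (fun z : ℂ => s (p + z • ξ) i) 0 := fun i =>
      analytic_line hU hpU hs ξ i
    have hfc : ContDiffAt ℝ 2 (fun z : ℂ => nrm (H α (p + z • ξ)) (s (p + z • ξ))) 0 := by
      refine cd_nrm ?_ (fun i => (hsa i).contDiffAt.restrict_scalars ℝ)
      intro i j
      have e1 : ContDiffAt ℝ 2 (fun q => H α q i j) (p + (0:ℂ) • ξ) :=
        ((hsm α i j).of_le two_le_infty).contDiffAt
      exact ContDiffAt.comp (f := fun z : ℂ => p + z • ξ) (0:ℂ) e1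
        (cd_affine p ξ (φ := fun z => z) contDiffAt_id)
    have hlev' : lapl (fun z => nrm (H α (p + φ z • ξ)) (s (p + φ z • ξ))) < 0 := by
      have := lapl_comp hfc hφ h0 h1
      rw [this]
      exact hlev
    refine lapl_dual_pos (Hm := fun z => H α (p + φ z • ξ)) (s := fun z => s (p + φ z • ξ))
      hHc (fun z => hpd _ _) ?_ hw hw0 ?_ hlev'
    · intro i
      have e1 : AnalyticAt ℂ (fun z : ℂ => s (p + z • ξ) i) (φ 0) := by rw [h0]; exact hsa i
      exact e1.comp hφ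
    · simp only [h0, zero_smul, add_zero]
      exact hsv

end Crest.Agent.Quadric.Bridge
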