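import Crest.Agent.Quadric.BridgeD
import Crest.Agent.Quadric.Defs

/-!
# S0396, bridge part E: averaged dual metric in log coordinates, algebraic part
-/

set_option autoImplicit false
set_option linter.unusedSimpArgs false

noncomputable section

namespace Crest.Agent.Quadric.Bridge

open scoped ComplexConjugate ComplexOrder Topology ContDiff
open Complex Crest.AlgGeometry.QuadricBundle Crest.Agent.Quadric

/-- sesquilinear form. -/
def ses (M : M2) (u v : V2) : ℂ := ∑ i, ∑ j, M i j * u i * conj (v j)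

theorem nrm_eq_ses (M : M2) (v : V2) : nrm M v = (ses M v v).re := rfl

theorem Nf_eq {M : M2} (h : M.PosDef) (hh g s1 s2 : ℂ) :
    Nf (nrm (dualM M) ![1, 0]) (ses (dualM M) ![1, 0] ![hh, g]) (nrm (dualM M) ![hh, g]) s1 s2 =
      nrm (dualM M) ![s1 + s2 * hh, s2 * g] := by
  obtain ⟨a, d, D, b, ha0, hd0, hD0, ha, hd, hb, hb', hDe, hD⟩ := pd_facts h
  rw [nrm_dual_expand ha hd hb hb' hD, nrm_dual_expand ha hd hb hb' hD,
    nrm_dual_expand ha hd hb hb' hD]
  unfold Nf ses dualM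
  rw [hD, ← ofReal_inv, ← normSq_eq_norm_sq, ← normSq_eq_norm_sq]
  simp only [Fin.sum_univ_two, Matrix.smul_apply, Matrix.of_apply, Matrix.cons_val', Matrix.cons_val_zero,
    Matrix.cons_val_one, Matrix.cons_val_fin_one, ha, hd, hb, hb', smul_eq_mul]
  simp only [add_re, sub_re, mul_re, ofReal_re, ofReal_im, conj_re, conj_im, mul_im, normSq_apply,
      sub_im, add_im, neg_re, neg_im, one_re, one_im, zero_re, zero_im]
  ring

theorem Nf_sum {ι : Type*} (S : Finset ι) (a : ι → ℝ) (e : ι → ℂ) (b : ι → ℝ) (s1 s2 : ℂ) :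
    Nf (∑ i ∈ S, a i) (∑ i ∈ S, e i) (∑ i ∈ S, b i) s1 s2 = ∑ i ∈ S, Nf (a i) (e i) (b i) s1 s2 := by
  unfold Nf
  have h1 : (s1 * conj s2 * ∑ i ∈ S, e i).re = ∑ i ∈ S, (s1 * conj s2 * e i).re := by
    rw [Finset.mul_sum, Complex.re_sum]
  rw [Finset.sum_add_distrib, Finset.sum_add_distrib, ← Finset.mul_sum, ← Finset.mul_sum,
    ← Finset.mul_sum, h1]

theorem nrm_smul_right (M : M2) (c : ℂ) (v : V2) :
    nrm M (fun i => c * v i) = ‖c‖ ^ 2 * nrm M v := by
  unfold nrm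
  rw [← normSq_eq_norm_sq]
  simp only [Fin.sum_univ_two]
  simp only [add_re, sub_re, mul_re, ofReal_re, ofReal_im, conj_re, conj_im, mul_im, normSq_apply,
      sub_im, add_im, neg_re, neg_im, one_re, one_im, zero_re, zero_im, map_mul]
  ring

/-- the point of `ℂ²` with log coordinates `(Z + 2πi m, W + 2πi n)`. -/
def P (K : ℕ) (q : ℕ × ℕ) (Z W : ℂ) : Fin 2 → ℂ :=
  ![Complex.exp ((Z + 2 * Real.pi * I * q.1) / K), Complex.exp ((W + 2 * Real.pi * I * q.2) / K)]

/-- index set of the deck group. -/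
def idx (K : ℕ) : Finset (ℕ × ℕ) := Finset.range K ×ˢ Finset.range K

theorem idx_nonempty {K : ℕ} (hK : 1 ≤ K) : (idx K).Nonempty := by
  refine ⟨(0, 0), ?_⟩
  unfold idx
  simp only [Finset.mem_product, Finset.mem_range]
  omega

theorem P_pow0 {K : ℕ} (hK : 1 ≤ K) (q : ℕ × ℕ) (Z W : ℂ) : (P K q Z W) 0 ^ K = Complex.exp Z := by
  have hK' : (K : ℂ) ≠ 0 := by exact_mod_cast (by omega : K ≠ 0)
  simp only [P, Matrix.cons_val_zero]
  rw [← Complex.exp_nat_mul, mul_div_cancel₀ _ hK']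
  have : Z + 2 * Real.pi * I * q.1 = Z + (q.1 : ℤ) * (2 * Real.pi * I) := by push_cast; ring
  rw [this]
  exact (Complex.exp_periodic.int_mul _) Z |>.trans rfl

theorem P_pow1 {K : ℕ} (hK : 1 ≤ K) (q : ℕ × ℕ) (Z W : ℂ) : (P K q Z W) 1 ^ K = Complex.exp W := by
  have hK' : (K : ℂ) ≠ 0 := by exact_mod_cast (by omega : K ≠ 0)
  simp only [P, Matrix.cons_val_one, Matrix.cons_val_fin_one]
  rw [← Complex.exp_nat_mul, mul_div_cancel₀ _ hK']
  have : W + 2 * Real.pi * I * q.2 = W + (q.2 : ℤ) * (2 * Real.pi * I) := by push_cast; ring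
  rw [this]
  exact (Complex.exp_periodic.int_mul _) W |>.trans rfl

theorem P_norm0 (K : ℕ) (q : ℕ × ℕ) (Z W : ℂ) : ‖(P K q Z W) 0‖ = Real.exp (Z.re / K) := by
  simp only [P, Matrix.cons_val_zero]
  rw [Complex.norm_exp]
  congr 1
  have : (Z + 2 * Real.pi * I * q.1) / K = (Z + 2 * Real.pi * I * q.1) / ((K : ℝ) : ℂ) := by simp
  rw [this, Complex.div_ofReal_re]
  simp

theorem P_norm1 (K : ℕ) (q : ℕ × ℕ) (Z W : ℂ) : ‖(P K q Z W) 1‖ = Real.exp (W.re / K) := by
  simp only [P, Matrix.cons_val_one, Matrix.cons_val_fin_one]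
  rw [Complex.norm_exp]
  congr 1
  have : (W + 2 * Real.pi * I * q.2) / K = (W + 2 * Real.pi * I * q.2) / ((K : ℝ) : ℂ) := by simp
  rw [this, Complex.div_ofReal_re]
  simp

/-- sum over one factor of the deck group is invariant under translation. -/
theorem sum_shift {K : ℕ} {E : Type*} [AddCommMonoid E] (F : ℂ → E)
    (hK : 1 ≤ K) (Z : ℂ) :
    ∑ m ∈ Finset.range K, F (Complex.exp ((Z + 2 * Real.pi * I + 2 * Real.pi * I * m) / K)) =
    ∑ m ∈ Finset.range K, F (Complex.exp ((Z + 2 * Real.pi * I * m) / K)) := by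
  have hK' : (K : ℂ) ≠ 0 := by exact_mod_cast (by omega : K ≠ 0)
  set G : ℕ → E := fun m => F (Complex.exp ((Z + 2 * Real.pi * I * m) / K)) with hG
  have h1 : ∀ m : ℕ, F (Complex.exp ((Z + 2 * Real.pi * I + 2 * Real.pi * I * m) / K)) =
      G (m + 1) := by
    intro m
    simp only [hG]
    congr 2
    push_cast
    ring
  simp_rw [h1]
  have h2 : G K = G 0 := by
    simp only [hG]
    congr 1
    have : (Z + 2 * Real.pi * I * K) / K = (Z + 2 * Real.pi * I * (0:ℕ)) / K + 2 * Real.pi * I := by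
      field_simp
      push_cast
      ring
    rw [this, Complex.exp_periodic]
  have h3 := Finset.sum_range_succ G K
  have h4 := Finset.sum_range_succ' G K
  rw [h4] at h3
  obtain ⟨L, rfl⟩ : ∃ L, K = L + 1 := ⟨K - 1, by omega⟩
  rw [Finset.sum_range_succ, Finset.sum_range_succ']
  rw [h2]

end Crest.Agent.Quadric.Bridge
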