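import Crest.Agent.Quadric.BridgeE

/-!
# S0396, bridge part F: change of chart, smoothness, compactness bounds
-/

set_option autoImplicit false
set_option linter.unusedSimpArgs false

noncomputable section

namespace Crest.Agent.Quadric.Bridge

open scoped ComplexConjugate ComplexOrder Topology ContDiff Matrix
open Complex Crest.AlgGeometry.QuadricBundle Crest.Agent.Quadric

theorem nrm_eq_dot (M : M2) (v : V2) :
    nrm M v = (v ⬝ᵥ (M *ᵥ (fun i => conj (v i)))).re := by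
  unfold nrm
  congr 1
  simp only [dotProduct, Matrix.mulVec, Finset.mul_sum]
  refine Finset.sum_congr rfl fun i _ => Finset.sum_congr rfl fun j _ => by ring

theorem nrm_dual_change (M g : M2) (hg : g.det ≠ 0) (u : V2) :
    nrm (dualM (gᵀ * M * g.map conj)) (gᵀ *ᵥ u) = nrm (dualM M) u := by
  have hgu : IsUnit g.det := isUnit_iff_ne_zero.mpr hg
  have hgc : IsUnit (g.map conj).det := by
    have : (g.map conj).det = conj g.det := by
      simp only [Matrix.det_fin_two, Matrix.map_apply, map_sub, map_mul]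
    rw [this, isUnit_iff_ne_zero]
    simpa using hg
  rw [nrm_eq_dot, nrm_eq_dot, dualM_eq, dualM_eq, Matrix.mul_inv_rev, Matrix.mul_inv_rev]
  congr 1
  have e1 : (fun i => conj ((gᵀ *ᵥ u) i)) = (g.map conj)ᵀ *ᵥ (fun i => conj (u i)) := by
    funext i
    simp [Matrix.mulVec, dotProduct, map_sum]
  have e2 : ((g.map conj)⁻¹ * (M⁻¹ * (gᵀ)⁻¹))ᵀ = g⁻¹ * (M⁻¹)ᵀ * ((g.map conj)⁻¹)ᵀ := by
    rw [Matrix.transpose_mul, Matrix.transpose_mul, Matrix.transpose_nonsing_inv,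
      Matrix.transpose_transpose]
  rw [e1, e2, Matrix.mulVec_mulVec, Matrix.mul_assoc, ← Matrix.transpose_mul,
    Matrix.mul_nonsing_inv _ hgc, Matrix.transpose_one, Matrix.mul_one, ← Matrix.mulVec_mulVec,
    Matrix.dotProduct_mulVec, Matrix.mulVec_transpose, Matrix.vecMul_vecMul,
    Matrix.mul_nonsing_inv _ hgu, Matrix.vecMul_one]

theorem smooth_dual {H : MetricData 2}
    (hsm : ∀ α (i j : Fin 2), ContDiff ℝ (⊤ : ℕ∞) (fun p => H α p i j))
    (hpd : ∀ α p, (H α p).PosDef) (α : Chart) (i j : Fin 2) :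
    ContDiff ℝ (⊤ : ℕ∞) (fun p => dualM (H α p) i j) := by
  have hdet : ContDiff ℝ (⊤ : ℕ∞) (fun p => (H α p).det) := by
    simp only [Matrix.det_fin_two]
    exact ((hsm α 0 0).mul (hsm α 1 1)).sub ((hsm α 0 1).mul (hsm α 1 0))
  have hinv : ContDiff ℝ (⊤ : ℕ∞) (fun p => ((H α p).det)⁻¹) :=
    hdet.inv (fun p => (hpd α p).det_pos.ne')
  unfold dualM
  fin_cases i <;> fin_cases j
  · simpa using hinv.mul (hsm α 1 1)
  · simpa using (hinv.mul (hsm α 1 0)).neg
  · simpa using (hinv.mul (hsm α 0 1)).neg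
  · simpa using hinv.mul (hsm α 0 0)

theorem smooth_ses {E : Type*} [NormedAddCommGroup E] [NormedSpace ℝ E] {M : E → M2}
    (hM : ∀ i j, ContDiff ℝ (⊤ : ℕ∞) (fun x => M x i j)) {u v : E → V2}
    (hu : ∀ i, ContDiff ℝ (⊤ : ℕ∞) (fun x => u x i))
    (hv : ∀ i, ContDiff ℝ (⊤ : ℕ∞) (fun x => v x i)) :
    ContDiff ℝ (⊤ : ℕ∞) (fun x => ses (M x) (u x) (v x)) := by
  unfold ses
  refine ContDiff.sum fun i _ => ContDiff.sum fun j _ => ?_
  exact ((hM i j).mul (hu i)).mul (Complex.conjCLE.contDiff.comp (hv j))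

theorem smooth_nrm {E : Type*} [NormedAddCommGroup E] [NormedSpace ℝ E] {M : E → M2}
    (hM : ∀ i j, ContDiff ℝ (⊤ : ℕ∞) (fun x => M x i j)) {v : E → V2}
    (hv : ∀ i, ContDiff ℝ (⊤ : ℕ∞) (fun x => v x i)) :
    ContDiff ℝ (⊤ : ℕ∞) (fun x => nrm (M x) (v x)) := by
  have := smooth_ses hM hv hv
  exact Complex.reCLM.contDiff.comp this

theorem smooth_P (K : ℕ) (q : ℕ × ℕ) :
    ContDiff ℝ (⊤ : ℕ∞) (fun p : ℂ × ℂ => P K q p.1 p.2) := by
  rw [contDiff_pi]
  intro i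
  fin_cases i
  · simp only [P, Fin.zero_eta, Matrix.cons_val_zero]
    fun_prop
  · simp only [P, Fin.mk_one, Matrix.cons_val_one, Matrix.cons_val_fin_one]
    fun_prop

/-- bound of a continuous function on polydiscs. -/
theorem bound_compact {F : (Fin 2 → ℂ) → ℝ} (hF : Continuous F) (R : ℝ) (hR : 0 ≤ R) :
    ∃ C, 0 ≤ C ∧ ∀ p : Fin 2 → ℂ, ‖p 0‖ ≤ R → ‖p 1‖ ≤ R → F p ≤ C := by
  obtain ⟨C, hC⟩ := (isCompact_closedBall (0 : Fin 2 → ℂ) R).exists_bound_of_continuousOn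
    hF.continuousOn
  refine ⟨max C 0, le_max_right _ _, fun p h0 h1 => ?_⟩
  have hp : p ∈ Metric.closedBall (0 : Fin 2 → ℂ) R := by
    rw [mem_closedBall_zero_iff, pi_norm_le_iff_of_nonneg hR]
    intro i; fin_cases i
    · exact h0
    · exact h1
  have := hC p hp
  exact (le_abs_self _).trans (this.trans (le_max_left _ _))

end Crest.Agent.Quadric.Bridge
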