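import Crest.Agent.Quadric.BridgeF

/-!
# S0396, bridge part G: change of chart for the explicit bundle; psh of the terms
-/

set_option autoImplicit false
set_option linter.unusedSimpArgs false

noncomputable section

namespace Crest.Agent.Quadric.Bridge

open scoped ComplexConjugate ComplexOrder Topology ContDiff Matrix
open Complex Crest.AlgGeometry.QuadricBundle Crest.Agent.Quadric

theorem lap_eq_lapl (F : ℂ → ℝ) (w : ℂ) : lap F w = lapl (fun z => F (w + z)) := rfl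

theorem lapl_add {f g : ℂ → ℝ} (hf : ContDiffAt ℝ 2 f 0) (hg : ContDiffAt ℝ 2 g 0) :
    lapl (fun z => f z + g z) = lapl f + lapl g := by
  rw [lapl_eq, lapl_eq, lapl_eq]
  rw [d2_add (cd_comp_line hf 1) (cd_comp_line hg 1),
    d2_add (cd_comp_line hf I) (cd_comp_line hg I)]
  ring

theorem lapl_sum {ι : Type*} (S : Finset ι) {f : ι → ℂ → ℝ}
    (hf : ∀ i ∈ S, ContDiffAt ℝ 2 (f i) 0) :
    lapl (fun z => ∑ i ∈ S, f i z) = ∑ i ∈ S, lapl (f i) := by
  classical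
  induction S using Finset.induction_on with
  | empty => simp [lapl, d2]
  | insert a S ha ih =>
    have h1 : (fun z => ∑ i ∈ insert a S, f i z) = fun z => f a z + ∑ i ∈ S, f i z := by
      funext z; rw [Finset.sum_insert ha]
    rw [h1, lapl_add (hf a (Finset.mem_insert_self _ _)), Finset.sum_insert ha,
      ih (fun i hi => hf i (Finset.mem_insert_of_mem hi))]
    exact ContDiffAt.sum fun i hi => hf i (Finset.mem_insert_of_mem hi)

/-- normalised exponential parameter -/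
def phi (K : ℕ) (z : ℂ) : ℂ := K * (Complex.exp (z / K) - 1)

theorem phi_an (K : ℕ) : AnalyticAt ℂ (phi K) 0 := by
  unfold phi
  have : Differentiable ℂ (fun z : ℂ => (K:ℂ) * (Complex.exp (z / K) - 1)) := by fun_prop
  exact this.analyticAt 0

theorem phi_zero (K : ℕ) : phi K 0 = 0 := by simp [phi]

theorem phi_deriv {K : ℕ} (hK : 1 ≤ K) : deriv (phi K) 0 = 1 := by
  have hK' : (K : ℂ) ≠ 0 := by exact_mod_cast (by omega : K ≠ 0)
  have h1 : HasDerivAt (fun z : ℂ => z / K) (1 / K) 0 := by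
    simpa using (hasDerivAt_id (0:ℂ)).div_const (K:ℂ)
  have h2 : HasDerivAt (phi K) ((K:ℂ) * (Complex.exp (0 / K) * (1 / K))) 0 :=
    ((h1.cexp).sub_const 1).const_mul (K:ℂ)
  rw [h2.deriv]
  simp [hK']

theorem P_add0 {K : ℕ} (hK : 1 ≤ K) (q : ℕ × ℕ) (Z W z : ℂ) :
    P K q (Z + z) W = P K q Z W + phi K z • ![(P K q Z W) 0 / K, 0] := by
  have hK' : (K : ℂ) ≠ 0 := by exact_mod_cast (by omega : K ≠ 0)
  funext i
  fin_cases i
  · simp only [P, phi, Fin.zero_eta, Matrix.cons_val_zero, Pi.add_apply, Pi.smul_apply, smul_eq_mul]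
    have : (Z + z + 2 * Real.pi * I * q.1) / K = (Z + 2 * Real.pi * I * q.1) / K + z / K := by ring
    rw [this, Complex.exp_add]
    field_simp
    ring
  · simp only [P, phi, Fin.mk_one, Matrix.cons_val_one, Matrix.cons_val_fin_one, Pi.add_apply,
      Pi.smul_apply, smul_eq_mul, mul_zero, add_zero]

theorem P_add1 {K : ℕ} (hK : 1 ≤ K) (q : ℕ × ℕ) (Z W z : ℂ) :
    P K q Z (W + z) = P K q Z W + phi K z • ![0, (P K q Z W) 1 / K] := by
  have hK' : (K : ℂ) ≠ 0 := by exact_mod_cast (by omega : K ≠ 0)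
  funext i
  fin_cases i
  · simp only [P, phi, Fin.zero_eta, Matrix.cons_val_zero, Pi.add_apply, Pi.smul_apply, smul_eq_mul,
      mul_zero, add_zero]
  · simp only [P, phi, Fin.mk_one, Matrix.cons_val_one, Matrix.cons_val_fin_one, Pi.add_apply,
      Pi.smul_apply, smul_eq_mul]
    have : (W + z + 2 * Real.pi * I * q.2) / K = (W + 2 * Real.pi * I * q.2) / K + z / K := by ring
    rw [this, Complex.exp_add]
    field_simp
    ring

theorem P_ne0 (K : ℕ) (q : ℕ × ℕ) (Z W : ℂ) : (P K q Z W) 0 ≠ 0 := by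
  simp only [P, Matrix.cons_val_zero]; exact Complex.exp_ne_zero _

theorem P_ne1 (K : ℕ) (q : ℕ × ℕ) (Z W : ℂ) : (P K q Z W) 1 ≠ 0 := by
  simp only [P, Matrix.cons_val_one, Matrix.cons_val_fin_one]; exact Complex.exp_ne_zero _

section

variable {K : ℕ} {H : MetricData 2}

theorem psh_term1 (hK : 1 ≤ K)
    (hsm : ∀ α (i j : Fin 2), ContDiff ℝ (⊤ : ℕ∞) (fun p => H α p i j))
    (hpd : ∀ α p, (H α p).PosDef) (hG : IsGriffithsPositive H) (q : ℕ × ℕ) (Z W : ℂ)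
    {w : ℂ → V2} (hw : ∀ i, AnalyticAt ℂ (fun z => w z i) 0) :
    0 ≤ lapl (fun z => nrm (dualM (H (0, 0) (P K q (Z + z) W))) (w z)) := by
  have hK' : (K : ℂ) ≠ 0 := by exact_mod_cast (by omega : K ≠ 0)
  simp_rw [P_add0 hK]
  refine levi_dual_nonneg hsm hpd hG _ _ _ ?_ (phi_an K) (phi_zero K) (phi_deriv hK) hw
  intro h
  have := congrFun h 0
  simp only [Matrix.cons_val_zero, Pi.zero_apply, div_eq_zero_iff] at this
  rcases this with h1 | h1
  · exact P_ne0 _ _ _ _ h1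
  · exact hK' h1

theorem psh_term2 (hK : 1 ≤ K)
    (hsm : ∀ α (i j : Fin 2), ContDiff ℝ (⊤ : ℕ∞) (fun p => H α p i j))
    (hpd : ∀ α p, (H α p).PosDef) (hG : IsGriffithsPositive H) (q : ℕ × ℕ) (Z W : ℂ)
    {w : ℂ → V2} (hw : ∀ i, AnalyticAt ℂ (fun z => w z i) 0) :
    0 ≤ lapl (fun z => nrm (dualM (H (0, 0) (P K q Z (W + z)))) (w z)) := by
  have hK' : (K : ℂ) ≠ 0 := by exact_mod_cast (by omega : K ≠ 0)
  simp_rw [P_add1 hK]
  refine levi_dual_nonneg hsm hpd hG _ _ _ ?_ (phi_an K) (phi_zero K) (phi_deriv hK) hw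
  intro h
  have := congrFun h 1
  simp only [Matrix.cons_val_one, Matrix.cons_val_fin_one, Pi.zero_apply, div_eq_zero_iff] at this
  rcases this with h1 | h1
  · exact P_ne1 _ _ _ _ h1
  · exact hK' h1

theorem cd_term1
    (hsm : ∀ α (i j : Fin 2), ContDiff ℝ (⊤ : ℕ∞) (fun p => H α p i j))
    (hpd : ∀ α p, (H α p).PosDef) (q : ℕ × ℕ) (Z W : ℂ)
    {w : ℂ → V2} (hw : ∀ i, AnalyticAt ℂ (fun z => w z i) 0) :
    ContDiffAt ℝ 2 (fun z => nrm (dualM (H (0, 0) (P K q (Z + z) W))) (w z)) 0 := by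
  refine cd_nrm (fun i j => ?_) (fun i => (hw i).contDiffAt.restrict_scalars ℝ)
  have h1 : ContDiff ℝ (⊤ : ℕ∞) (fun z : ℂ => P K q (Z + z) W) :=
    (smooth_P K q).comp (g := fun p : ℂ × ℂ => P K q p.1 p.2) (f := fun z : ℂ => (Z + z, W))
      (by fun_prop)
  exact (((smooth_dual hsm hpd (0,0) i j).comp h1).of_le two_le_infty).contDiffAt

theorem cd_term2
    (hsm : ∀ α (i j : Fin 2), ContDiff ℝ (⊤ : ℕ∞) (fun p => H α p i j))
    (hpd : ∀ α p, (H α p).PosDef) (q : ℕ × ℕ) (Z W : ℂ)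
    {w : ℂ → V2} (hw : ∀ i, AnalyticAt ℂ (fun z => w z i) 0) :
    ContDiffAt ℝ 2 (fun z => nrm (dualM (H (0, 0) (P K q Z (W + z)))) (w z)) 0 := by
  refine cd_nrm (fun i j => ?_) (fun i => (hw i).contDiffAt.restrict_scalars ℝ)
  have h1 : ContDiff ℝ (⊤ : ℕ∞) (fun z : ℂ => P K q Z (W + z)) :=
    (smooth_P K q).comp (g := fun p : ℂ × ℂ => P K q p.1 p.2) (f := fun z : ℂ => (Z, W + z))
      (by fun_prop)
  exact (((smooth_dual hsm hpd (0,0) i j).comp h1).of_le two_le_infty).contDiffAt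

/-- transition to the chart `(1,0)`. -/
theorem change10 (hK : 1 ≤ K) (hH : IsHermitianMetric (gK K) H) {p : Fin 2 → ℂ} (hp : p 0 ≠ 0)
    (u : V2) :
    nrm (dualM (H (0, 0) p)) u = ‖p 0‖ ^ 2 * nrm (dualM (H (1, 0) ![(p 0)⁻¹, p 1]))
      ![(p 0 ^ K) ^ 6 * u 0 + tauH (p 0 ^ K) 1 (p 1 ^ K) * u 1, ((p 0 ^ K) ^ 3)⁻¹ * u 1] := by
  have hov : p ∈ overlap (0, 0) (1, 0) := by
    constructor
    · intro _; exact hp
    · intro h; exact absurd rfl h
  have hc := hH.compat (0, 0) (1, 0) p hov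
  have ht : tau (0, 0) (1, 0) p = ![(p 0)⁻¹, p 1] := by
    unfold tau; simp
  rw [ht] at hc
  set X := p 0 ^ K with hX
  set Y := p 1 ^ K with hY
  have hX0 : X ≠ 0 := pow_ne_zero _ hp
  have hg : gK K (0, 0) (1, 0) p = p 0 • !![X ^ 6, 0; tauH X 1 Y, (X ^ 3)⁻¹] := by
    unfold gK gE gx gy lineTrans yv
    simp [hX, hY]
  have hdet : (gK K (0, 0) (1, 0) p).det ≠ 0 := by
    rw [hg, Matrix.det_smul, Matrix.det_fin_two_of]
    simp [hp, hX0]
  have h1 := nrm_dual_change (H (0, 0) p) _ hdet u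
  rw [← hc] at h1
  rw [← h1, ← nrm_smul_right]
  congr 1
  rw [hg]
  funext i
  fin_cases i
  · simp [Matrix.mulVec, dotProduct, Fin.sum_univ_two]
    ring
  · simp [Matrix.mulVec, dotProduct, Fin.sum_univ_two]
    ring

/-- transition to the chart `(0,1)`. -/
theorem change01 (hH : IsHermitianMetric (gK K) H) {p : Fin 2 → ℂ} (hp : p 1 ≠ 0)
    (u : V2) :
    nrm (dualM (H (0, 0) p)) u = ‖p 1‖ ^ 2 * nrm (dualM (H (0, 1) ![p 0, (p 1)⁻¹]))
      ![u 0, (p 1 ^ K) ^ 3 * u 1] := by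
  have hov : p ∈ overlap (0, 0) (0, 1) := by
    constructor
    · intro h; exact absurd rfl h
    · intro _; exact hp
  have hc := hH.compat (0, 0) (0, 1) p hov
  have ht : tau (0, 0) (0, 1) p = ![p 0, (p 1)⁻¹] := by
    unfold tau; simp
  rw [ht] at hc
  set Y := p 1 ^ K with hY
  have hY0 : Y ≠ 0 := pow_ne_zero _ hp
  have hg : gK K (0, 0) (0, 1) p = p 1 • !![1, 0; 0, Y ^ 3] := by
    unfold gK gE gx gy lineTrans yv
    simp [hY]
  have hdet : (gK K (0, 0) (0, 1) p).det ≠ 0 := by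
    rw [hg, Matrix.det_smul, Matrix.det_fin_two_of]
    simp [hp, hY0]
  have h1 := nrm_dual_change (H (0, 0) p) _ hdet u
  rw [← hc] at h1
  rw [← h1, ← nrm_smul_right]
  congr 1
  rw [hg]
  funext i
  fin_cases i
  · simp [Matrix.mulVec, dotProduct, Fin.sum_univ_two]
  · simp [Matrix.mulVec, dotProduct, Fin.sum_univ_two]
    ring

end

end Crest.Agent.Quadric.Bridge
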