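import Crest.Agent.Quadric.Defs

set_option autoImplicit false
set_option linter.unusedSimpArgs false
set_option linter.unnecessarySeqFocus false
set_option linter.unreachableTactic false
set_option linter.unusedTactic false

namespace Crest.Agent.Quadric

open Complex Crest.AlgGeometry.QuadricBundle
open scoped ComplexConjugate ContDiff

noncomputable section

lemma yv_smul (j : Fin 2) (y : ℂ) (hy : y ≠ 0) (j' : Fin 2) (h : j ≠ j') :
    (yv j y).1 = y * (yv j' y⁻¹).1 ∧ (yv j y).2 = y * (yv j' y⁻¹).2 := by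
  unfold yv
  fin_cases j <;> fin_cases j' <;> simp_all

lemma gx_self (i j : Fin 2) (x y : ℂ) : gx i i j x y = 1 := by simp [gx]
lemma gy_self (j : Fin 2) (y : ℂ) : gy j j y = 1 := by simp [gy]

lemma gx_mul_gx (i i' j : Fin 2) (x y : ℂ) (hx : x ≠ 0) (h : i ≠ i') :
    gx i i' j x y * gx i' i j x⁻¹ y = 1 := by
  unfold gx
  fin_cases i <;> fin_cases i' <;>
    simp_all <;>
    (ext a b; fin_cases a <;> fin_cases b <;> simp [Matrix.mul_apply, Fin.sum_univ_two] <;> field_simp <;> ring)

lemma gy_mul_gy (j j' : Fin 2) (y : ℂ) (hy : y ≠ 0) (h : j ≠ j') :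
    gy j j' y * gy j' j y⁻¹ = 1 := by
  unfold gy
  fin_cases j <;> fin_cases j' <;>
    simp_all <;>
    (ext a b; fin_cases a <;> fin_cases b <;> simp [Matrix.mul_apply, Fin.sum_univ_two] <;> field_simp)

/-- commutation of the x-part and the y-part -/
lemma gy_gx (i i' j j' : Fin 2) (x y : ℂ) (hy : y ≠ 0) (h : j ≠ j') :
    gy j j' y * gx i i' j' x y⁻¹ = gx i i' j x y * gy j j' y := by
  have h1 := yv_smul j y hy j' h
  unfold gx gy
  rw [h1.1, h1.2]
  simp only [tauH_smul]
  split_ifs <;> simp_all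
  · ring
  · constructor <;> ring

/-- cocycle identity of `gE` -/
lemma gE_cocycle (α β γ : Chart) (p : Fin 2 → ℂ) (hp : p ∈ overlap α β ∩ overlap α γ) :
    gE α β p * gE β γ (tau α β p) = gE α γ p := by
  obtain ⟨i, j⟩ := α
  obtain ⟨i', j'⟩ := β
  obtain ⟨i'', j''⟩ := γ
  simp only [overlap, Set.mem_inter_iff, Set.mem_ofPred_eq] at hp
  obtain ⟨⟨h1, h2⟩, h3, h4⟩ := hp
  simp only [gE, tau]
  simp only [Matrix.cons_val_zero, Matrix.cons_val_one]
  -- commute
  have key : ∀ x' : ℂ, gy j j' (p 1) * gx i' i'' j' x' (if j = j' then p 1 else (p 1)⁻¹)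
      = gx i' i'' j x' (p 1) * gy j j' (p 1) := by
    intro x'
    by_cases hj : j = j'
    · subst hj; simp [gy_self]
    · simp only [hj, if_false]
      exact gy_gx i' i'' j j' x' (p 1) (h2 hj) hj
  have hy : gy j j' (p 1) * gy j' j'' (if j = j' then p 1 else (p 1)⁻¹) = gy j j'' (p 1) := by
    by_cases hj : j = j'
    · subst hj; simp [gy_self]
    · simp only [hj, if_false]
      by_cases hj2 : j' = j''
      · subst hj2; simp [gy_self]
      · have : j'' = j := by
          fin_cases j <;> fin_cases j' <;> fin_cases j'' <;> simp_all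
        subst this
        rw [gy_mul_gy _ _ _ (h2 hj) hj, gy_self]
  have hx : gx i i' j (p 0) (p 1) * gx i' i'' j (if i = i' then p 0 else (p 0)⁻¹) (p 1)
      = gx i i'' j (p 0) (p 1) := by
    by_cases hi : i = i'
    · subst hi; simp [gx_self]
    · simp only [hi, if_false]
      by_cases hi2 : i' = i''
      · subst hi2; simp [gx_self]
      · have : i'' = i := by
          fin_cases i <;> fin_cases i' <;> fin_cases i'' <;> simp_all
        subst this
        rw [gx_mul_gx _ _ _ _ _ (h1 hi) hi, gx_self]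
  calc gx i i' j (p 0) (p 1) * gy j j' (p 1) *
      (gx i' i'' j' (if i = i' then p 0 else (p 0)⁻¹) (if j = j' then p 1 else (p 1)⁻¹) *
        gy j' j'' (if j = j' then p 1 else (p 1)⁻¹))
      = gx i i' j (p 0) (p 1) * (gy j j' (p 1) *
      gx i' i'' j' (if i = i' then p 0 else (p 0)⁻¹) (if j = j' then p 1 else (p 1)⁻¹)) *
        gy j' j'' (if j = j' then p 1 else (p 1)⁻¹) := by simp only [Matrix.mul_assoc]
    _ = (gx i i' j (p 0) (p 1) * gx i' i'' j (if i = i' then p 0 else (p 0)⁻¹) (p 1)) *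
        (gy j j' (p 1) * gy j' j'' (if j = j' then p 1 else (p 1)⁻¹)) := by
          rw [key]; simp only [Matrix.mul_assoc]
    _ = _ := by rw [hx, hy]

lemma lineTrans_cocycle (r t : ℤ) (α β γ : Chart) (p : Fin 2 → ℂ)
    (hp : p ∈ overlap α β ∩ overlap α γ) :
    lineTrans r t α β p * lineTrans r t β γ (tau α β p) = lineTrans r t α γ p := by
  obtain ⟨i, j⟩ := α
  obtain ⟨i', j'⟩ := β
  obtain ⟨i'', j''⟩ := γ
  simp only [overlap, Set.mem_inter_iff, Set.mem_ofPred_eq] at hp
  obtain ⟨⟨h1, h2⟩, h3, h4⟩ := hp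
  simp only [lineTrans, tau, Matrix.cons_val_zero, Matrix.cons_val_one]
  have hx : (if i = i' then (1 : ℂ) else (p 0) ^ r) *
      (if i' = i'' then 1 else (if i = i' then p 0 else (p 0)⁻¹) ^ r) =
      if i = i'' then 1 else (p 0) ^ r := by
    fin_cases i <;> fin_cases i' <;> fin_cases i'' <;> simp_all [mul_inv_cancel₀, zpow_ne_zero]
  have hy : (if j = j' then (1 : ℂ) else (p 1) ^ t) *
      (if j' = j'' then 1 else (if j = j' then p 1 else (p 1)⁻¹) ^ t) =
      if j = j'' then 1 else (p 1) ^ t := by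
    fin_cases j <;> fin_cases j' <;> fin_cases j'' <;> simp_all [mul_inv_cancel₀, zpow_ne_zero]
  rw [← hx, ← hy]
  ring

lemma mem_overlap_pow (K : ℕ) (α β : Chart) (p : Fin 2 → ℂ)
    (hp : p ∈ overlap α β) : (fun i => p i ^ K) ∈ overlap α β := by
  simp only [overlap, Set.mem_ofPred_eq] at hp ⊢
  exact ⟨fun h => pow_ne_zero _ (hp.1 h), fun h => pow_ne_zero _ (hp.2 h)⟩

lemma tau_pow (K : ℕ) (α β : Chart) (p : Fin 2 → ℂ) :
    tau α β (fun i => p i ^ K) = fun i => (tau α β p i) ^ K := by
  funext i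
  unfold tau
  fin_cases i <;> simp <;> split_ifs <;> simp

lemma gK_mul (K : ℕ) (α β γ : Chart) (p : Fin 2 → ℂ) (hp : p ∈ overlap α β ∩ overlap α γ) :
    gK K α β p * gK K β γ (tau α β p) = gK K α γ p := by
  unfold gK
  rw [smul_mul_smul_comm, lineTrans_cocycle 1 1 α β γ p hp]
  congr 1
  rw [← tau_pow]
  exact gE_cocycle α β γ _ ⟨mem_overlap_pow K α β p hp.1, mem_overlap_pow K α γ p hp.2⟩

lemma differentiable_tauP (f g h : (Fin 2 → ℂ) → ℂ) (hf : Differentiable ℂ f)
    (hg : Differentiable ℂ g) (hh : Differentiable ℂ h) :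
    Differentiable ℂ (fun p => tauP (f p) (g p) (h p)) := by
  unfold tauP
  fun_prop

theorem gK_cocycle (K : ℕ) (hK : 1 ≤ K) : IsHoloCocycle (gK K) where
  refl := by
    intro α p
    simp [gK, gE, lineTrans, gx_self, gy_self]
  holo := by
    intro α β a b
    have hx0 : ∀ p ∈ overlap α β, α.1 ≠ β.1 → p 0 ^ K ≠ 0 := fun p hp h => pow_ne_zero _ (hp.1 h)
    have d0 : Differentiable ℂ (fun p : Fin 2 → ℂ => p 0) := by fun_prop
    have d1 : Differentiable ℂ (fun p : Fin 2 → ℂ => p 1) := by fun_prop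
    have d0K : Differentiable ℂ (fun p : Fin 2 → ℂ => p 0 ^ K) := d0.pow K
    have d1K : Differentiable ℂ (fun p : Fin 2 → ℂ => p 1 ^ K) := d1.pow K
    -- line bundle factor
    have hline : DifferentiableOn ℂ (fun p => lineTrans 1 1 α β p) (overlap α β) := by
      unfold lineTrans
      simp only [zpow_one]
      split_ifs <;> fun_prop
    -- x-part
    have hyv1 : Differentiable ℂ (fun p : Fin 2 → ℂ => (yv α.2 (p 1 ^ K)).1) := by
      unfold yv; split_ifs
      · exact differentiable_const _
      · exact d1K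
    have hyv2 : Differentiable ℂ (fun p : Fin 2 → ℂ => (yv α.2 (p 1 ^ K)).2) := by
      unfold yv; split_ifs
      · exact d1K
      · exact differentiable_const _
    have hgx : ∀ c d : Fin 2, DifferentiableOn ℂ
        (fun p => gx α.1 β.1 α.2 (p 0 ^ K) (p 1 ^ K) c d) (overlap α β) := by
      intro c d
      by_cases hab : α.1 = β.1
      · simp only [gx, hab, if_true]
        exact differentiableOn_const _
      · have hinv : DifferentiableOn ℂ (fun p : Fin 2 → ℂ => ((p 0 ^ K))⁻¹) (overlap α β) :=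
          d0K.differentiableOn.inv (fun p hp => hx0 p hp hab)
        have hinv3 : DifferentiableOn ℂ (fun p : Fin 2 → ℂ => ((p 0 ^ K) ^ 3)⁻¹) (overlap α β) :=
          (d0K.pow 3).differentiableOn.inv (fun p hp => pow_ne_zero _ (hx0 p hp hab))
        have hinv4 : DifferentiableOn ℂ (fun p : Fin 2 → ℂ => ((p 0 ^ K) ^ 4)⁻¹) (overlap α β) :=
          (d0K.pow 4).differentiableOn.inv (fun p hp => pow_ne_zero _ (hx0 p hp hab))
        have ht0 : DifferentiableOn ℂ (fun p : Fin 2 → ℂ =>
            tauH (p 0 ^ K) (yv α.2 (p 1 ^ K)).1 (yv α.2 (p 1 ^ K)).2) (overlap α β) := by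
          unfold tauH
          exact hinv4.mul (differentiable_tauP _ _ _ d0K hyv1 hyv2).differentiableOn
        have ht1 : DifferentiableOn ℂ (fun p : Fin 2 → ℂ =>
            tauH (p 0 ^ K)⁻¹ (yv α.2 (p 1 ^ K)).1 (yv α.2 (p 1 ^ K)).2) (overlap α β) := by
          unfold tauH tauP
          have hinvinv : DifferentiableOn ℂ (fun p : Fin 2 → ℂ => (((p 0 ^ K)⁻¹) ^ 4)⁻¹)
              (overlap α β) := by
            have : (fun p : Fin 2 → ℂ => (((p 0 ^ K)⁻¹) ^ 4)⁻¹) =
                (fun p : Fin 2 → ℂ => (p 0 ^ K) ^ 4) := by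
              funext p; rw [inv_pow, inv_inv]
            rw [this]
            exact (d0K.pow 4).differentiableOn
          have e1 := hyv1.differentiableOn (s := overlap α β)
          have e2 := hyv2.differentiableOn (s := overlap α β)
          refine hinvinv.mul ?_
          fun_prop
        by_cases h0 : α.1 = 0
        · have hb : ¬ (0 : Fin 2) = β.1 := by rw [← h0]; exact hab
          simp only [gx, hab, h0, hb, if_false, if_true]
          fin_cases c <;> fin_cases d <;> simp
          · exact (d0.pow K).differentiableOn.pow 6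
          · exact ht0
          · exact hinv3
        · simp only [gx, hab, h0, if_false]
          fin_cases c <;> fin_cases d <;> simp
          · exact (d0.pow K).differentiableOn.pow 6
          · exact ((d0.pow K).differentiableOn.pow 3).mul ht1
          · exact hinv3
    have hgy : ∀ c d : Fin 2, DifferentiableOn ℂ
        (fun p : Fin 2 → ℂ => gy α.2 β.2 (p 1 ^ K) c d) (overlap α β) := by
      intro c d
      unfold gy
      split_ifs
      · exact differentiableOn_const _
      · fin_cases c <;> fin_cases d <;> simp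
        exact (d1.pow K).differentiableOn.pow 3
    simp only [gK, gE, Matrix.smul_apply, Matrix.mul_apply, Fin.sum_univ_two, smul_eq_mul]
    exact hline.mul (((hgx a 0).mul (hgy 0 b)).add ((hgx a 1).mul (hgy 1 b)))
  cocycle := by
    intro α β γ p hp
    exact gK_mul K α β γ p hp

end

end Crest.Agent.Quadric
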