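import Crest.Agent.Quadric.H1Step

set_option autoImplicit false
set_option linter.unusedSimpArgs false

namespace Crest.Agent.Quadric

noncomputable section

namespace H1

/-- chart 0, restricted to `x ≠ 0` -/
def TL : Tri KL where
  v0 := fun i x => T0.v0 i x
  v1 := fun i x => T0.v1 i x
  l0 := fun i x => T0.l0 i x
  l1 := fun i x => T0.l1 i x
  hv0 := fun i => res_mem_KL (T0.hv0 i)
  hv1 := fun i => res_mem_KL (T0.hv1 i)
  hl0 := fun i => res_mem_KL (T0.hl0 i)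
  hl1 := fun i => res_mem_KL (T0.hl1 i)
  hl := fun i x => T0.hl i x
  h := fun x y0 y1 => hH0 x y0 y1
  hh := res_mem T0.hh
  hv := fun i x => T0.hv i x

lemma T0_gF : T0.gF = lift3 gamH0 := by
  funext x y0 y1 e w
  simp only [Tri.gF, Tri.mi, lift3, T0, Pi.mul_apply, Matrix.cons_val, gamH0]
  ring

lemma T0_hF : T0.hF = lift3 hH0 := rfl
lemma T1_hF : T1.hF = lift3 hH1 := rfl

lemma T1_gF : T1.gF = lift3 gamH1 := by
  funext x y0 y1 e w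
  simp only [Tri.gF, Tri.mi, lift3, T1, Pi.mul_apply, Matrix.cons_val, gamH1]
  ring

lemma TL_hF : TL.hF = res T0.hF := rfl
lemma TL_gF : TL.gF = res T0.gF := rfl
lemma TL_kap : TL.kap = res T0.kap := rfl

lemma ev_res (F : FF ℂ) : TL.ev (res F) = res (T0.ev F) := rfl

lemma ev_tr (p : ℤ) (F : FF ℂ) (x : ℂˣ) (y0 y1 e w : ℂ) :
    TL.ev (tr p F) x y0 y1 e w = (x : ℂ) ^ p * T1.ev F (x : ℂ)⁻¹ y0 y1 0 0 := by
  have hx : (x : ℂ) ≠ 0 := x.ne_zero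
  have h1 := tau_rel (x : ℂ) y0 y1 hx
  have h2 := gam_rel (x : ℂ) y0 y1 hx
  simp only [Tri.ev, tr, T1_hF, T1_gF, TL_hF, TL_gF, T0_hF, T0_gF, res, lift3, h1, h2]

/-- Step 2 -/
lemma step2 (m q : ℕ) (p : ℤ) (hp : -1 ≤ p) {Φ : FF ℂˣ} (hΦ : Φ ∈ LL KL (m + 1) (q + 3)) :
    ∃ Φ0, Split (m + 1) (q + 3) p Φ0 ∧ ∃ Φ1 ∈ LL KL m q, Φ = Φ0 + TL.kap * Φ1 := by
  have hev := TL.ev_mem hΦ
  obtain ⟨G0, hG0, G1, hG1, hG⟩ := split_zero _ p hp hev
  obtain ⟨F0, hF0, hF0'⟩ := T0.lift (m + 1) (q + 3) (by omega) G0 hG0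
  obtain ⟨F1, hF1, hF1'⟩ := T1.lift (m + 1) (q + 3) (by omega) G1 hG1
  have hker : TL.ev (Φ - (res F0 + tr p F1)) = 0 := by
    rw [TL.ev_sub, TL.ev_add, hG, ev_res, hF0']
    funext x y0 y1 e w
    simp only [Pi.sub_apply, Pi.add_apply, ev_tr, hF1', Pi.zero_apply]
    have : tr p G1 x y0 y1 e w = (x : ℂ) ^ p * G1 (x : ℂ)⁻¹ y0 y1 0 0 := by
      simp only [tr]
      rw [deg0_indep K0 hG1 _ y0 y1 _ _ 0 0]
    rw [this]
    ring
  obtain ⟨Φ1, hΦ1, hE⟩ := TL.kernel m q _ (Submodule.sub_mem _ hΦ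
    (Submodule.add_mem _ (res_mem hF0) (tr_mem p hF1))) hker
  refine ⟨res F0 + tr p F1, ⟨F0, hF0, F1, hF1, rfl⟩, Φ1, hΦ1, ?_⟩
  rw [← hE]; ring

lemma kap_mem {B : Type*} {𝒦 : Subalgebra ℂ (B → ℂ)} (T : Tri 𝒦) : T.kap ∈ LL 𝒦 1 3 := by
  refine Submodule.sub_mem _ ?_ ?_
  · exact mul_mem_of 𝒦 T.gF_mem (eF_mem 𝒦) rfl rfl
  · rw [mul_comm]; exact w_mul_mem 𝒦 (q := 3) (m := 0) T.hh

lemma w_tr (p : ℤ) (F : FF ℂ) : wF * tr (p - 3) F = tr p (wF * F) := by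
  funext x y0 y1 e w
  have hx : (x : ℂ) ≠ 0 := x.ne_zero
  simp only [tr, wF, Pi.mul_apply]
  rw [zpow_sub₀ hx]
  field_simp

lemma kap_tr (p : ℤ) (F : FF ℂ) : wF * TL.kap * tr p F = tr p (wF * T1.kap * F) := by
  funext x y0 y1 e w
  have hx : (x : ℂ) ≠ 0 := x.ne_zero
  have h1 := tau_rel (x : ℂ) y0 y1 hx
  have h2 := gam_rel (x : ℂ) y0 y1 hx
  simp only [tr, wF, Tri.kap, T1_hF, T1_gF, TL_hF, TL_gF, T0_hF, T0_gF, res, lift3, eF,
    Pi.mul_apply, Pi.sub_apply, h1, h2]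
  field_simp
  ring

/-- `H¹(SᵐE(p,q)) = 0` for `p ≥ 2`, `q ≥ 0` -/
theorem main (p : ℤ) (hp : 2 ≤ p) : ∀ m q : ℕ, ∀ Φ ∈ LL KL m q, Split m q p Φ := by
  intro m
  induction m using Nat.strong_induction_on with
  | _ m ih =>
    intro q Φ hΦ
    rcases Nat.eq_zero_or_pos m with hm | hm
    · subst hm
      exact split_zero q p (by omega) hΦ
    · obtain ⟨m1, rfl⟩ : ∃ m1, m = m1 + 1 := ⟨m - 1, by omega⟩
      obtain ⟨Φ0, hΦ0, Φ1, hΦ1, hE⟩ := step1 m1 q p (by omega) hΦ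
      -- split Φ1
      have key : Split (m1 + 1) q p (wF * Φ1) := by
        rcases Nat.eq_zero_or_pos m1 with hm1 | hm1
        · subst hm1
          obtain ⟨A, hA, B, hB, hAB⟩ := split_zero (q + 3) (p - 3) (by omega) hΦ1
          refine ⟨wF * A, w_mul_mem K0 hA, wF * B, w_mul_mem K0 hB, ?_⟩
          rw [hAB, mul_add, w_tr]
          rfl
        · obtain ⟨m2, rfl⟩ : ∃ m2, m1 = m2 + 1 := ⟨m1 - 1, by omega⟩
          obtain ⟨Ψ0, ⟨A, hA, B, hB, hAB⟩, C, hC, hC'⟩ := step2 m2 q (p - 3) (by omega) hΦ1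
          obtain ⟨C0, hC0, C1, hC1, hCC⟩ := ih m2 (by omega) q C hC
          have s1 : Split (m2 + 1 + 1) q p (wF * (res A + tr (p - 3) B)) := by
            refine ⟨wF * A, w_mul_mem K0 hA, wF * B, w_mul_mem K0 hB, ?_⟩
            rw [mul_add, w_tr]
            rfl
          have hk : ∀ (T : Tri K0) (F : FF ℂ), F ∈ LL K0 m2 q → wF * T.kap * F ∈ LL K0 (m2 + 1 + 1) q := by
            intro T F hF
            rw [mul_assoc]
            exact w_mul_mem K0 (mul_mem_of K0 (kap_mem T) hF (by omega) (by omega))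
          have s2 : Split (m2 + 1 + 1) q p (wF * (TL.kap * C)) := by
            refine ⟨wF * T0.kap * C0, hk T0 C0 hC0, wF * T1.kap * C1, hk T1 C1 hC1, ?_⟩
            rw [← kap_tr, hCC, TL_kap]
            have : res (wF * T0.kap * C0) = wF * res T0.kap * res C0 := rfl
            rw [this]
            ring
          rw [hC', mul_add, hAB]
          exact s1.add s2
      rw [hE]
      exact hΦ0.add key

lemma Sec_le (m q : ℕ) : Sec m q ≤ LL K0 m q := by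
  unfold Sec
  rw [Submodule.span_le]
  rintro F ⟨k, a, b, i, j, h1, h2, rfl⟩
  have : (fun x y0 y1 e w => x^k * y0^a * y1^b * e^i * w^j : FF ℂ) = mono (fun x => x ^ k) a b i j := rfl
  rw [this]
  exact mono_mem K0 _ ⟨Polynomial.X ^ k, fun x => by simp⟩ _ _ _ _ _ _ h1 h2

lemma le_Sec (m q : ℕ) : LL K0 m q ≤ Sec m q := by
  unfold LL
  rw [Submodule.span_le]
  rintro F ⟨c, ⟨P, hP⟩, a, b, i, j, h1, h2, rfl⟩
  have e : mono c a b i j = ∑ k ∈ Finset.range (P.natDegree + 1), P.coeff k •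
      (fun x y0 y1 e w => x^k * y0^a * y1^b * e^i * w^j : FF ℂ) := by
    funext x y0 y1 e w
    simp only [mono, hP, Finset.sum_apply, Pi.smul_apply, smul_eq_mul, Polynomial.eval_eq_sum_range,
      Finset.sum_mul]
    refine Finset.sum_congr rfl (fun k _ => ?_)
    ring
  rw [e]
  refine Submodule.sum_mem _ (fun k _ => Submodule.smul_mem _ _ (Submodule.subset_span ?_))
  exact ⟨k, a, b, i, j, h1, h2, rfl⟩

end H1

open H1 in
/-- `H¹(SᵐE(p,q)) = 0` for `p ≥ 2`, `q ≥ 0`, in terms of functions -/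
theorem H1_split (m q p : ℕ) (hp : 2 ≤ p) (F : ℂ → ℂ → ℂ → ℂ → ℂ → ℂ) (hF : F ∈ Sec m q) (N : ℕ) :
    ∃ F0 ∈ Sec m q, ∃ F1 ∈ Sec m q, ∀ x : ℂ, x ≠ 0 → ∀ y0 y1 e w : ℂ,
      (x^N)⁻¹ * F x y0 y1 e w = F0 x y0 y1 e w +
        x^p * F1 x⁻¹ y0 y1 (x^6*e + tauH x y0 y1 * w) ((x^3)⁻¹ * w) := by
  have h1 : liftc (fun x : ℂˣ => ((x : ℂ) ^ N)⁻¹) * res F ∈ LL KL m q :=
    mul_mem_of KL (liftc_mem KL (inv_pow_mem_KL N)) (res_mem (Sec_le m q hF)) (by omega) (by omega)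
  obtain ⟨F0, hF0, F1, hF1, hE⟩ := main (p : ℤ) (by exact_mod_cast hp) m q _ h1
  refine ⟨F0, le_Sec m q hF0, F1, le_Sec m q hF1, ?_⟩
  intro x hx y0 y1 e w
  have := congrFun (congrFun (congrFun (congrFun (congrFun hE (Units.mk0 x hx)) y0) y1) e) w
  simpa [liftc, res, tr] using this

end

end Crest.Agent.Quadric
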