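import Crest.Agent.Quadric.Defs

/-!
Graded algebra for `H¹(SᵐE(p,q)) = 0`: functions of `(x, y0, y1, e, w)`, polynomial in
`(y0,y1,e,w)` with coefficients in an algebra `𝒦` of functions of `x`.
-/

set_option autoImplicit false

namespace Crest.Agent.Quadric

noncomputable section

namespace H1

variable {B : Type*} (𝒦 : Subalgebra ℂ (B → ℂ))

/-- functions of `(x, y0, y1, e, w)` -/
abbrev FF (B : Type*) := B → ℂ → ℂ → ℂ → ℂ → ℂ

/-- monomial -/
def mono (c : B → ℂ) (a b i j : ℕ) : FF B :=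
  fun x y0 y1 e w => c x * y0 ^ a * y1 ^ b * e ^ i * w ^ j

/-- degree `m` in `(e,w)`, degree `3 j + q` in `y` for the coefficient of `e^(m-j) w^j` -/
def LL (m q : ℕ) : Submodule ℂ (FF B) :=
  Submodule.span ℂ {F | ∃ c ∈ 𝒦, ∃ a b i j : ℕ, i + j = m ∧ a + b = 3 * j + q ∧ F = mono c a b i j}

lemma mono_mem (c : B → ℂ) (hc : c ∈ 𝒦) (a b i j m q : ℕ) (h1 : i + j = m) (h2 : a + b = 3 * j + q) :
    mono c a b i j ∈ LL 𝒦 m q :=
  Submodule.subset_span ⟨c, hc, a, b, i, j, h1, h2, rfl⟩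

lemma LL_induction {m q : ℕ} {p : FF B → Prop}
    (hmono : ∀ c ∈ 𝒦, ∀ a b i j : ℕ, i + j = m → a + b = 3 * j + q → p (mono c a b i j))
    (hadd : ∀ F G, p F → p G → p (F + G)) (hzero : p 0) (hsmul : ∀ (t : ℂ) F, p F → p (t • F))
    {F : FF B} (hF : F ∈ LL 𝒦 m q) : p F := by
  refine Submodule.span_induction ?_ hzero (fun F G _ _ => hadd F G) (fun t F _ => hsmul t F) hF
  rintro F ⟨c, hc, a, b, i, j, h1, h2, rfl⟩
  exact hmono c hc a b i j h1 h2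

lemma mul_mem {m q m' q' : ℕ} {F G : FF B} (hF : F ∈ LL 𝒦 m q) (hG : G ∈ LL 𝒦 m' q') :
    F * G ∈ LL 𝒦 (m + m') (q + q') := by
  have h : LL 𝒦 m q * LL 𝒦 m' q' ≤ LL 𝒦 (m + m') (q + q') := by
    unfold LL
    rw [Submodule.span_mul_span]
    apply Submodule.span_mono
    rintro _ ⟨_, ⟨c, hc, a, b, i, j, h1, h2, rfl⟩, _, ⟨c', hc', a', b', i', j', h1', h2', rfl⟩, rfl⟩
    refine ⟨c * c', 𝒦.mul_mem hc hc', a + a', b + b', i + i', j + j', by omega, by omega, ?_⟩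
    funext x y0 y1 e w
    simp only [mono, Pi.mul_apply]
    ring
  exact h (Submodule.mul_mem_mul hF hG)

/-- the function `e` -/
def eF : FF B := fun _ _ _ e _ => e
/-- the function `w` -/
def wF : FF B := fun _ _ _ _ w => w
/-- a function of `(x, y0, y1)` -/
def lift3 (f : B → ℂ → ℂ → ℂ) : FF B := fun x y0 y1 _ _ => f x y0 y1
/-- a function of `x` -/
def liftc (c : B → ℂ) : FF B := fun x _ _ _ _ => c x

lemma eF_mem : (eF : FF B) ∈ LL 𝒦 1 0 := by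
  have : (eF : FF B) = mono 1 0 0 1 0 := by funext x y0 y1 e w; simp [eF, mono]
  rw [this]
  exact mono_mem 𝒦 _ 𝒦.one_mem _ _ _ _ _ _ rfl rfl

lemma liftc_mem {c : B → ℂ} (hc : c ∈ 𝒦) : liftc c ∈ LL 𝒦 0 0 := by
  have : liftc c = mono c 0 0 0 0 := by funext x y0 y1 e w; simp [liftc, mono]
  rw [this]
  exact mono_mem 𝒦 _ hc _ _ _ _ _ _ rfl rfl

lemma y0_mem : lift3 (fun (_ : B) y0 _ => y0) ∈ LL 𝒦 0 1 := by
  have : lift3 (fun (_ : B) y0 _ => y0) = mono 1 1 0 0 0 := by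
    funext x y0 y1 e w; simp [lift3, mono]
  rw [this]
  exact mono_mem 𝒦 _ 𝒦.one_mem _ _ _ _ _ _ rfl rfl

lemma y1_mem : lift3 (fun (_ : B) _ y1 => y1) ∈ LL 𝒦 0 1 := by
  have : lift3 (fun (_ : B) _ y1 => y1) = mono 1 0 1 0 0 := by
    funext x y0 y1 e w; simp [lift3, mono]
  rw [this]
  exact mono_mem 𝒦 _ 𝒦.one_mem _ _ _ _ _ _ rfl rfl

lemma one_mem' : (1 : FF B) ∈ LL 𝒦 0 0 := by
  have : (1 : FF B) = mono 1 0 0 0 0 := by
    funext x y0 y1 e w; simp [mono]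
  rw [this]
  exact mono_mem 𝒦 _ 𝒦.one_mem _ _ _ _ _ _ rfl rfl

lemma pow_mem' {m q : ℕ} {F : FF B} (hF : F ∈ LL 𝒦 m q) (n : ℕ) : F ^ n ∈ LL 𝒦 (n * m) (n * q) := by
  induction n with
  | zero => simpa using one_mem' 𝒦
  | succ n ih =>
    rw [pow_succ]
    have := mul_mem 𝒦 ih hF
    convert this using 2 <;> ring

lemma mul_mem_of {m q m' q' M Q : ℕ} {F G : FF B} (hF : F ∈ LL 𝒦 m q) (hG : G ∈ LL 𝒦 m' q')
    (h1 : m + m' = M) (h2 : q + q' = Q) : F * G ∈ LL 𝒦 M Q := by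
  subst h1; subst h2; exact mul_mem 𝒦 hF hG

lemma pow_mem_of {m q M Q : ℕ} {F : FF B} (hF : F ∈ LL 𝒦 m q) (n : ℕ) (h1 : n * m = M)
    (h2 : n * q = Q) : F ^ n ∈ LL 𝒦 M Q := by
  subst h1; subst h2; exact pow_mem' 𝒦 hF n

lemma w_mul_mem {m q : ℕ} {F : FF B} (hF : F ∈ LL 𝒦 m (q + 3)) : wF * F ∈ LL 𝒦 (m + 1) q := by
  refine LL_induction 𝒦 (p := fun F => wF * F ∈ LL 𝒦 (m + 1) q) ?_ ?_ ?_ ?_ hF
  · intro c hc a b i j h1 h2
    have : (wF : FF B) * mono c a b i j = mono c a b i (j + 1) := by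
      funext x y0 y1 e w; simp only [mono, wF, Pi.mul_apply]; ring
    rw [this]
    exact mono_mem 𝒦 _ hc _ _ _ _ _ _ (by omega) (by omega)
  · intro F G h1 h2; rw [mul_add]; exact Submodule.add_mem _ h1 h2
  · simp
  · intro t F h
    rw [mul_smul_comm]; exact Submodule.smul_mem _ _ h

/-- elements of degree 0 in `(e,w)` do not depend on `e, w` -/
lemma deg0_indep {q : ℕ} {F : FF B} (hF : F ∈ LL 𝒦 0 q) (x : B) (y0 y1 e w e' w' : ℂ) :
    F x y0 y1 e w = F x y0 y1 e' w' := by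
  refine LL_induction 𝒦 (p := fun F => F x y0 y1 e w = F x y0 y1 e' w') ?_ ?_ ?_ ?_ hF
  · intro c hc a b i j h1 h2
    have hi : i = 0 := by omega
    have hj : j = 0 := by omega
    subst hi; subst hj; simp [mono]
  · intro F G h1 h2; simp [h1, h2]
  · simp
  · intro t F h; simp [h]

/-- value along a section `v` -/
lemma eval_mem {q : ℕ} {F : FF B} (hF : F ∈ LL 𝒦 0 q) {v0 v1 : B → ℂ} (h0 : v0 ∈ 𝒦) (h1 : v1 ∈ 𝒦) :
    (fun x => F x (v0 x) (v1 x) 0 0) ∈ 𝒦 := by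
  refine LL_induction 𝒦 (p := fun F => (fun x => F x (v0 x) (v1 x) 0 0) ∈ 𝒦) ?_ ?_ ?_ ?_ hF
  · intro c hc a b i j h1' h2'
    have hi : i = 0 := by omega
    have hj : j = 0 := by omega
    subst hi; subst hj
    have : (fun x => mono c a b 0 0 x (v0 x) (v1 x) 0 0) = c * v0 ^ a * v1 ^ b := by
      funext x; simp [mono]
    rw [this]
    exact 𝒦.mul_mem (𝒦.mul_mem hc (𝒦.pow_mem h0 a)) (𝒦.pow_mem h1 b)
  · intro F G hF hG
    exact 𝒦.add_mem hF hG
  · exact 𝒦.zero_mem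
  · intro t F h
    exact 𝒦.smul_mem h t

/-- division of a form by `v ∧ y` with remainder -/
lemma div_form {v0 v1 l0 l1 : B → ℂ} (hv0 : v0 ∈ 𝒦) (hv1 : v1 ∈ 𝒦) (hl0 : l0 ∈ 𝒦) (hl1 : l1 ∈ 𝒦)
    (hl : ∀ x, l0 x * v0 x + l1 x * v1 x = 1) (D : ℕ) :
    ∀ F ∈ LL 𝒦 0 (D + 1), ∃ F' ∈ LL 𝒦 0 D, ∀ x y0 y1 e w,
      F x y0 y1 e w = F x (v0 x) (v1 x) 0 0 * (l0 x * y0 + l1 x * y1) ^ (D + 1)
        + (v0 x * y1 - v1 x * y0) * F' x y0 y1 e w := by
  -- it is enough to treat monomials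
  have key : ∀ D : ℕ, ∀ a b : ℕ, a + b = D + 1 → ∃ F' ∈ LL 𝒦 0 D, ∀ x y0 y1 e w,
      (y0 ^ a * y1 ^ b : ℂ) = (v0 x) ^ a * (v1 x) ^ b * (l0 x * y0 + l1 x * y1) ^ (D + 1)
        + (v0 x * y1 - v1 x * y0) * F' x y0 y1 e w := by
    intro D
    induction D with
    | zero =>
      intro a b hab
      rcases Nat.eq_zero_or_pos a with ha | ha
      · have hb : b = 1 := by omega
        subst ha; subst hb
        refine ⟨liftc l0, liftc_mem 𝒦 hl0, ?_⟩
        intro x y0 y1 e w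
        simp only [liftc]
        have := hl x
        linear_combination (-y1) * this
      · have ha : a = 1 := by omega
        have hb : b = 0 := by omega
        subst ha; subst hb
        refine ⟨liftc (-l1), liftc_mem 𝒦 (𝒦.neg_mem hl1), ?_⟩
        intro x y0 y1 e w
        simp only [liftc, Pi.neg_apply]
        have := hl x
        linear_combination (-y0) * this
    | succ D ih =>
      intro a b hab
      have hlm : (lift3 (fun x y0 y1 => l0 x * y0 + l1 x * y1) : FF B) ∈ LL 𝒦 0 1 := by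
        have : (lift3 (fun x y0 y1 => l0 x * y0 + l1 x * y1) : FF B)
            = liftc l0 * lift3 (fun (_ : B) y0 _ => y0) + liftc l1 * lift3 (fun (_ : B) _ y1 => y1) := by
          funext x y0 y1 e w; simp [lift3, liftc]
        rw [this]
        exact Submodule.add_mem _ (mul_mem_of 𝒦 (liftc_mem 𝒦 hl0) (y0_mem 𝒦) rfl rfl)
          (mul_mem_of 𝒦 (liftc_mem 𝒦 hl1) (y1_mem 𝒦) rfl rfl)
      rcases Nat.eq_zero_or_pos a with ha | ha
      · obtain ⟨b', rfl⟩ : ∃ b', b = b' + 1 := ⟨b - 1, by omega⟩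
        subst ha
        obtain ⟨F', hF', hE⟩ := ih 0 b' (by omega)
        refine ⟨liftc v1 * (lift3 (fun x y0 y1 => l0 x * y0 + l1 x * y1)) * F' +
          liftc l0 * mono 1 0 b' 0 0, ?_, ?_⟩
        · refine Submodule.add_mem _ ?_ ?_
          · exact mul_mem_of 𝒦 (mul_mem_of 𝒦 (liftc_mem 𝒦 hv1) hlm rfl rfl) hF' rfl (by omega)
          · exact mul_mem_of 𝒦 (liftc_mem 𝒦 hl0) (mono_mem 𝒦 1 𝒦.one_mem 0 b' 0 0 0 b' rfl (by omega))
              rfl (by omega)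
        · intro x y0 y1 e w
          have h1 := hE x y0 y1 e w
          have h2 := hl x
          simp only [Pi.add_apply, Pi.mul_apply, liftc, lift3, mono, Pi.one_apply]
          -- y1 = v1 l + l0 m
          have h3 : y1 = v1 x * (l0 x * y0 + l1 x * y1) + l0 x * (v0 x * y1 - v1 x * y0) := by
            linear_combination (-y1) * h2
          have h4 : (y0 ^ 0 * y1 ^ (b' + 1) : ℂ) = (y0 ^ 0 * y1 ^ b') * y1 := by ring
          rw [h4]
          nth_rewrite 2 [h3]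
          rw [mul_add, h1]
          have h5 : (v0 x) ^ 0 * (v1 x) ^ b' * (l0 x * y0 + l1 x * y1) ^ (D + 1) +
            (v0 x * y1 - v1 x * y0) * F' x y0 y1 e w = y1 ^ b' := by rw [← h1]; ring
          rw [h5]
          have h6 : (v1 x) ^ b' * (l0 x * y0 + l1 x * y1) ^ (D + 1) +
            (v0 x * y1 - v1 x * y0) * F' x y0 y1 e w = y1 ^ b' := by rw [← h5]; ring
          linear_combination (-(v1 x * (l0 x * y0 + l1 x * y1))) * h6
      · obtain ⟨a', rfl⟩ : ∃ a', a = a' + 1 := ⟨a - 1, by omega⟩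
        obtain ⟨F', hF', hE⟩ := ih a' b (by omega)
        refine ⟨liftc v0 * (lift3 (fun x y0 y1 => l0 x * y0 + l1 x * y1)) * F' -
          liftc l1 * mono 1 a' b 0 0, ?_, ?_⟩
        · refine Submodule.sub_mem _ ?_ ?_
          · exact mul_mem_of 𝒦 (mul_mem_of 𝒦 (liftc_mem 𝒦 hv0) hlm rfl rfl) hF' rfl (by omega)
          · exact mul_mem_of 𝒦 (liftc_mem 𝒦 hl1) (mono_mem 𝒦 1 𝒦.one_mem a' b 0 0 0 (D + 1) rfl (by omega))
              rfl (by omega)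
        · intro x y0 y1 e w
          have h1 := hE x y0 y1 e w
          have h2 := hl x
          simp only [Pi.sub_apply, Pi.mul_apply, liftc, lift3, mono, Pi.one_apply]
          have h6 := h1
          linear_combination (v0 x * (l0 x * y0 + l1 x * y1)) * h6 - (y0 ^ a' * y1 ^ b) * y0 * h2
  intro F hF
  refine LL_induction 𝒦 (p := fun F => ∃ F' ∈ LL 𝒦 0 D, ∀ x y0 y1 e w,
      F x y0 y1 e w = F x (v0 x) (v1 x) 0 0 * (l0 x * y0 + l1 x * y1) ^ (D + 1)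
        + (v0 x * y1 - v1 x * y0) * F' x y0 y1 e w) ?_ ?_ ?_ ?_ hF
  · intro c hc a b i j h1 h2
    have hi : i = 0 := by omega
    have hj : j = 0 := by omega
    subst hi; subst hj
    obtain ⟨F', hF', hE⟩ := key D a b (by omega)
    refine ⟨liftc c * F', mul_mem_of 𝒦 (liftc_mem 𝒦 hc) hF' rfl (by omega), ?_⟩
    intro x y0 y1 e w
    have h := hE x y0 y1 e w
    simp only [mono, liftc, Pi.mul_apply, pow_zero, mul_one]
    linear_combination (c x) * h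
  · rintro F G ⟨F', hF', hFE⟩ ⟨G', hG', hGE⟩
    refine ⟨F' + G', Submodule.add_mem _ hF' hG', ?_⟩
    intro x y0 y1 e w
    have h1 := hFE x y0 y1 e w
    have h2 := hGE x y0 y1 e w
    simp only [Pi.add_apply]
    linear_combination h1 + h2
  · exact ⟨0, Submodule.zero_mem _, by intro x y0 y1 e w; simp⟩
  · rintro t F ⟨F', hF', hFE⟩
    refine ⟨t • F', Submodule.smul_mem _ _ hF', ?_⟩
    intro x y0 y1 e w
    have h1 := hFE x y0 y1 e w
    simp only [Pi.smul_apply, smul_eq_mul]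
    linear_combination t * h1

/-- a form vanishing along `v` is divisible by `v ∧ y` -/
lemma factor_form {v0 v1 l0 l1 : B → ℂ} (hv0 : v0 ∈ 𝒦) (hv1 : v1 ∈ 𝒦) (hl0 : l0 ∈ 𝒦) (hl1 : l1 ∈ 𝒦)
    (hl : ∀ x, l0 x * v0 x + l1 x * v1 x = 1) (D : ℕ) (F : FF B) (hF : F ∈ LL 𝒦 0 (D + 1))
    (hz : ∀ x, F x (v0 x) (v1 x) 0 0 = 0) :
    ∃ F' ∈ LL 𝒦 0 D, ∀ x y0 y1 e w,
      F x y0 y1 e w = (v0 x * y1 - v1 x * y0) * F' x y0 y1 e w := by
  obtain ⟨F', hF', h⟩ := div_form 𝒦 hv0 hv1 hl0 hl1 hl D F hF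
  refine ⟨F', hF', ?_⟩
  intro x y0 y1 e w
  rw [h x y0 y1 e w, hz x]
  ring

end H1

end

end Crest.Agent.Quadric
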