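import Crest.Agent.Quadric.H1Alg

set_option autoImplicit false
set_option linter.unusedSimpArgs false

namespace Crest.Agent.Quadric

noncomputable section

namespace H1

variable {B : Type*} (𝒦 : Subalgebra ℂ (B → ℂ))

/-- three unimodular sections `v_i` of the trivial plane over `x`, a form `h` of degree 6 equal to
one along each of them -/
structure Tri where
  v0 : Fin 3 → B → ℂ
  v1 : Fin 3 → B → ℂ
  l0 : Fin 3 → B → ℂ
  l1 : Fin 3 → B → ℂ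
  hv0 : ∀ i, v0 i ∈ 𝒦
  hv1 : ∀ i, v1 i ∈ 𝒦
  hl0 : ∀ i, l0 i ∈ 𝒦
  hl1 : ∀ i, l1 i ∈ 𝒦
  hl : ∀ i x, l0 i x * v0 i x + l1 i x * v1 i x = 1
  h : B → ℂ → ℂ → ℂ
  hh : lift3 h ∈ LL 𝒦 0 6
  hv : ∀ i x, h x (v0 i x) (v1 i x) = 1

variable {𝒦}
variable (T : Tri 𝒦)

/-- `v_i ∧ y` -/
def Tri.mi (i : Fin 3) : FF B := lift3 (fun x y0 y1 => T.v0 i x * y1 - T.v1 i x * y0)
/-- `l_i(y)` -/
def Tri.li (i : Fin 3) : FF B := lift3 (fun x y0 y1 => T.l0 i x * y0 + T.l1 i x * y1)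
/-- `h` -/
def Tri.hF : FF B := lift3 T.h
/-- `γ = Π (v_i ∧ y)` -/
def Tri.gF : FF B := T.mi 0 * T.mi 1 * T.mi 2

lemma Tri.mi_mem (i : Fin 3) : T.mi i ∈ LL 𝒦 0 1 := by
  have : T.mi i = liftc (T.v0 i) * lift3 (fun (_ : B) _ y1 => y1)
      - liftc (T.v1 i) * lift3 (fun (_ : B) y0 _ => y0) := by
    funext x y0 y1 e w; simp [Tri.mi, lift3, liftc]
  rw [this]
  exact Submodule.sub_mem _ (mul_mem_of 𝒦 (liftc_mem 𝒦 (T.hv0 i)) (y1_mem 𝒦) rfl rfl)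
    (mul_mem_of 𝒦 (liftc_mem 𝒦 (T.hv1 i)) (y0_mem 𝒦) rfl rfl)

lemma Tri.li_mem (i : Fin 3) : T.li i ∈ LL 𝒦 0 1 := by
  have : T.li i = liftc (T.l0 i) * lift3 (fun (_ : B) y0 _ => y0)
      + liftc (T.l1 i) * lift3 (fun (_ : B) _ y1 => y1) := by
    funext x y0 y1 e w; simp [Tri.li, lift3, liftc]
  rw [this]
  exact Submodule.add_mem _ (mul_mem_of 𝒦 (liftc_mem 𝒦 (T.hl0 i)) (y0_mem 𝒦) rfl rfl)
    (mul_mem_of 𝒦 (liftc_mem 𝒦 (T.hl1 i)) (y1_mem 𝒦) rfl rfl)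

lemma Tri.gF_mem : T.gF ∈ LL 𝒦 0 3 :=
  mul_mem_of 𝒦 (mul_mem_of 𝒦 (T.mi_mem 0) (T.mi_mem 1) rfl rfl) (T.mi_mem 2) rfl rfl

/-- one Newton step -/
lemma Tri.newton (i : Fin 3) (d D : ℕ) (hD : D + 1 = d + 6) (G : FF B) (hG : G ∈ LL 𝒦 0 (D + 1)) :
    ∃ c ∈ 𝒦, ∃ G' ∈ LL 𝒦 0 D, G = liftc c * T.li i ^ d * T.hF + T.mi i * G' := by
  set c : B → ℂ := fun x => G x (T.v0 i x) (T.v1 i x) 0 0 with hc
  have hc𝒦 : c ∈ 𝒦 := eval_mem 𝒦 hG (T.hv0 i) (T.hv1 i)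
  have hmem : liftc c * T.li i ^ d * T.hF ∈ LL 𝒦 0 (D + 1) := by
    exact mul_mem_of 𝒦 (mul_mem_of 𝒦 (liftc_mem 𝒦 hc𝒦)
      (pow_mem_of 𝒦 (T.li_mem i) d (M := 0) (Q := d) (by simp) (by simp)) rfl rfl)
      T.hh rfl (by omega)
  have hsub : G - liftc c * T.li i ^ d * T.hF ∈ LL 𝒦 0 (D + 1) := Submodule.sub_mem _ hG hmem
  obtain ⟨G', hG', hE⟩ := factor_form 𝒦 (T.hv0 i) (T.hv1 i) (T.hl0 i) (T.hl1 i) (T.hl i) D _ hsub
    (by
      intro x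
      have h1 := T.hl i x
      have h2 := T.hv i x
      simp only [Pi.sub_apply, Pi.mul_apply, Pi.pow_apply, liftc, Tri.li, Tri.hF, lift3]
      rw [h1, h2, hc]
      simp)
  refine ⟨c, hc𝒦, G', hG', ?_⟩
  funext x y0 y1 e w
  have := hE x y0 y1 e w
  simp only [Pi.sub_apply, Pi.mul_apply, Pi.pow_apply, Pi.add_apply, Tri.mi, lift3] at this ⊢
  linear_combination this

/-- every form of degree `≥ 8` is `α h + β γ` -/
lemma Tri.bezout (d : ℕ) (G : FF B) (hG : G ∈ LL 𝒦 0 (d + 8)) :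
    ∃ α ∈ LL 𝒦 0 (d + 2), ∃ β ∈ LL 𝒦 0 (d + 5), G = α * T.hF + β * T.gF := by
  obtain ⟨c1, hc1, G1, hG1, h1⟩ := T.newton 0 (d + 2) (d + 7) (by omega) G hG
  obtain ⟨c2, hc2, G2, hG2, h2⟩ := T.newton 1 (d + 1) (d + 6) (by omega) G1 hG1
  obtain ⟨c3, hc3, G3, hG3, h3⟩ := T.newton 2 d (d + 5) (by omega) G2 hG2
  refine ⟨liftc c1 * T.li 0 ^ (d + 2) + T.mi 0 * (liftc c2 * T.li 1 ^ (d + 1)) +
    T.mi 0 * T.mi 1 * (liftc c3 * T.li 2 ^ d), ?_, G3, hG3, ?_⟩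
  · refine Submodule.add_mem _ (Submodule.add_mem _ ?_ ?_) ?_
    · exact mul_mem_of 𝒦 (liftc_mem 𝒦 hc1) (pow_mem_of 𝒦 (T.li_mem 0) (d + 2) (Q := d + 2) (M := 0)
        (by simp) (by simp)) rfl (by omega)
    · exact mul_mem_of 𝒦 (T.mi_mem 0) (mul_mem_of 𝒦 (liftc_mem 𝒦 hc2)
        (pow_mem_of 𝒦 (T.li_mem 1) (d + 1) (Q := d + 1) (M := 0) (by simp) (by simp)) rfl rfl)
        rfl (by omega)
    · exact mul_mem_of 𝒦 (mul_mem_of 𝒦 (T.mi_mem 0) (T.mi_mem 1) rfl rfl)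
        (mul_mem_of 𝒦 (liftc_mem 𝒦 hc3)
        (pow_mem_of 𝒦 (T.li_mem 2) d (Q := d) (M := 0) (by simp) (by simp)) rfl rfl)
        rfl (by omega)
  · unfold Tri.gF
    rw [h1, h2, h3]
    ring

/-- evaluation at `e = h`, `w = γ` -/
def Tri.ev (F : FF B) : FF B :=
  fun x y0 y1 _ _ => F x y0 y1 (T.hF x y0 y1 0 0) (T.gF x y0 y1 0 0)

lemma Tri.ev_add (F G : FF B) : T.ev (F + G) = T.ev F + T.ev G := by
  funext x y0 y1 e w; simp [Tri.ev]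
lemma Tri.ev_sub (F G : FF B) : T.ev (F - G) = T.ev F - T.ev G := by
  funext x y0 y1 e w; simp [Tri.ev]
lemma Tri.ev_mul (F G : FF B) : T.ev (F * G) = T.ev F * T.ev G := by
  funext x y0 y1 e w; simp [Tri.ev]
lemma Tri.ev_pow (F : FF B) (n : ℕ) : T.ev (F ^ n) = T.ev F ^ n := by
  funext x y0 y1 e w; simp [Tri.ev]
lemma Tri.ev_e : T.ev eF = T.hF := by
  funext x y0 y1 e w; simp [Tri.ev, eF, Tri.hF, lift3]
lemma Tri.ev_w : T.ev wF = T.gF := by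
  funext x y0 y1 e w; simp [Tri.ev, wF, Tri.gF, Tri.mi, lift3]
lemma Tri.ev_deg0 {q : ℕ} {F : FF B} (hF : F ∈ LL 𝒦 0 q) : T.ev F = F := by
  funext x y0 y1 e w
  exact deg0_indep 𝒦 hF x y0 y1 _ _ _ _

lemma Tri.ev_mem {m q : ℕ} {F : FF B} (hF : F ∈ LL 𝒦 m q) : T.ev F ∈ LL 𝒦 0 (6 * m + q) := by
  refine LL_induction 𝒦 (p := fun F => T.ev F ∈ LL 𝒦 0 (6 * m + q)) ?_ ?_ ?_ ?_ hF
  · intro c hc a b i j h1 h2
    have : T.ev (mono c a b i j) = mono c a b 0 0 * T.hF ^ i * T.gF ^ j := by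
      funext x y0 y1 e w
      simp [Tri.ev, mono, Tri.hF, Tri.gF, Tri.mi, lift3]
    rw [this]
    refine mul_mem_of 𝒦 (mul_mem_of 𝒦 (mono_mem 𝒦 c hc a b 0 0 0 (a + b) rfl (by omega))
      (pow_mem_of 𝒦 T.hh i (M := 0) (Q := i * 6) (by simp) rfl) rfl rfl)
      (pow_mem_of 𝒦 T.gF_mem j (M := 0) (Q := j * 3) (by simp) rfl) rfl (by omega)
  · intro F G h1 h2; rw [T.ev_add]; exact Submodule.add_mem _ h1 h2
  · exact Submodule.zero_mem _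
  · intro t F h
    have : T.ev (t • F) = t • T.ev F := by funext x y0 y1 e w; simp [Tri.ev]
    rw [this]
    exact Submodule.smul_mem _ _ h

/-- Lifting lemma: forms of degree `6 m + q`, `q ≥ 2`, lift to the `m`-th symmetric power -/
lemma Tri.lift (m : ℕ) : ∀ q : ℕ, 2 ≤ q → ∀ G ∈ LL 𝒦 0 (6 * m + q), ∃ F ∈ LL 𝒦 m q, T.ev F = G := by
  induction m with
  | zero =>
    intro q _ G hG
    have hG' : G ∈ LL 𝒦 0 q := by simpa using hG
    exact ⟨G, hG', T.ev_deg0 hG'⟩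
  | succ m ih =>
    intro q hq G hG
    obtain ⟨α, hα, β, hβ, hE⟩ := T.bezout (6 * m + q - 2) G (by
      have : 6 * m + q - 2 + 8 = 6 * (m + 1) + q := by omega
      rw [this]; exact hG)
    have e1 : 6 * m + q - 2 + 2 = 6 * m + q := by omega
    have e2 : 6 * m + q - 2 + 5 = 6 * m + (q + 3) := by omega
    rw [e1] at hα
    rw [e2] at hβ
    obtain ⟨Fα, hFα, hα'⟩ := ih q hq α hα
    obtain ⟨Fβ, hFβ, hβ'⟩ := ih (q + 3) (by omega) β hβ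
    refine ⟨eF * Fα + wF * Fβ, Submodule.add_mem _ ?_ ?_, ?_⟩
    · exact mul_mem_of 𝒦 (eF_mem 𝒦) hFα (by omega) (by omega)
    · exact w_mul_mem 𝒦 hFβ
    · rw [T.ev_add, T.ev_mul, T.ev_mul, T.ev_e, T.ev_w, hα', hβ', hE]
      ring

/-- continuity in `y` -/
lemma cont_y {m q : ℕ} {F : FF B} (hF : F ∈ LL 𝒦 m q) (x : B) (e w : ℂ) (a b c d : ℂ) :
    Continuous (fun t : ℂ => F x (a + t * b) (c + t * d) e w) := by
  refine LL_induction 𝒦 (p := fun F => Continuous (fun t : ℂ => F x (a + t * b) (c + t * d) e w))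
    ?_ ?_ ?_ ?_ hF
  · intro c' _ a' b' i j _ _
    simp only [mono]
    fun_prop
  · intro F G h1 h2
    simp only [Pi.add_apply]
    exact h1.add h2
  · simp only [Pi.zero_apply]
    exact continuous_const
  · intro t F h
    simp only [Pi.smul_apply]
    exact h.const_smul t

/-- cancellation of `v_i ∧ y` -/
lemma Tri.cancel (i : Fin 3) {m q : ℕ} {F : FF B} (hF : F ∈ LL 𝒦 m q) (h : T.mi i * F = 0) :
    F = 0 := by
  funext x y0 y1 e w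
  have hcont := cont_y hF x e w y0 (-(T.l1 i x)) y1 (T.l0 i x)
  have hz : ∀ t : ℂ, (T.v0 i x * y1 - T.v1 i x * y0 + t) *
      F x (y0 + t * (-(T.l1 i x))) (y1 + t * (T.l0 i x)) e w = 0 := by
    intro t
    have h1 := congrFun (congrFun (congrFun (congrFun (congrFun h x) (y0 + t * (-(T.l1 i x))))
      (y1 + t * (T.l0 i x))) e) w
    simp only [Pi.mul_apply, Tri.mi, lift3, Pi.zero_apply] at h1
    have h2 := T.hl i x
    rw [← h1]
    congr 1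
    linear_combination (-t) * h2
  set c := T.v0 i x * y1 - T.v1 i x * y0 with hc
  have hne : ∀ t : ℂ, t ≠ -c → F x (y0 + t * (-(T.l1 i x))) (y1 + t * (T.l0 i x)) e w = 0 := by
    intro t ht
    rcases mul_eq_zero.mp (hz t) with h1 | h1
    · exact absurd (by linear_combination h1) ht
    · exact h1
  have hdense : Dense ({-c}ᶜ : Set ℂ) := dense_compl_singleton (-c)
  have hfun : (fun t : ℂ => F x (y0 + t * (-(T.l1 i x))) (y1 + t * (T.l0 i x)) e w) = fun _ => 0 := by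
    apply Continuous.ext_on hdense hcont continuous_const
    intro t ht
    exact hne t ht
  have := congrFun hfun 0
  simpa using this

/-- `κ = γ e - h w` -/
def Tri.kap : FF B := T.gF * eF - T.hF * wF

lemma decomp {m q : ℕ} {F : FF B} (hF : F ∈ LL 𝒦 (m + 1) q) :
    ∃ q0 ∈ LL 𝒦 0 q, ∃ F1 ∈ LL 𝒦 m (q + 3), F = q0 * eF ^ (m + 1) + wF * F1 := by
  refine LL_induction 𝒦 (p := fun F => ∃ q0 ∈ LL 𝒦 0 q, ∃ F1 ∈ LL 𝒦 m (q + 3),
    F = q0 * eF ^ (m + 1) + wF * F1) ?_ ?_ ?_ ?_ hF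
  · intro c hc a b i j h1 h2
    rcases Nat.eq_zero_or_pos j with hj | hj
    · subst hj
      have hi : i = m + 1 := by omega
      subst hi
      refine ⟨mono c a b 0 0, mono_mem 𝒦 c hc a b 0 0 0 q rfl (by omega), 0, Submodule.zero_mem _, ?_⟩
      funext x y0 y1 e w
      simp [mono, eF]
    · obtain ⟨j', rfl⟩ : ∃ j', j = j' + 1 := ⟨j - 1, by omega⟩
      refine ⟨0, Submodule.zero_mem _, mono c a b i j', mono_mem 𝒦 c hc a b i j' m (q + 3)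
        (by omega) (by omega), ?_⟩
      funext x y0 y1 e w
      simp only [mono, wF, Pi.mul_apply, Pi.add_apply, zero_mul, Pi.zero_apply]
      ring
  · rintro F G ⟨q0, h0, F1, h1, hE⟩ ⟨q0', h0', F1', h1', hE'⟩
    refine ⟨q0 + q0', Submodule.add_mem _ h0 h0', F1 + F1', Submodule.add_mem _ h1 h1', ?_⟩
    rw [hE, hE']; ring
  · exact ⟨0, Submodule.zero_mem _, 0, Submodule.zero_mem _, by simp⟩
  · rintro t F ⟨q0, h0, F1, h1, hE⟩
    refine ⟨t • q0, Submodule.smul_mem _ _ h0, t • F1, Submodule.smul_mem _ _ h1, ?_⟩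
    rw [hE, smul_add, smul_mul_assoc, mul_smul_comm]

/-- Kernel lemma -/
lemma Tri.kernel (m : ℕ) : ∀ q : ℕ, ∀ F ∈ LL 𝒦 (m + 1) (q + 3), T.ev F = 0 →
    ∃ G ∈ LL 𝒦 m q, F = T.kap * G := by
  -- common step
  have step : ∀ m q : ℕ, ∀ F ∈ LL 𝒦 (m + 1) (q + 3), T.ev F = 0 →
      ∃ q3 ∈ LL 𝒦 0 q, ∃ F2 ∈ LL 𝒦 m (q + 6), T.ev F2 = 0 ∧
        F = T.kap * (q3 * eF ^ m) + wF * F2 := by
    intro m q F hF hev
    obtain ⟨q0, h0, F1, h1, hE⟩ := decomp hF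
    have hev1 : T.ev F1 ∈ LL 𝒦 0 (6 * m + (q + 3 + 3)) := T.ev_mem h1
    have hrel : q0 * T.hF ^ (m + 1) + T.gF * T.ev F1 = 0 := by
      rw [hE, T.ev_add, T.ev_mul, T.ev_mul, T.ev_pow, T.ev_e, T.ev_w, T.ev_deg0 h0] at hev
      exact hev
    have hhp : T.hF ^ (m + 1) ∈ LL 𝒦 0 ((m + 1) * 6) :=
      pow_mem_of 𝒦 T.hh (m + 1) (by simp) rfl
    have hm1m2 : T.mi 1 * T.mi 2 ∈ LL 𝒦 0 2 := mul_mem_of 𝒦 (T.mi_mem 1) (T.mi_mem 2) rfl rfl
    -- vanishing along v_0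
    have z0 : ∀ x, q0 x (T.v0 0 x) (T.v1 0 x) 0 0 = 0 := by
      intro x
      have := congrFun (congrFun (congrFun (congrFun (congrFun hrel x) (T.v0 0 x)) (T.v1 0 x)) 0) 0
      simp only [Pi.add_apply, Pi.mul_apply, Pi.pow_apply, Tri.hF, Tri.gF, Tri.mi, lift3,
        T.hv 0 x, Pi.zero_apply] at this
      linear_combination this
    obtain ⟨q1, hq1, hE1⟩ := factor_form 𝒦 (T.hv0 0) (T.hv1 0) (T.hl0 0) (T.hl1 0) (T.hl 0)
      (q + 2) q0 h0 z0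
    have hE1' : q0 = T.mi 0 * q1 := by
      funext x y0 y1 e w; rw [hE1 x y0 y1 e w]; simp [Tri.mi, lift3]
    have hrel1 : q1 * T.hF ^ (m + 1) + T.mi 1 * T.mi 2 * T.ev F1 = 0 := by
      refine T.cancel 0 (m := 0) (q := 6 * m + q + 8) ?_ ?_
      · refine Submodule.add_mem _ ?_ ?_
        · exact mul_mem_of 𝒦 hq1 hhp rfl (by omega)
        · exact mul_mem_of 𝒦 hm1m2 hev1 rfl (by omega)
      · rw [hE1'] at hrel
        rw [← hrel]; unfold Tri.gF; ring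
    have z1 : ∀ x, q1 x (T.v0 1 x) (T.v1 1 x) 0 0 = 0 := by
      intro x
      have := congrFun (congrFun (congrFun (congrFun (congrFun hrel1 x) (T.v0 1 x)) (T.v1 1 x)) 0) 0
      simp only [Pi.add_apply, Pi.mul_apply, Pi.pow_apply, Tri.hF, Tri.gF, Tri.mi, lift3,
        T.hv 1 x, Pi.zero_apply] at this
      linear_combination this
    obtain ⟨q2, hq2, hE2⟩ := factor_form 𝒦 (T.hv0 1) (T.hv1 1) (T.hl0 1) (T.hl1 1) (T.hl 1)
      (q + 1) q1 hq1 z1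
    have hE2' : q1 = T.mi 1 * q2 := by
      funext x y0 y1 e w; rw [hE2 x y0 y1 e w]; simp [Tri.mi, lift3]
    have hrel2 : q2 * T.hF ^ (m + 1) + T.mi 2 * T.ev F1 = 0 := by
      refine T.cancel 1 (m := 0) (q := 6 * m + q + 7) ?_ ?_
      · refine Submodule.add_mem _ ?_ ?_
        · exact mul_mem_of 𝒦 hq2 hhp rfl (by omega)
        · exact mul_mem_of 𝒦 (T.mi_mem 2) hev1 rfl (by omega)
      · rw [hE2'] at hrel1
        rw [← hrel1]; ring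
    have z2 : ∀ x, q2 x (T.v0 2 x) (T.v1 2 x) 0 0 = 0 := by
      intro x
      have := congrFun (congrFun (congrFun (congrFun (congrFun hrel2 x) (T.v0 2 x)) (T.v1 2 x)) 0) 0
      simp only [Pi.add_apply, Pi.mul_apply, Pi.pow_apply, Tri.hF, Tri.gF, Tri.mi, lift3,
        T.hv 2 x, Pi.zero_apply] at this
      linear_combination this
    obtain ⟨q3, hq3, hE3⟩ := factor_form 𝒦 (T.hv0 2) (T.hv1 2) (T.hl0 2) (T.hl1 2) (T.hl 2)
      q q2 hq2 z2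
    have hE3' : q2 = T.mi 2 * q3 := by
      funext x y0 y1 e w; rw [hE3 x y0 y1 e w]; simp [Tri.mi, lift3]
    have hrel3 : q3 * T.hF ^ (m + 1) + T.ev F1 = 0 := by
      refine T.cancel 2 (m := 0) (q := 6 * m + q + 6) ?_ ?_
      · refine Submodule.add_mem _ ?_ ?_
        · exact mul_mem_of 𝒦 hq3 hhp rfl (by omega)
        · have : 6 * m + (q + 3 + 3) = 6 * m + q + 6 := by omega
          rw [← this]; exact hev1
      · rw [hE3'] at hrel2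
        rw [← hrel2]; ring
    refine ⟨q3, hq3, q3 * T.hF * eF ^ m + F1, ?_, ?_, ?_⟩
    · refine Submodule.add_mem _ ?_ ?_
      · exact mul_mem_of 𝒦 (mul_mem_of 𝒦 hq3 T.hh rfl rfl)
          (pow_mem_of 𝒦 (eF_mem 𝒦) m (M := m) (Q := 0) (by simp) (by simp)) (by omega) (by omega)
      · have : q + 6 = q + 3 + 3 := by omega
        rw [this]; exact h1
    · rw [T.ev_add, T.ev_mul, T.ev_mul, T.ev_pow, T.ev_e, T.ev_deg0 hq3]
      have hh0 : T.ev T.hF = T.hF := T.ev_deg0 T.hh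
      rw [hh0, ← hrel3]
      ring
    · rw [hE, hE1', hE2', hE3']
      unfold Tri.kap Tri.gF
      ring
  induction m with
  | zero =>
    intro q F hF hev
    obtain ⟨q3, hq3, F2, hF2, hev2, hE⟩ := step 0 q F hF hev
    have : F2 = 0 := by rw [← T.ev_deg0 hF2, hev2]
    refine ⟨q3, hq3, ?_⟩
    rw [hE, this]
    simp
  | succ m ih =>
    intro q F hF hev
    obtain ⟨q3, hq3, F2, hF2, hev2, hE⟩ := step (m + 1) q F hF hev
    obtain ⟨G, hG, hE2⟩ := ih (q + 3) F2 hF2 hev2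
    refine ⟨q3 * eF ^ (m + 1) + wF * G, Submodule.add_mem _ ?_ (w_mul_mem 𝒦 hG), ?_⟩
    · exact mul_mem_of 𝒦 hq3 (pow_mem_of 𝒦 (eF_mem 𝒦) (m + 1) (M := m + 1) (Q := 0) (by simp)
        (by simp)) (by omega) (by omega)
    · rw [hE, hE2]; ring

end H1

end

end Crest.Agent.Quadric
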