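import Crest.Agent.Quadric.H1Ker

set_option autoImplicit false
set_option linter.unusedSimpArgs false

namespace Crest.Agent.Quadric

noncomputable section

/-- sections over `{x-chart i} × ℙ¹` of `Sᵐ E (·, q)`: functions of `(x,y0,y1,e,w)` -/
def Sec (m q : ℕ) : Submodule ℂ (ℂ → ℂ → ℂ → ℂ → ℂ → ℂ) :=
  Submodule.span ℂ {F | ∃ k a b i j : ℕ, i + j = m ∧ a + b = 3*j + q ∧
    F = fun x y0 y1 e w => x^k * y0^a * y1^b * e^i * w^j}

namespace H1

/-- polynomial functions -/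
def K0 : Subalgebra ℂ (ℂ → ℂ) where
  carrier := {c | ∃ P : Polynomial ℂ, ∀ x, c x = P.eval x}
  mul_mem' := by
    rintro a b ⟨P, hP⟩ ⟨Q, hQ⟩
    exact ⟨P * Q, fun x => by simp [hP, hQ]⟩
  add_mem' := by
    rintro a b ⟨P, hP⟩ ⟨Q, hQ⟩
    exact ⟨P + Q, fun x => by simp [hP, hQ]⟩
  algebraMap_mem' := by
    intro r
    exact ⟨Polynomial.C r, fun x => by simp⟩

/-- Laurent polynomial functions -/
def KL : Subalgebra ℂ (ℂˣ → ℂ) where
  carrier := {c | ∃ N : ℕ, ∃ P : Polynomial ℂ, ∀ x : ℂˣ, c x = ((x : ℂ) ^ N)⁻¹ * P.eval (x : ℂ)}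
  mul_mem' := by
    rintro a b ⟨N, P, hP⟩ ⟨M, Q, hQ⟩
    refine ⟨N + M, P * Q, fun x => ?_⟩
    have hx : (x : ℂ) ≠ 0 := x.ne_zero
    simp only [Pi.mul_apply, hP, hQ, Polynomial.eval_mul]
    field_simp
    ring
  add_mem' := by
    rintro a b ⟨N, P, hP⟩ ⟨M, Q, hQ⟩
    refine ⟨N + M, P * Polynomial.X ^ M + Q * Polynomial.X ^ N, fun x => ?_⟩
    have hx : (x : ℂ) ≠ 0 := x.ne_zero
    simp only [Pi.add_apply, hP, hQ, Polynomial.eval_add, Polynomial.eval_mul, Polynomial.eval_pow,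
      Polynomial.eval_X]
    field_simp
    ring
  algebraMap_mem' := by
    intro r
    exact ⟨0, Polynomial.C r, fun x => by simp⟩

lemma x_mem_K0 : (fun x : ℂ => x) ∈ K0 := ⟨Polynomial.X, fun x => by simp⟩
lemma const_mem_K0 (c : ℂ) : (fun _ : ℂ => c) ∈ K0 := ⟨Polynomial.C c, fun x => by simp⟩
lemma lin_mem_K0 (a b : ℂ) : (fun x : ℂ => a + b * x) ∈ K0 :=
  ⟨Polynomial.C a + Polynomial.C b * Polynomial.X, fun x => by simp⟩

lemma res_mem_KL {c : ℂ → ℂ} (hc : c ∈ K0) : (fun x : ℂˣ => c x) ∈ KL := by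
  obtain ⟨P, hP⟩ := hc
  exact ⟨0, P, fun x => by simp [hP]⟩

lemma inv_pow_mem_KL (N : ℕ) : (fun x : ℂˣ => ((x : ℂ) ^ N)⁻¹) ∈ KL :=
  ⟨N, 1, fun x => by simp⟩

lemma zpow_mem_KL (p : ℤ) : (fun x : ℂˣ => (x : ℂ) ^ p) ∈ KL := by
  rcases Int.eq_nat_or_neg p with ⟨n, rfl | rfl⟩
  · refine ⟨0, Polynomial.X ^ n, fun x => by simp⟩
  · refine ⟨n, 1, fun x => by simp⟩

lemma inv_mem_KL {c : ℂ → ℂ} (hc : c ∈ K0) : (fun x : ℂˣ => c (x : ℂ)⁻¹) ∈ KL := by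
  obtain ⟨P, hP⟩ := hc
  have : (fun x : ℂˣ => c (x : ℂ)⁻¹) = fun x : ℂˣ => P.eval (x : ℂ)⁻¹ := by
    funext x; rw [hP]
  rw [this]
  induction P using Polynomial.induction_on' generalizing c with
  | add P Q h1 h2 =>
    have := KL.add_mem (h1 (c := fun x => P.eval x) (fun x => rfl) rfl)
      (h2 (c := fun x => Q.eval x) (fun x => rfl) rfl)
    convert this using 1
    funext x; simp
  | monomial n a =>
    refine ⟨n, Polynomial.C a, fun x => ?_⟩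
    simp [mul_comm]

/-- splitting of Laurent polynomials, `p ≥ -1` -/
lemma split_coeff {c : ℂˣ → ℂ} (hc : c ∈ KL) (p : ℤ) (hp : -1 ≤ p) :
    ∃ c0 ∈ K0, ∃ c1 ∈ K0, ∀ x : ℂˣ, c x = c0 x + (x : ℂ) ^ p * c1 (x : ℂ)⁻¹ := by
  obtain ⟨N, P, hP⟩ := hc
  induction P using Polynomial.induction_on' generalizing c with
  | add P Q h1 h2 =>
    obtain ⟨a0, ha0, a1, ha1, hA⟩ := h1 (c := fun x => ((x : ℂ) ^ N)⁻¹ * P.eval (x : ℂ)) (fun x => rfl)
    obtain ⟨b0, hb0, b1, hb1, hB⟩ := h2 (c := fun x => ((x : ℂ) ^ N)⁻¹ * Q.eval (x : ℂ)) (fun x => rfl)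
    refine ⟨a0 + b0, K0.add_mem ha0 hb0, a1 + b1, K0.add_mem ha1 hb1, fun x => ?_⟩
    rw [hP]
    have := hA x
    have := hB x
    simp only [Polynomial.eval_add, Pi.add_apply] at *
    linear_combination hA x + hB x
  | monomial n a =>
    by_cases h : N ≤ n
    · refine ⟨fun x => a * x ^ (n - N), ?_, 0, K0.zero_mem, fun x => ?_⟩
      · exact ⟨Polynomial.C a * Polynomial.X ^ (n - N), fun x => by simp⟩
      · have hx : (x : ℂ) ≠ 0 := x.ne_zero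
        rw [hP]
        obtain ⟨d, rfl⟩ := Nat.exists_eq_add_of_le h
        simp only [Polynomial.eval_monomial, Pi.zero_apply, mul_zero, add_zero, Nat.add_sub_cancel_left]
        field_simp
        ring
    · push Not at h
      obtain ⟨d, hd⟩ : ∃ d : ℕ, (d : ℤ) = p - ((n : ℤ) - N) :=
        ⟨(p - ((n : ℤ) - N)).toNat, Int.toNat_of_nonneg (by omega)⟩
      refine ⟨0, K0.zero_mem, fun x => a * x ^ d, ?_, fun x => ?_⟩
      · exact ⟨Polynomial.C a * Polynomial.X ^ d, fun x => by simp⟩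
      · have hx : (x : ℂ) ≠ 0 := x.ne_zero
        rw [hP]
        simp only [Polynomial.eval_monomial, Pi.zero_apply, zero_add]
        have e1 : (((x : ℂ))⁻¹) ^ d = (x : ℂ) ^ (-(d : ℤ)) := by
          rw [zpow_neg, zpow_natCast, inv_pow]
        have e2 : ((x : ℂ) ^ N)⁻¹ = (x : ℂ) ^ (-(N : ℤ)) := by
          rw [zpow_neg, zpow_natCast]
        have e3 : (x : ℂ) ^ n = (x : ℂ) ^ (n : ℤ) := by rw [zpow_natCast]
        rw [e1, e2, e3]
        have e4 : (x : ℂ) ^ p * (a * (x : ℂ) ^ (-(d : ℤ))) = a * ((x : ℂ) ^ p * (x : ℂ) ^ (-(d : ℤ))) := by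
          ring
        have e5 : (x : ℂ) ^ (-(N : ℤ)) * (a * (x : ℂ) ^ (n : ℤ)) =
          a * ((x : ℂ) ^ (-(N : ℤ)) * (x : ℂ) ^ (n : ℤ)) := by ring
        rw [e4, e5, ← zpow_add₀ hx, ← zpow_add₀ hx]
        congr 2
        omega

/-! ### the three instances -/

lemma rho_mem : rho ∈ K0 := by
  have : rho = fun x => (3 * ζ - 2) + ζ * x := by funext x; rfl
  rw [this]; exact lin_mem_K0 _ _
lemma sig_mem : sig ∈ K0 := by
  have : sig = fun x => 6 + (3 - 2 * ζ) * x := by funext x; rfl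
  rw [this]; exact lin_mem_K0 _ _
lemma rho1_mem : rho1 ∈ K0 := by
  have : rho1 = fun x => ζ + (3 * ζ - 2) * x := by funext x; unfold rho1; ring
  rw [this]; exact lin_mem_K0 _ _
lemma sig1_mem : sig1 ∈ K0 := by
  have : sig1 = fun x => (3 - 2 * ζ) + 6 * x := by funext x; unfold sig1; ring
  rw [this]; exact lin_mem_K0 _ _

section
variable {B : Type*} (𝒦 : Subalgebra ℂ (B → ℂ))

lemma lin_form_mem {a b : B → ℂ} (ha : a ∈ 𝒦) (hb : b ∈ 𝒦) :
    lift3 (fun x y0 y1 => a x * y0 + b x * y1) ∈ LL 𝒦 0 1 := by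
  have : lift3 (fun x y0 y1 => a x * y0 + b x * y1) = liftc a * lift3 (fun (_ : B) y0 _ => y0)
      + liftc b * lift3 (fun (_ : B) _ y1 => y1) := by
    funext x y0 y1 e w; simp [lift3, liftc]
  rw [this]
  exact Submodule.add_mem _ (mul_mem_of 𝒦 (liftc_mem 𝒦 ha) (y0_mem 𝒦) rfl rfl)
    (mul_mem_of 𝒦 (liftc_mem 𝒦 hb) (y1_mem 𝒦) rfl rfl)

end

lemma hH0_mem' : lift3 hH0 ∈ LL K0 0 6 := by
  have h1 := lin_form_mem K0 (a := fun x => 0 + (-1) * x) (b := fun _ => 1) (lin_mem_K0 _ _) (const_mem_K0 _)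
  have h2 := lin_form_mem K0 (a := fun x => 0 + (-ζ) * x) (b := fun _ => 1) (lin_mem_K0 _ _) (const_mem_K0 _)
  have h3 := lin_form_mem K0 (a := fun _ => 1 - 3 * ζ) (b := fun _ => -1) (const_mem_K0 _) (const_mem_K0 _)
  have hr : (fun x : ℂ => (-1 + 10 * ζ) + (3 + 4 * ζ) * x + x ^ 2) ∈ K0 :=
    ⟨Polynomial.C (-1 + 10 * ζ) + Polynomial.C (3 + 4 * ζ) * Polynomial.X + Polynomial.X ^ 2,
      fun x => by simp only [Polynomial.eval_add, Polynomial.eval_mul, Polynomial.eval_C,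
        Polynomial.eval_X, Polynomial.eval_pow]⟩
  have h4 := liftc_mem K0 hr
  have e : lift3 hH0 = (lift3 (fun (_ : ℂ) y0 _ => y0)) ^ 6 +
      (lift3 (fun x y0 y1 => (0 + (-1) * x) * y0 + 1 * y1)) *
      (lift3 (fun x y0 y1 => (0 + (-ζ) * x) * y0 + 1 * y1)) *
      liftc (fun x : ℂ => (-1 + 10 * ζ) + (3 + 4 * ζ) * x + x ^ 2) *
      (lift3 (fun _ y0 y1 => (1 - 3 * ζ) * y0 + (-1) * y1)) ^ 4 := by
    funext x y0 y1 e w
    simp only [lift3, liftc, hH0, Pi.add_apply, Pi.mul_apply, Pi.pow_apply]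
    ring
  rw [e]
  refine Submodule.add_mem _ (pow_mem_of K0 (y0_mem K0) 6 rfl rfl) ?_
  exact mul_mem_of K0 (mul_mem_of K0 (mul_mem_of K0 h1 h2 rfl rfl) h4 rfl rfl)
    (pow_mem_of K0 h3 4 (M := 0) (Q := 4) rfl rfl) rfl rfl

lemma hH1_mem' : lift3 hH1 ∈ LL K0 0 6 := by
  have h1 := lin_form_mem K0 (a := fun _ => -1) (b := fun x => x) (const_mem_K0 _) x_mem_K0
  have h2 := lin_form_mem K0 (a := fun _ => -ζ) (b := fun x => x) (const_mem_K0 _) x_mem_K0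
  have h3 := lin_form_mem K0 (a := fun _ => -6 + 6 * ζ) (b := fun _ => 1 + 2 * ζ) (const_mem_K0 _)
    (const_mem_K0 _)
  have hr : (fun x : ℂ => (-324 + 360 * ζ) + (-1512 + 864 * ζ) * x - 1296 * x ^ 2) ∈ K0 :=
    ⟨Polynomial.C (-324 + 360 * ζ) + Polynomial.C (-1512 + 864 * ζ) * Polynomial.X
      - Polynomial.C 1296 * Polynomial.X ^ 2,
      fun x => by simp only [Polynomial.eval_add, Polynomial.eval_mul, Polynomial.eval_C,
        Polynomial.eval_X, Polynomial.eval_pow, Polynomial.eval_sub]⟩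
  have h4 := liftc_mem K0 hr
  have e : lift3 hH1 = (lift3 (fun (_ : ℂ) _ y1 => y1)) ^ 6 +
      (lift3 (fun x y0 y1 => (-1) * y0 + x * y1)) *
      (lift3 (fun x y0 y1 => (-ζ) * y0 + x * y1)) *
      liftc (fun x : ℂ => (-324 + 360 * ζ) + (-1512 + 864 * ζ) * x - 1296 * x ^ 2) *
      (lift3 (fun _ y0 y1 => (-6 + 6 * ζ) * y0 + (1 + 2 * ζ) * y1)) ^ 4 := by
    funext x y0 y1 e w
    simp only [lift3, liftc, hH1, Pi.add_apply, Pi.mul_apply, Pi.pow_apply]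
    ring
  rw [e]
  refine Submodule.add_mem _ (pow_mem_of K0 (y1_mem K0) 6 rfl rfl) ?_
  exact mul_mem_of K0 (mul_mem_of K0 (mul_mem_of K0 h1 h2 rfl rfl) h4 rfl rfl)
    (pow_mem_of K0 h3 4 (M := 0) (Q := 4) rfl rfl) rfl rfl

lemma forall_fin3 {P : Fin 3 → Prop} (h0 : P 0) (h1 : P 1) (h2 : P 2) : ∀ i, P i := by
  intro i; fin_cases i <;> assumption

/-- chart 0 -/
def T0 : Tri K0 where
  v0 := ![fun _ => 1, fun _ => 1, rho]
  v1 := ![fun x => x, fun x => 0 + ζ * x, sig]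
  l0 := ![fun _ => 1, fun _ => 1, fun _ => 1 - 3 * ζ]
  l1 := ![fun _ => 0, fun _ => 0, fun _ => -1]
  hv0 := forall_fin3 (const_mem_K0 _) (const_mem_K0 _) rho_mem
  hv1 := forall_fin3 x_mem_K0 (lin_mem_K0 _ _) sig_mem
  hl0 := forall_fin3 (const_mem_K0 _) (const_mem_K0 _) (const_mem_K0 _)
  hl1 := forall_fin3 (const_mem_K0 _) (const_mem_K0 _) (const_mem_K0 _)
  hl := by
    refine forall_fin3 ?_ ?_ ?_
    · intro x; simp
    · intro x; simp
    · intro x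
      simp only [Matrix.cons_val]
      unfold rho sig
      have := zeta_rel
      linear_combination (-9 - 3 * x) * this
  h := hH0
  hh := hH0_mem'
  hv := by
    refine forall_fin3 ?_ ?_ ?_
    · intro x; simpa using hH0_v1 x
    · intro x; simpa using hH0_v2 x
    · intro x; simpa using hH0_v3 x

/-- chart 1 -/
def T1 : Tri K0 where
  v0 := ![fun x => x, fun x => x, rho1]
  v1 := ![fun _ => 1, fun _ => ζ, sig1]
  l0 := ![fun _ => 0, fun _ => 0, fun _ => -6 + 6 * ζ]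
  l1 := ![fun _ => 1, fun _ => 1 - ζ, fun _ => 1 + 2 * ζ]
  hv0 := forall_fin3 x_mem_K0 x_mem_K0 rho1_mem
  hv1 := forall_fin3 (const_mem_K0 _) (const_mem_K0 _) sig1_mem
  hl0 := forall_fin3 (const_mem_K0 _) (const_mem_K0 _) (const_mem_K0 _)
  hl1 := forall_fin3 (const_mem_K0 _) (const_mem_K0 _) (const_mem_K0 _)
  hl := by
    refine forall_fin3 ?_ ?_ ?_
    · intro x; simp
    · intro x
      simp only [Matrix.cons_val]
      have := zeta_rel
      linear_combination (-1) * this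
    · intro x
      simp only [Matrix.cons_val]
      unfold rho1 sig1
      have := zeta_rel
      linear_combination (18 * x + 2) * this
  h := hH1
  hh := hH1_mem'
  hv := by
    refine forall_fin3 ?_ ?_ ?_
    · intro x; simpa using hH1_v1 x
    · intro x; simpa using hH1_v2 x
    · intro x; simpa using hH1_v3 x

/-! ### restriction and transfer to Laurent functions -/

/-- restriction to `x ≠ 0` -/
def res (F : FF ℂ) : FF ℂˣ := fun x => F x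

/-- change of frame from chart 1 to chart 0, twisted by `O(p)` -/
def tr (p : ℤ) (F : FF ℂ) : FF ℂˣ := fun x y0 y1 e w =>
  (x : ℂ) ^ p * F (x : ℂ)⁻¹ y0 y1 ((x : ℂ) ^ 6 * e + tauH x y0 y1 * w) (((x : ℂ) ^ 3)⁻¹ * w)

lemma res_mem {m q : ℕ} {F : FF ℂ} (hF : F ∈ LL K0 m q) : res F ∈ LL KL m q := by
  refine LL_induction K0 (p := fun F => res F ∈ LL KL m q) ?_ ?_ ?_ ?_ hF
  · intro c hc a b i j h1 h2
    exact mono_mem KL _ (res_mem_KL hc) a b i j m q h1 h2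
  · intro F G h1 h2; exact Submodule.add_mem _ h1 h2
  · exact Submodule.zero_mem _
  · intro t F h; exact Submodule.smul_mem _ t h

lemma res_add (F G : FF ℂ) : res (F + G) = res F + res G := rfl
lemma res_mul (F G : FF ℂ) : res (F * G) = res F * res G := rfl
lemma tr_add (p : ℤ) (F G : FF ℂ) : tr p (F + G) = tr p F + tr p G := by
  funext x y0 y1 e w; simp [tr]; ring

section tau

lemma term_mem (k : ℕ) (a b c d : ℂ) :
    lift3 (fun (x : ℂˣ) y0 y1 => (x : ℂ) ^ k *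
      (a * (y0 ^ 3) + b * (y0 ^ 2 * y1) + c * (y0 * y1 ^ 2) + d * (y1 ^ 3))) ∈ LL KL 0 3 := by
  have e : (lift3 (fun (x : ℂˣ) y0 y1 => (x : ℂ) ^ k *
      (a * (y0 ^ 3) + b * (y0 ^ 2 * y1) + c * (y0 * y1 ^ 2) + d * (y1 ^ 3)))) =
      mono (fun x : ℂˣ => (x : ℂ) ^ k * a) 3 0 0 0 +
      mono (fun x : ℂˣ => (x : ℂ) ^ k * b) 2 1 0 0 +
      mono (fun x : ℂˣ => (x : ℂ) ^ k * c) 1 2 0 0 +
      mono (fun x : ℂˣ => (x : ℂ) ^ k * d) 0 3 0 0 := by
    funext x y0 y1 e w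
    simp only [lift3, mono, Pi.add_apply]
    ring
  have hk : ∀ a : ℂ, (fun x : ℂˣ => (x : ℂ) ^ k * a) ∈ KL := fun a =>
    ⟨0, Polynomial.X ^ k * Polynomial.C a, fun x => by
      simp only [pow_zero, inv_one, one_mul, Polynomial.eval_mul, Polynomial.eval_pow,
        Polynomial.eval_X, Polynomial.eval_C]⟩
  rw [e]
  refine Submodule.add_mem _ (Submodule.add_mem _ (Submodule.add_mem _ ?_ ?_) ?_) ?_
  · exact mono_mem KL _ (hk a) _ _ _ _ _ _ rfl rfl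
  · exact mono_mem KL _ (hk b) _ _ _ _ _ _ rfl rfl
  · exact mono_mem KL _ (hk c) _ _ _ _ _ _ rfl rfl
  · exact mono_mem KL _ (hk d) _ _ _ _ _ _ rfl rfl

lemma add_mem3 {f g : ℂˣ → ℂ → ℂ → ℂ} (hf : lift3 f ∈ LL KL 0 3) (hg : lift3 g ∈ LL KL 0 3) :
    lift3 (fun x y0 y1 => f x y0 y1 + g x y0 y1) ∈ LL KL 0 3 := Submodule.add_mem _ hf hg

lemma tauP_mem : lift3 (fun (x : ℂˣ) y0 y1 => tauP x y0 y1) ∈ LL KL 0 3 := by
  unfold tauP
  iterate 11 refine add_mem3 ?_ (term_mem _ _ _ _ _)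
  exact term_mem _ _ _ _ _

/-- `τ` as a form -/
lemma tau_mem : lift3 (fun (x : ℂˣ) y0 y1 => tauH x y0 y1) ∈ LL KL 0 3 := by
  have e : lift3 (fun (x : ℂˣ) y0 y1 => tauH x y0 y1) =
      liftc (fun x : ℂˣ => ((x : ℂ) ^ 4)⁻¹) * lift3 (fun (x : ℂˣ) y0 y1 => tauP x y0 y1) := by
    funext x y0 y1 e w
    simp [lift3, liftc, tauH]
  rw [e]
  exact mul_mem_of KL (liftc_mem KL (inv_pow_mem_KL 4)) tauP_mem rfl rfl

end tau

lemma wpow_mul_mem {B : Type*} (𝒦 : Subalgebra ℂ (B → ℂ)) (j : ℕ) :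
    ∀ {m q : ℕ} {F : FF B}, F ∈ LL 𝒦 m (q + 3 * j) → wF ^ j * F ∈ LL 𝒦 (m + j) q := by
  induction j with
  | zero => intro m q F hF; simpa using hF
  | succ j ih =>
    intro m q F hF
    have h1 : F ∈ LL 𝒦 m ((q + 3) + 3 * j) := by
      have : q + 3 * (j + 1) = q + 3 + 3 * j := by omega
      rw [← this]; exact hF
    have h2 := w_mul_mem 𝒦 (ih h1)
    have e : (wF : FF B) ^ (j + 1) * F = wF * (wF ^ j * F) := by ring
    rw [e]
    exact h2

/-- `e₁ = x⁶ e + τ w` as a function -/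
def e1F : FF ℂˣ := liftc (fun x : ℂˣ => (x : ℂ) ^ 6) * eF +
  wF * lift3 (fun (x : ℂˣ) y0 y1 => tauH x y0 y1)

lemma e1F_mem : e1F ∈ LL KL 1 0 := by
  refine Submodule.add_mem _ ?_ (w_mul_mem KL tau_mem)
  exact mul_mem_of KL (liftc_mem KL ⟨0, Polynomial.X ^ 6, fun x => by simp⟩) (eF_mem KL) rfl rfl

lemma tr_mem (p : ℤ) {m q : ℕ} {F : FF ℂ} (hF : F ∈ LL K0 m q) : tr p F ∈ LL KL m q := by
  refine LL_induction K0 (p := fun F => tr p F ∈ LL KL m q) ?_ ?_ ?_ ?_ hF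
  · intro c hc a b i j h1 h2
    have e : tr p (mono c a b i j) = wF ^ j * (liftc (fun x : ℂˣ => (x : ℂ) ^ p) *
        mono (fun x : ℂˣ => c (x : ℂ)⁻¹) a b 0 0 * liftc (fun x : ℂˣ => ((x : ℂ) ^ 3)⁻¹) ^ j *
        e1F ^ i) := by
      funext x y0 y1 e w
      simp only [tr, mono, wF, liftc, e1F, eF, lift3, Pi.mul_apply, Pi.pow_apply, Pi.add_apply]
      ring
    rw [e]
    have h3 : liftc (fun x : ℂˣ => (x : ℂ) ^ p) *
        mono (fun x : ℂˣ => c (x : ℂ)⁻¹) a b 0 0 * liftc (fun x : ℂˣ => ((x : ℂ) ^ 3)⁻¹) ^ j *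
        e1F ^ i ∈ LL KL i (q + 3 * j) := by
      refine mul_mem_of KL (mul_mem_of KL (mul_mem_of KL (liftc_mem KL (zpow_mem_KL p))
        (mono_mem KL _ (inv_mem_KL hc) a b 0 0 0 (a + b) rfl (by omega)) rfl rfl)
        (pow_mem_of KL (liftc_mem KL (inv_pow_mem_KL 3)) j (M := 0) (Q := 0) (by simp) (by simp))
        rfl rfl) (pow_mem_of KL e1F_mem i (M := i) (Q := 0) (by simp) (by simp)) (by omega) (by omega)
    have h4 := wpow_mul_mem KL j h3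
    rw [h1] at h4
    exact h4
  · intro F G h1 h2; rw [tr_add]; exact Submodule.add_mem _ h1 h2
  · have : tr p (0 : FF ℂ) = 0 := by funext x y0 y1 e w; simp [tr]
    rw [this]; exact Submodule.zero_mem _
  · intro t F h
    have : tr p (t • F) = t • tr p F := by
      funext x y0 y1 e w; simp only [tr, Pi.smul_apply, smul_eq_mul]; ring
    rw [this]
    exact Submodule.smul_mem _ t h

/-- the split predicate -/
def Split (m q : ℕ) (p : ℤ) (Φ : FF ℂˣ) : Prop :=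
  ∃ F0 ∈ LL K0 m q, ∃ F1 ∈ LL K0 m q, Φ = res F0 + tr p F1

lemma Split.add {m q : ℕ} {p : ℤ} {Φ Ψ : FF ℂˣ} (h1 : Split m q p Φ) (h2 : Split m q p Ψ) :
    Split m q p (Φ + Ψ) := by
  obtain ⟨F0, hF0, F1, hF1, hE⟩ := h1
  obtain ⟨G0, hG0, G1, hG1, hE'⟩ := h2
  refine ⟨F0 + G0, Submodule.add_mem _ hF0 hG0, F1 + G1, Submodule.add_mem _ hF1 hG1, ?_⟩
  rw [hE, hE', tr_add, res_add]; ring

lemma Split.zero {m q : ℕ} {p : ℤ} : Split m q p 0 :=
  ⟨0, Submodule.zero_mem _, 0, Submodule.zero_mem _, by funext x y0 y1 e w; simp [res, tr]⟩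

lemma Split.smul {m q : ℕ} {p : ℤ} {Φ : FF ℂˣ} (t : ℂ) (h1 : Split m q p Φ) :
    Split m q p (t • Φ) := by
  obtain ⟨F0, hF0, F1, hF1, hE⟩ := h1
  refine ⟨t • F0, Submodule.smul_mem _ t hF0, t • F1, Submodule.smul_mem _ t hF1, ?_⟩
  rw [hE]
  funext x y0 y1 e w
  simp only [res, tr, Pi.add_apply, Pi.smul_apply, smul_eq_mul]
  ring

/-- degree 0 in `(e,w)` -/
lemma split_zero (q : ℕ) (p : ℤ) (hp : -1 ≤ p) {Φ : FF ℂˣ} (hΦ : Φ ∈ LL KL 0 q) :
    Split 0 q p Φ := by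
  refine LL_induction KL (p := fun Φ => Split 0 q p Φ) ?_ (fun F G => Split.add) Split.zero
    (fun t F h => Split.smul t h) hΦ
  intro c hc a b i j h1 h2
  have hi : i = 0 := by omega
  have hj : j = 0 := by omega
  subst hi; subst hj
  obtain ⟨c0, hc0, c1, hc1, hE⟩ := split_coeff hc p hp
  refine ⟨mono c0 a b 0 0, mono_mem K0 _ hc0 a b 0 0 0 q rfl h2, mono c1 a b 0 0,
    mono_mem K0 _ hc1 a b 0 0 0 q rfl h2, ?_⟩
  funext x y0 y1 e w
  simp only [mono, res, tr, Pi.add_apply, hE x]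
  ring

/-- Step 1: kill the coefficient of `e^(m+1)` -/
lemma step1 (m q : ℕ) (p : ℤ) (hp : -1 ≤ p) {Φ : FF ℂˣ} (hΦ : Φ ∈ LL KL (m + 1) q) :
    ∃ Φ0, Split (m + 1) q p Φ0 ∧ ∃ Φ1 ∈ LL KL m (q + 3), Φ = Φ0 + wF * Φ1 := by
  obtain ⟨q0, hq0, F1, hF1, hE⟩ := decomp hΦ
  obtain ⟨G0, hG0, G1, hG1, hG⟩ := split_zero q (p + 6 * (m + 1)) (by omega) hq0
  -- G1(x⁻¹) as a Laurent function
  have hG1' : tr 0 G1 ∈ LL KL 0 q := tr_mem 0 hG1
  have hind : ∀ (x : ℂ) (y0 y1 e w e' w' : ℂ), G1 x y0 y1 e w = G1 x y0 y1 e' w' :=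
    fun x y0 y1 e w e' w' => deg0_indep K0 hG1 x y0 y1 e w e' w'
  set a : FF ℂˣ := liftc (fun x : ℂˣ => (x : ℂ) ^ 6) * eF with ha
  have ha_mem : a ∈ LL KL 1 0 :=
    mul_mem_of KL (liftc_mem KL ⟨0, Polynomial.X ^ 6, fun x => by simp⟩) (eF_mem KL) rfl rfl
  have hgeom : e1F ^ (m + 1) - a ^ (m + 1) =
      (e1F - a) * ∑ i ∈ Finset.range (m + 1), e1F ^ i * a ^ (m - i) := by
    have := (Commute.all e1F a).geom_sum₂_mul (m + 1)
    rw [← this, mul_comm]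
    simp
  have hsum : ∑ i ∈ Finset.range (m + 1), e1F ^ i * a ^ (m - i) ∈ LL KL m 0 := by
    refine Submodule.sum_mem _ (fun i hi => ?_)
    have hi' : i < m + 1 := Finset.mem_range.mp hi
    exact mul_mem_of KL (pow_mem_of KL e1F_mem i (M := i) (Q := 0) (by simp) (by simp))
      (pow_mem_of KL ha_mem (m - i) (M := m - i) (Q := 0) (by simp) (by simp)) (by omega) rfl
  refine ⟨res (G0 * eF ^ (m + 1)) + tr p (G1 * eF ^ (m + 1)),
    ⟨G0 * eF ^ (m + 1), ?_, G1 * eF ^ (m + 1), ?_, rfl⟩,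
    F1 - lift3 (fun (x : ℂˣ) y0 y1 => tauH x y0 y1) * (liftc (fun x : ℂˣ => (x : ℂ) ^ p) *
      tr 0 G1 * ∑ i ∈ Finset.range (m + 1), e1F ^ i * a ^ (m - i)), ?_, ?_⟩
  · exact mul_mem_of K0 hG0 (pow_mem_of K0 (eF_mem K0) (m + 1) (M := m + 1) (Q := 0) (by simp)
      (by simp)) (by omega) (by omega)
  · exact mul_mem_of K0 hG1 (pow_mem_of K0 (eF_mem K0) (m + 1) (M := m + 1) (Q := 0) (by simp)
      (by simp)) (by omega) (by omega)
  · refine Submodule.sub_mem _ hF1 ?_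
    exact mul_mem_of KL tau_mem (mul_mem_of KL (mul_mem_of KL (liftc_mem KL (zpow_mem_KL p)) hG1' rfl
      rfl) hsum rfl rfl) (by omega) (by omega)
  · have e1 : tr p (G1 * eF ^ (m + 1)) = liftc (fun x : ℂˣ => (x : ℂ) ^ p) * tr 0 G1 *
        e1F ^ (m + 1) := by
      funext x y0 y1 e w
      simp only [tr, liftc, e1F, eF, wF, lift3, Pi.mul_apply, Pi.pow_apply, Pi.add_apply, zpow_zero,
        one_mul]
      rw [mul_comm w]
      ring
    have e2 : q0 * eF ^ (m + 1) = res (G0 * eF ^ (m + 1)) + liftc (fun x : ℂˣ => (x : ℂ) ^ p) *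
        tr 0 G1 * a ^ (m + 1) := by
      rw [hG]
      funext x y0 y1 e w
      simp only [tr, liftc, eF, res, ha, Pi.mul_apply, Pi.pow_apply, Pi.add_apply, zpow_zero,
        one_mul]
      have hx : (x : ℂ) ≠ 0 := x.ne_zero
      have hz : (x : ℂ) ^ (p + 6 * ((m : ℤ) + 1)) = (x : ℂ) ^ p * ((x : ℂ) ^ 6) ^ (m + 1) := by
        rw [zpow_add₀ hx]
        congr 1
        rw [← pow_mul, ← zpow_natCast]
        congr 1
      rw [hz, mul_pow]
      ring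
    have e3 : e1F - a = wF * lift3 (fun (x : ℂˣ) y0 y1 => tauH x y0 y1) := by
      rw [ha, e1F]; ring
    have e4 : e1F ^ (m + 1) = a ^ (m + 1) + wF * lift3 (fun (x : ℂˣ) y0 y1 => tauH x y0 y1) *
        ∑ i ∈ Finset.range (m + 1), e1F ^ i * a ^ (m - i) := by
      rw [← e3, ← hgeom]; ring
    rw [hE, e2, e1, e4]
    ring

end H1

end

end Crest.Agent.Quadric
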